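import Crest.Agent.R110.Cut

/-! # Row 110, task R110-Halve.
`halve`: `x = h r`, `y = h s` with `r, s` from `hI.pi h` (accuracy `β`), `z = xx⋆ - yy⋆` (`Sub z h`),
`d = cfc (fun t => √(max (t-τ) 0)) z`, `d' = cfc (fun t => √(max (-t-τ) 0)) z` (`cfc_fac`), `d * d = cut τ z`.
Upper bound: `π z ≤ π (xx⋆) ≤ ‖πx‖²`, so `‖π d‖² ≤ ‖π x‖²`.  Lower bound: `π z ≤ α := τ + ‖π d‖²`
(`cut_eq_zero_of_norm_cut`, `cut_eq_zero_iff_le`); conjugate by `x`: `(x⋆x)² ≤ α x⋆x + (x⋆y)(y⋆x)`, so `N² ≤ αN + β²`,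
`N ≤ α + β` for `N = ‖πx‖² = ‖π(x⋆x)‖`, and `|N - ‖πh‖²| ≤ β`.  Prove a one-sided lemma and apply it to `(x,y)`, `(y,x)`. -/

set_option autoImplicit false
set_option linter.unusedVariables false

namespace Crest.Agent.R110

universe u

variable {L : Type u} [CStarAlgebra L] [PartialOrder L] [StarOrderedRing L]

namespace HalveX

lemma upper (x y : L) {τ : ℝ} (hτ : 0 ≤ τ) : ‖cut τ (x * star x - y * star y)‖ ≤ ‖x‖ ^ 2 := by
  have hz : IsSelfAdjoint (x * star x - y * star y) :=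
    (IsSelfAdjoint.mul_star_self x).sub (IsSelfAdjoint.mul_star_self y)
  have h1 : x * star x - y * star y ≤ algebraMap ℝ L (‖x‖ ^ 2) := by
    refine le_trans (sub_le_self _ (mul_star_self_nonneg y)) ?_
    have h2 := (IsSelfAdjoint.mul_star_self x).le_algebraMap_norm_self
    rwa [CStarRing.norm_self_mul_star, ← sq] at h2
  rw [le_algebraMap_iff_spectrum_le] at h1
  refine norm_cfc_le (by positivity) fun t ht => ?_
  rw [Real.norm_eq_abs, abs_of_nonneg (le_max_right _ _)]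
  exact max_le (by linarith [h1 t ht]) (by positivity)

lemma lower (x y : L) {τ β : ℝ} (hτ : 0 ≤ τ) (hβ : ‖star x * y‖ ≤ β) :
    ‖x‖ ^ 2 ≤ τ + ‖cut τ (x * star x - y * star y)‖ + β := by
  have hz : IsSelfAdjoint (x * star x - y * star y) :=
    (IsSelfAdjoint.mul_star_self x).sub (IsSelfAdjoint.mul_star_self y)
  have h1 := (cut_eq_zero_iff_le _ hz).1 (cut_eq_zero_of_norm_cut (τ := τ) hz le_rfl)
  set α := τ + ‖cut τ (x * star x - y * star y)‖ with hα
  have hα0 : 0 ≤ α := add_nonneg hτ (norm_nonneg _)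
  have hβ0 : 0 ≤ β := (norm_nonneg _).trans hβ
  have h2 := star_left_conjugate_le_conjugate h1 x
  have h3 : star (star x * x) * (star x * x) ≤
      α • (star x * x) + (star x * y) * star (star x * y) := by
    have e1 : star x * (x * star x - y * star y) * x =
        star (star x * x) * (star x * x) - (star x * y) * star (star x * y) := by
      simp only [star_mul, star_star]
      noncomm_ring
    have e2 : star x * (α • (1 : L)) * x = α • (star x * x) := by
      rw [mul_smul_comm, mul_one, smul_mul_assoc]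
    rw [e1, e2] at h2
    exact sub_le_iff_le_add.1 h2
  have h4 := CStarAlgebra.norm_le_norm_of_nonneg_of_le (star_mul_self_nonneg _) h3
  have h5 : ‖star x * x‖ = ‖x‖ ^ 2 := by rw [CStarRing.norm_star_mul_self, sq]
  rw [CStarRing.norm_star_mul_self, h5] at h4
  have h6 : ‖α • (star x * x) + (star x * y) * star (star x * y)‖ ≤ α * ‖x‖ ^ 2 + β * β := by
    refine (norm_add_le _ _).trans (add_le_add ?_ ?_)
    · rw [norm_smul, h5, Real.norm_eq_abs, abs_of_nonneg hα0]
    · rw [CStarRing.norm_self_mul_star]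
      exact mul_self_le_mul_self (norm_nonneg _) hβ
  by_contra hn
  have h7 : α + β < ‖x‖ ^ 2 := not_le.1 hn
  nlinarith

/-- square root of the cut -/
noncomputable def sq (τ : ℝ) (z : L) : L := cfc (fun t : ℝ => √(max (t - τ) 0)) z

lemma sq_nonneg' (τ : ℝ) (z : L) : 0 ≤ sq τ z := cfc_nonneg fun _ _ => Real.sqrt_nonneg _

omit [PartialOrder L] [StarOrderedRing L] in
lemma sq_mul (τ : ℝ) (z : L) : sq τ z * sq τ z = cut τ z := by
  unfold sq cut
  rw [← cfc_mul ..]
  congr 1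
  funext t
  exact Real.mul_self_sqrt (le_max_right _ _)

omit [PartialOrder L] [StarOrderedRing L] in
lemma sq_sub {τ : ℝ} (hτ : 0 < τ) {z : L} (hz : IsSelfAdjoint z) : Sub (sq τ z) z := by
  obtain ⟨w, hw, -⟩ := cfc_fac (fun t : ℝ => √(max (t - τ) 0)) (by fun_prop) hτ (fun t ht => by
    have := (abs_lt.1 ht).2
    rw [max_eq_right (by linarith), Real.sqrt_zero]) hz
  exact ⟨w, hw⟩

omit [PartialOrder L] [StarOrderedRing L] in
lemma sq_orth {τ : ℝ} (hτ : 0 < τ) {z : L} (hz : IsSelfAdjoint z) : sq τ z * sq τ (-z) = 0 := by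
  unfold sq
  rw [← cfc_comp_neg .., ← cfc_mul ..]
  have : (fun t : ℝ => √(max (t - τ) 0) * √(max (-t - τ) 0)) = fun _ => 0 := by
    funext t
    rcases le_total t 0 with h | h
    · rw [max_eq_right (by linarith : t - τ ≤ 0), Real.sqrt_zero, zero_mul]
    · rw [max_eq_right (by linarith : -t - τ ≤ 0), Real.sqrt_zero, mul_zero]
  rw [this]
  exact cfc_const_zero ℝ z

lemma side (x y h : L) (h0 : 0 ≤ h) {β : ℝ} (hβ : 0 < β) (h1 : ‖star x * x - star h * h‖ < β)
    (h2 : ‖star x * y‖ < β) (Q : Type u) [CStarAlgebra Q] (π : L →⋆ₐ[ℂ] Q) :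
    |‖π (sq β (x * star x - y * star y))‖ ^ 2 - ‖π h‖ ^ 2| ≤ 3 * β := by
  letI := CStarAlgebra.spectralOrder Q
  haveI := CStarAlgebra.spectralOrderedRing Q
  have hz : IsSelfAdjoint (x * star x - y * star y) :=
    (IsSelfAdjoint.mul_star_self x).sub (IsSelfAdjoint.mul_star_self y)
  have hs : star (sq β (x * star x - y * star y)) = sq β (x * star x - y * star y) :=
    (IsSelfAdjoint.of_nonneg (sq_nonneg' _ _)).star_eq
  have e1 : ‖π (sq β (x * star x - y * star y))‖ ^ 2 =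
      ‖cut β (π x * star (π x) - π y * star (π y))‖ := by
    rw [pow_two, ← CStarRing.norm_star_mul_self, ← map_star, ← map_mul, hs, sq_mul,
      map_cut π β hz, map_sub, map_mul, map_mul, map_star, map_star]
  have hn : ∀ a : L, ‖π a‖ ≤ ‖a‖ := fun a => NonUnitalStarAlgHom.norm_apply_le π a
  have a1 := upper (π x) (π y) hβ.le
  have a2 := lower (π x) (π y) hβ.le (β := β) (by
    rw [← map_star, ← map_mul]; exact (hn _).trans h2.le)
  have a3 : |‖π x‖ ^ 2 - ‖π h‖ ^ 2| ≤ β := by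
    rw [pow_two, pow_two, ← CStarRing.norm_star_mul_self, ← CStarRing.norm_star_mul_self]
    refine (abs_norm_sub_norm_le _ _).trans ?_
    rw [← map_star, ← map_star, ← map_mul, ← map_mul, ← map_sub]
    exact (hn _).trans h1.le
  rw [e1, abs_le]
  rw [abs_le] at a3
  constructor <;> linarith [a3.1, a3.2]

end HalveX

open HalveX in
theorem halve {I : Set L} (hI : Ctx I) {h : L} (hh : h ∈ I) (h0 : 0 ≤ h) {δ : ℝ} (hδ : 0 < δ) :
    ∃ d d' : L, 0 ≤ d ∧ 0 ≤ d' ∧ Sub d h ∧ Sub d' h ∧ d * d' = 0 ∧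
      ∀ (Q : Type u) [CStarAlgebra Q] (π : L →⋆ₐ[ℂ] Q),
        |‖π d‖ ^ 2 - ‖π h‖ ^ 2| ≤ δ ∧ |‖π d'‖ ^ 2 - ‖π h‖ ^ 2| ≤ δ := by
  have hβ : 0 < δ / 3 := by linarith
  obtain ⟨r, s, h1, h2, h3⟩ := hI.pi h hh (δ / 3) hβ
  have hz : IsSelfAdjoint (h * r * star (h * r) - h * s * star (h * s)) :=
    (IsSelfAdjoint.mul_star_self _).sub (IsSelfAdjoint.mul_star_self _)
  have hsub : Sub (h * r * star (h * r) - h * s * star (h * s)) h :=
    ⟨r * star (h * r) - s * star (h * s), by noncomm_ring⟩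
  have hsub' : Sub (-(h * r * star (h * r) - h * s * star (h * s))) h :=
    ⟨-(r * star (h * r) - s * star (h * s)), by noncomm_ring⟩
  have e : ∀ a b : L, star (h * a) * (h * b) = star a * (star h * h) * b := by
    intro a b
    rw [star_mul]
    noncomm_ring
  refine ⟨sq (δ / 3) (h * r * star (h * r) - h * s * star (h * s)),
    sq (δ / 3) (-(h * r * star (h * r) - h * s * star (h * s))), sq_nonneg' _ _, sq_nonneg' _ _,
    (sq_sub hβ hz).trans hsub, (sq_sub hβ hz.neg).trans hsub', sq_orth hβ hz, fun Q _ π => ⟨?_, ?_⟩⟩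
  · have := side (h * r) (h * s) h h0 hβ (by rw [e]; exact h1) (by rw [e]; exact h3) Q π
    linarith
  · have := side (h * s) (h * r) h h0 hβ (by rw [e]; exact h2)
      (by rw [← norm_star, star_mul, star_star, e]; exact h3) Q π
    rw [neg_sub]
    linarith

end Crest.Agent.R110
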