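import Crest.Agent.R110.Copies
import Crest.Agent.R110.Halve

/-! # Row 110, task R110-Chain.
`copies`: induction on `n` (for all `h`, `δ`): halve `h` into `d, d'` (accuracy `δ/2`), take `n` copies inside `d'`.
If `x = d z`, `y = d' z'`, `x` selfadjoint, then `x y = z⋆ d d' z' = 0`.
`chain`: `γ = σ/(2(n+1))`, `ℓ j = 2σ - 2jγ`, copies with accuracy `γ/2`, `p j = cut (ℓ j - γ) (d j * d j)`,
`g j = cut (ℓ j) (a * a)`, `θ = γ/2`; use `map_cut_eq_zero_iff`, `norm_map_le_cut`, `‖π (d*d)‖ = ‖π d‖^2`. -/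

set_option autoImplicit false
set_option linter.unusedVariables false

namespace Crest.Agent.R110

universe u

variable {L : Type u} [CStarAlgebra L] [PartialOrder L] [StarOrderedRing L]

namespace ChainX

omit [PartialOrder L] [StarOrderedRing L] in
theorem norm_map_sq {Q : Type u} [CStarAlgebra Q] (π : L →⋆ₐ[ℂ] Q) {x : L} (hx : IsSelfAdjoint x) :
    ‖π (x * x)‖ = ‖π x‖ ^ 2 := by
  have h : π (x * x) = star (π x) * π x := by rw [← map_star, hx.star_eq, map_mul]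
  rw [h, CStarRing.norm_star_mul_self, sq]

theorem sq_nonneg' {x : L} (hx : 0 ≤ x) : 0 ≤ x * x := by
  have := star_mul_self_nonneg x
  rwa [(IsSelfAdjoint.of_nonneg hx).star_eq] at this

end ChainX

theorem chain {I : Set L} (hI : Ctx I) (n : ℕ) {a : L} (ha : a ∈ I) (h0 : 0 ≤ a) {σ : ℝ}
    (hσ : 0 < σ) : ∃ p g : ℕ → L, (∀ j < n, 0 ≤ p j ∧ Sub (p j) a ∧ Van (cut σ (a * a)) (p j) ∧
      Cov (p j) (g j) ∧ Van (g j) (cut (2 * σ) (a * a)) ∧ ∀ i < j, Van (g j) (p i)) ∧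
      ∀ i < n, ∀ j < n, i ≠ j → p i * p j = 0 := by
  obtain ⟨γ, hγ, hγσ⟩ : ∃ γ : ℝ, 0 < γ ∧ 2 * ((n : ℝ) + 1) * γ = σ :=
    ⟨σ / (2 * ((n : ℝ) + 1)), by positivity, by field_simp⟩
  obtain ⟨d, hd, hdd⟩ := copies hI n ha h0 (δ := γ / 2) (by positivity)
  have haa : 0 ≤ a * a := ChainX.sq_nonneg' h0
  have hasa : IsSelfAdjoint a := IsSelfAdjoint.of_nonneg h0
  have hl : ∀ j < n, σ + 4 * γ ≤ 2 * σ - 2 * (j : ℝ) * γ := by
    intro j hj
    have : (j : ℝ) + 1 ≤ n := by exact_mod_cast hj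
    nlinarith
  have hsub : ∀ j < n, Sub (cut (2 * σ - 2 * (j : ℝ) * γ - γ) (d j * d j)) (d j) := by
    intro j hj
    have h1 := hl j hj
    exact (cut_sub (by linarith) (IsSelfAdjoint.of_nonneg (ChainX.sq_nonneg' (hd j hj).1))).trans
      ⟨d j, rfl⟩
  have hcmp : ∀ j < n, ∀ (Q : Type u) [CStarAlgebra Q] (π : L →⋆ₐ[ℂ] Q),
      |‖π (d j * d j)‖ - ‖π (a * a)‖| ≤ γ / 2 := by
    intro j hj Q _ π
    rw [ChainX.norm_map_sq π hasa, ChainX.norm_map_sq π (IsSelfAdjoint.of_nonneg (hd j hj).1)]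
    exact (hd j hj).2.2 Q π
  refine ⟨fun j => cut (2 * σ - 2 * (j : ℝ) * γ - γ) (d j * d j),
    fun j => cut (2 * σ - 2 * (j : ℝ) * γ) (a * a), fun j hj => ?_, fun i hi j hj hij => ?_⟩
  · have h1 := hl j hj
    have hj0 : (0 : ℝ) ≤ j := Nat.cast_nonneg j
    have hdj := ChainX.sq_nonneg' (hd j hj).1
    refine ⟨cut_nonneg _ _, (hsub j hj).trans (hd j hj).2.1, ?_, ⟨γ / 2, by positivity, ?_⟩,
      van_cut_mono (by nlinarith) (IsSelfAdjoint.of_nonneg haa), fun i hij => ?_⟩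
    · intro Q _ π hπ
      rw [map_cut_eq_zero_iff π hσ.le haa] at hπ
      rw [map_cut_eq_zero_iff π (by linarith) hdj]
      have := abs_le.1 (hcmp j hj Q π)
      linarith [this.2]
    · intro Q _ π hπ
      have h2 := norm_map_le_cut π (τ := 2 * σ - 2 * (j : ℝ) * γ - γ) (by linarith) hdj
      rw [map_cut_eq_zero_iff π (by linarith) haa]
      have := abs_le.1 (hcmp j hj Q π)
      linarith [this.1]
    · intro Q _ π hπ
      have hi : i < n := hij.trans hj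
      have h2 := hl i hi
      have h3 : (i : ℝ) + 1 ≤ j := by exact_mod_cast hij
      rw [map_cut_eq_zero_iff π (by linarith) haa] at hπ
      rw [map_cut_eq_zero_iff π (by linarith) (ChainX.sq_nonneg' (hd i hi).1)]
      have := abs_le.1 (hcmp i hi Q π)
      nlinarith [this.2]
  · obtain ⟨z, hz⟩ := hsub i hi
    obtain ⟨z', hz'⟩ := hsub j hj
    have hs := (cut_sa (2 * σ - 2 * (i : ℝ) * γ - γ) (d i * d i)).star_eq
    have hdi := (IsSelfAdjoint.of_nonneg (hd i hi).1).star_eq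
    show cut _ _ * cut _ _ = 0
    rw [← hs, hz, hz', star_mul, hdi, mul_assoc, ← mul_assoc (d i), hdd i hi j hj hij, zero_mul,
      mul_zero]

end Crest.Agent.R110
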