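import Crest.Agent.R110.Q0

/-!
# Row 110 (S0145): purely infinite ⇒ strongly purely infinite.  Definitions and overview.

`L` is a unital C⋆-algebra (at the end: the unitisation of `C`), `I ⊆ L` a ⋆-ideal (a set) such that `x⋆x` is
properly infinite for `x ∈ I` (`Ctx I`).  Statements about ideals are phrased through ⋆-homomorphisms `π`:
`Van g g'` says that `g'` lies in the closed ideal generated by `g`.
* `f1`  : `Van k x` gives `(kz)⋆(kz) ≈ x`.
* `os`  : one-sided criterion: if `B - λY ≤ ρ` forces `B ≤ η` in every quotient, then `t⋆Bt ≈ (B-η)₊`, `t⋆Yt` small.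
* `layer` : take orthogonal copies `v 0, …, v (n-1)` of (a cut of) `a²`, `s = ∑ v i / √n`, and markers
  `k m ⊆ (B - μ c⋆ S_m S_m⋆ c - η_{m+1})₊`, `S_m = ∑_{i<m} v i`.  Marker `m` is almost orthogonal to `S_m` by definition and
  is made orthogonal to `v i`, `i > m`, modulo the ideal of marker `i` by the hypothesis `HypL`; the only conflict
  `v m` has weight `1/√n`.  Downward induction on `m` verifies the hypothesis of `os`.
* `pc` (compact case: there is a full projection), `hb` (`layer` + `pc`), `main` (`layer` + `hb`).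
-/

set_option autoImplicit false

namespace Crest.Agent.R110

universe u

variable {L : Type u} [CStarAlgebra L]

/-- `(h - τ)₊` -/
noncomputable def cut (τ : ℝ) (h : L) : L := cfc (fun t : ℝ => max (t - τ) 0) h

/-- properly infinite -/
def PI (h : L) : Prop :=
  ∀ ε : ℝ, 0 < ε → ∃ r s : L,
    ‖star r * h * r - h‖ < ε ∧ ‖star s * h * s - h‖ < ε ∧ ‖star r * h * s‖ < ε

structure Ctx (I : Set L) : Prop where
  add : ∀ x ∈ I, ∀ y ∈ I, x + y ∈ I
  mul_left : ∀ y : L, ∀ x ∈ I, y * x ∈ I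
  mul_right : ∀ y : L, ∀ x ∈ I, x * y ∈ I
  star : ∀ x ∈ I, star x ∈ I
  pi : ∀ x ∈ I, PI (Star.star x * x)

/-- `g'` vanishes wherever `g` does -/
def Van (g g' : L) : Prop :=
  ∀ (Q : Type u) [CStarAlgebra Q] (π : L →⋆ₐ[ℂ] Q), π g = 0 → π g' = 0

/-- `g` vanishes wherever `k` is small -/
def Cov (k g : L) : Prop :=
  ∃ θ : ℝ, 0 < θ ∧ ∀ (Q : Type u) [CStarAlgebra Q] (π : L →⋆ₐ[ℂ] Q), ‖π k‖ ≤ θ → π g = 0

/-- `k' ∈ k L` -/
def Sub (k' k : L) : Prop := ∃ z, k' = k * z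

/-- the diagonalisation property in hereditary form -/
def Sol (a b : L) : Prop :=
  ∀ (c : L) (ε : ℝ), 0 < ε → ∃ s t : L, ‖star (a * s) * (a * s) - a * a‖ < ε ∧
    ‖star (b * t) * (b * t) - b * b‖ < ε ∧ ‖star (a * s) * c * (b * t)‖ < ε

/-- everything in `pL` is `c`-orthogonal to everything in `kL`, up to `δ`, modulo the ideal of `g` -/
def Rel (c g p k : L) (δ : ℝ) : Prop :=
  ∃ e' e j : L, e' * p = p ∧ e * k = k ∧ Van g j ∧ ‖star e' * c * e - j‖ ≤ δ

/-- the hypothesis of the layer lemma -/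
def HypL [PartialOrder L] (I : Set L) (a B : L) (σ η : ℝ) : Prop :=
  ∀ (Q : Type u) [CStarAlgebra Q] (π : L →⋆ₐ[ℂ] Q), Function.Surjective π →
    ∀ p k : L, p ∈ I → k ∈ I → 0 ≤ p → 0 ≤ k → Cov (π p) (π (cut η B)) → Cov (π p) (π k) →
      Van (π (cut σ (a * a))) (π p) → Sol (π p) (π k)

/-- `B - μ c⋆ S_m S_m⋆ c` with `S_m = ∑_{i<m} v i` -/
noncomputable def xm (B c : L) (μ : ℝ) (v : ℕ → L) (m : ℕ) : L :=
  B - μ • (star c * ((∑ i ∈ Finset.range m, v i) * star (∑ i ∈ Finset.range m, v i)) * c)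

/-- thresholds, decreasing from `η` (`m = 0`) to `η/2` (`m = n+1`) -/
noncomputable def th (η : ℝ) (n m : ℕ) : ℝ := η - m * (η / (2 * (n + 1)))

theorem Sub.refl (k : L) : Sub k k := ⟨1, (mul_one k).symm⟩

theorem Sub.trans {a b c : L} (h : Sub a b) (h' : Sub b c) : Sub a c := by
  obtain ⟨z, rfl⟩ := h
  obtain ⟨w, rfl⟩ := h'
  exact ⟨w * z, mul_assoc _ _ _⟩

theorem Sub.mul {a b : L} (h : Sub a b) (z : L) : Sub (a * z) b := Sub.trans ⟨z, rfl⟩ h

theorem Sub.mem {I : Set L} (hI : Ctx I) {a b : L} (h : Sub a b) (hb : b ∈ I) : a ∈ I := by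
  obtain ⟨z, rfl⟩ := h
  exact hI.mul_right z b hb

theorem Sub.van {a b : L} (h : Sub a b) : Van b a := by
  obtain ⟨z, rfl⟩ := h
  intro Q _ π hb
  rw [map_mul, hb, zero_mul]

theorem Van.refl (g : L) : Van g g := fun _ _ _ h => h

theorem Van.trans {a b c : L} (h : Van a b) (h' : Van b c) : Van a c :=
  fun Q _ π ha => h' Q π (h Q π ha)

theorem Cov.van {k g : L} (h : Cov k g) : Van k g := by
  obtain ⟨θ, hθ, h⟩ := h
  intro Q _ π hk
  exact h Q π (by rw [hk, norm_zero]; exact hθ.le)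

theorem Cov.trans_van {k g g' : L} (h : Cov k g) (h' : Van g g') : Cov k g' := by
  obtain ⟨θ, hθ, h⟩ := h
  exact ⟨θ, hθ, fun Q _ π hk => h' Q π (h Q π hk)⟩

theorem Van.map {Q : Type u} [CStarAlgebra Q] (π : L →⋆ₐ[ℂ] Q) {g g' : L} (h : Van g g') :
    Van (π g) (π g') := fun Q' _ π' hg => h Q' (π'.comp π) hg

theorem Cov.map {Q : Type u} [CStarAlgebra Q] (π : L →⋆ₐ[ℂ] Q) {k g : L} (h : Cov k g) :
    Cov (π k) (π g) := by
  obtain ⟨θ, hθ, h⟩ := h
  exact ⟨θ, hθ, fun Q' _ π' hk => h Q' (π'.comp π) hk⟩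

theorem Rel.mono {c g p k p' k' : L} {δ : ℝ} (h : Rel c g p k δ) (hp : Sub p' p) (hk : Sub k' k) :
    Rel c g p' k' δ := by
  obtain ⟨e', e, j, h1, h2, h3, h4⟩ := h
  obtain ⟨z, rfl⟩ := hp
  obtain ⟨w, rfl⟩ := hk
  exact ⟨e', e, j, by rw [← mul_assoc, h1], by rw [← mul_assoc, h2], h3, h4⟩

theorem Ctx.smul {I : Set L} (hI : Ctx I) (r : ℝ) {x : L} (hx : x ∈ I) : r • x ∈ I := by
  have := hI.mul_left (r • (1 : L)) x hx
  rwa [smul_mul_assoc, one_mul] at this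

theorem Ctx.sub {I : Set L} (hI : Ctx I) {x y : L} (hx : x ∈ I) (hy : y ∈ I) : x - y ∈ I := by
  have := hI.add x hx _ (hI.smul (-1) hy)
  rwa [neg_one_smul, ← sub_eq_add_neg] at this

theorem Sol.symm {a b : L} (h : Sol a b) : Sol b a := by
  intro c ε hε
  obtain ⟨s, t, h1, h2, h3⟩ := h (star c) ε hε
  refine ⟨t, s, h2, h1, ?_⟩
  rw [← norm_star] at h3
  simpa [mul_assoc] using h3

end Crest.Agent.R110
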