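import Crest.Agent.R110.Cut0
import Crest.Agent.R110.Defs

/-! # Row 110, task R110-Cut: functional calculus for `cut`.
For statements about `π : L →⋆ₐ[ℂ] Q` install an order on `Q` by `letI := CStarAlgebra.spectralOrder Q;
haveI := CStarAlgebra.spectralOrderedRing Q` and use `map_cut` (`StarAlgHomClass.map_cfc` / `StarAlgHom.map_cfc`),
`map_nonneg`.  `exists_unit_cut`: `w = cfc (fun t => 1 / max t τ) h`.  `cfc_fac`: `f t = t * g t` with
`g t = f t * t / max (t^2) (τ^2/4)`-like continuous `g`. -/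

set_option autoImplicit false
set_option linter.unusedVariables false

namespace Crest.Agent.R110

universe u

variable {L : Type u} [CStarAlgebra L] [PartialOrder L] [StarOrderedRing L]

namespace CutX

theorem mid_nonneg (τ : ℝ) {h : L} (hh : IsSelfAdjoint h) :
    0 ≤ cut τ h * h * cut τ h - τ • (cut τ h * cut τ h) := by
  have hc : Continuous (fun t : ℝ => max (t - τ) 0) := by fun_prop
  have e : cut τ h * h * cut τ h - τ • (cut τ h * cut τ h) =
      cfc (fun t : ℝ => max (t - τ) 0 * t * max (t - τ) 0 - τ • (max (t - τ) 0 * max (t - τ) 0)) h := by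
    rw [cfc_sub _ _ h (by fun_prop) (by fun_prop), cfc_smul τ _ h (by fun_prop),
      cfc_mul _ _ h (by fun_prop) (by fun_prop), cfc_mul _ _ h (by fun_prop) (by fun_prop),
      cfc_mul _ _ h (by fun_prop) (by fun_prop), cfc_id' ℝ h]
    rfl
  rw [e]
  refine cfc_nonneg fun t _ => ?_
  rw [smul_eq_mul]
  rcases le_total (t - τ) 0 with h1 | h1
  · rw [max_eq_right h1]; simp
  · rw [max_eq_left h1]
    have : (t - τ) * t * (t - τ) - τ * ((t - τ) * (t - τ)) = (t - τ) * (t - τ) * (t - τ) := by ring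
    rw [this]
    positivity

end CutX

/-- `star (cut τ h) * (h - τ) * cut τ h = cfc (..) h ≥ 0`, then conjugate -/
theorem cut_posreg {τ : ℝ} {h y : L} (hh : IsSelfAdjoint h) (hy : Sub y (cut τ h)) :
    τ • (star y * y) ≤ star y * h * y := by
  obtain ⟨z, rfl⟩ := hy
  have h1 := star_left_conjugate_nonneg (CutX.mid_nonneg τ hh) z
  rw [← sub_nonneg]
  refine h1.trans_eq ?_
  rw [star_mul, (cut_sa τ h).star_eq]
  simp only [mul_sub, sub_mul, mul_smul_comm, smul_mul_assoc, mul_assoc]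

theorem map_cut_eq_zero_iff {Q : Type u} [CStarAlgebra Q] (π : L →⋆ₐ[ℂ] Q) {τ : ℝ} (hτ : 0 ≤ τ)
    {h : L} (hh : 0 ≤ h) : π (cut τ h) = 0 ↔ ‖π h‖ ≤ τ := by
  letI := CStarAlgebra.spectralOrder Q
  haveI := CStarAlgebra.spectralOrderedRing Q
  have h0 : 0 ≤ π h := by simpa using OrderHomClass.mono π hh
  rw [map_cut π τ (IsSelfAdjoint.of_nonneg hh)]
  exact cut_eq_zero_iff_norm hτ h0

theorem norm_map_le_cut {Q : Type u} [CStarAlgebra Q] (π : L →⋆ₐ[ℂ] Q) {τ : ℝ} (hτ : 0 ≤ τ)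
    {h : L} (hh : 0 ≤ h) : ‖π h‖ ≤ ‖π (cut τ h)‖ + τ := by
  have h1 : ‖π (cut τ h - h)‖ ≤ τ :=
    (NonUnitalStarAlgHom.norm_apply_le π _).trans (norm_cut_sub hτ hh)
  have h2 : π h = π (cut τ h) - π (cut τ h - h) := by rw [map_sub]; abel
  calc ‖π h‖ = ‖π (cut τ h) - π (cut τ h - h)‖ := by rw [← h2]
    _ ≤ ‖π (cut τ h)‖ + ‖π (cut τ h - h)‖ := norm_sub_le _ _
    _ ≤ _ := by linarith

omit [PartialOrder L] [StarOrderedRing L] in
theorem van_cut_mono {τ τ' : ℝ} (hτ : τ ≤ τ') {h : L} (hh : IsSelfAdjoint h) :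
    Van (cut τ h) (cut τ' h) := by
  intro Q _ π h0
  have hs : IsSelfAdjoint (π h) := hh.map π
  rw [map_cut π τ hh] at h0
  rw [map_cut π τ' hh]
  have := cut_eq_zero_of_norm_cut (τ := τ) (θ := τ' - τ) hs (by rw [h0, norm_zero]; linarith)
  rwa [add_sub_cancel] at this

omit [PartialOrder L] [StarOrderedRing L] in
theorem cov_cut {τ τ' : ℝ} (hτ : τ < τ') {h : L} (hh : IsSelfAdjoint h) :
    Cov (cut τ h) (cut τ' h) := by
  refine ⟨τ' - τ, by linarith, fun Q _ π h0 => ?_⟩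
  have hs : IsSelfAdjoint (π h) := hh.map π
  rw [map_cut π τ hh] at h0
  rw [map_cut π τ' hh]
  have := cut_eq_zero_of_norm_cut (τ := τ) (θ := τ' - τ) hs h0
  rwa [add_sub_cancel] at this

/-- monotonicity of norms in a quotient -/
theorem norm_map_mono {Q : Type u} [CStarAlgebra Q] (π : L →⋆ₐ[ℂ] Q) {x y : L} (hx : 0 ≤ x)
    (hxy : x ≤ y) : ‖π x‖ ≤ ‖π y‖ := by
  letI := CStarAlgebra.spectralOrder Q
  haveI := CStarAlgebra.spectralOrderedRing Q
  have h0 : 0 ≤ π x := by simpa using OrderHomClass.mono π hx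
  exact CStarAlgebra.norm_le_norm_of_nonneg_of_le h0 (OrderHomClass.mono π hxy)

end Crest.Agent.R110
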