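import Crest.Agent.R110.Defs

/-! # Row 110, task R110-Idl: ideals through quotients (`exists_quot` of `Q0.lean`).
`Van.mem`: apply `exists_quot` to the ideal `{x | x ∈ J ∧ star x ∈ J}`.  `exists_quot_van`: the ideal `{j | Van g j}`.
`Van.lev`: `Van.mem` with `J = {x | ∀ σ > 0, ∃ η > 0, ∀ Q π, ‖π B‖ ≤ η → ‖π x‖ ≤ σ}` (⋆-homs are contractive:
`NonUnitalStarAlgHom.norm_apply_le`). -/

set_option autoImplicit false
set_option linter.unusedVariables false

namespace Crest.Agent.R110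

universe u

variable {L : Type u} [CStarAlgebra L]

theorem Van.mem {g g' : L} (h : Van g g') (hg : IsSelfAdjoint g) (J : Set L) (hc : IsClosed J)
    (hadd : ∀ x ∈ J, ∀ y ∈ J, x + y ∈ J) (hl : ∀ y : L, ∀ x ∈ J, y * x ∈ J)
    (hr : ∀ y : L, ∀ x ∈ J, x * y ∈ J) (hgJ : g ∈ J) : g' ∈ J := by
  let K : Ideal L :=
    { carrier := {x | x ∈ J ∧ star x ∈ J}
      add_mem' := fun {a b} ha hb => ⟨hadd _ ha.1 _ hb.1, by
        rw [star_add]; exact hadd _ ha.2 _ hb.2⟩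
      zero_mem' := by
        have : (0 : L) ∈ J := by simpa using hl 0 g hgJ
        exact ⟨this, by simpa using this⟩
      smul_mem' := fun c x hx => ⟨hl c x hx.1, by
        rw [smul_eq_mul, star_mul]; exact hr _ _ hx.2⟩ }
  have : K.IsTwoSided := ⟨fun {a} b ha => ⟨hr b a ha.1, by
    rw [star_mul]; exact hl _ _ ha.2⟩⟩
  have hKc : IsClosed (K : Set L) := hc.inter (hc.preimage continuous_star)
  obtain ⟨D, _, π, -, hker, -⟩ := exists_quot K hKc (fun x hx => ⟨hx.2, by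
    rw [star_star]; exact hx.1⟩)
  exact ((hker g').1 (h D π ((hker g).2 ⟨hgJ, by rw [hg.star_eq]; exact hgJ⟩))).1

theorem exists_quot_van (g : L) :
    ∃ (Q : Type u) (_ : CStarAlgebra Q) (π : L →⋆ₐ[ℂ] Q), Function.Surjective π ∧ π g = 0 ∧
      ∀ z δ, ‖π z‖ < δ → ∃ j, Van g j ∧ ‖z - j‖ < δ := by
  let K : Ideal L :=
    { carrier := {j | Van g j}
      add_mem' := fun {a b} ha hb Q _ π h0 => by rw [map_add, ha Q π h0, hb Q π h0, add_zero]
      zero_mem' := fun Q _ π _ => map_zero π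
      smul_mem' := fun c x hx Q _ π h0 => by rw [smul_eq_mul, map_mul, hx Q π h0, mul_zero] }
  have : K.IsTwoSided := ⟨fun {a} b ha Q _ π h0 => by rw [map_mul, ha Q π h0, zero_mul]⟩
  have hKc : IsClosed (K : Set L) := by
    refine isClosed_of_closure_subset fun x hx Q _ π h0 => ?_
    have hco : Continuous π := AddMonoidHomClass.continuous_of_bound π 1 fun y => by
      rw [one_mul]; exact NonUnitalStarAlgHom.norm_apply_le π y
    have hcl : IsClosed {y : L | π y = 0} := isClosed_eq hco continuous_const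
    exact closure_minimal (fun y (hy : Van g y) => hy Q π h0) hcl hx
  obtain ⟨D, _, π, hs, hker, hl⟩ := exists_quot K hKc (fun x hx Q _ π h0 => by
    rw [map_star, hx Q π h0, star_zero])
  exact ⟨D, inferInstance, π, hs, (hker g).2 (Van.refl g), hl⟩

theorem Ctx.map {I : Set L} (hI : Ctx I) {Q : Type u} [CStarAlgebra Q] (π : L →⋆ₐ[ℂ] Q)
    (hπ : Function.Surjective π) : Ctx (π '' I) := by
  refine ⟨?_, ?_, ?_, ?_, ?_⟩
  · rintro _ ⟨x, hx, rfl⟩ _ ⟨y, hy, rfl⟩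
    exact ⟨x + y, hI.add x hx y hy, map_add π x y⟩
  · rintro y _ ⟨x, hx, rfl⟩
    obtain ⟨y, rfl⟩ := hπ y
    exact ⟨y * x, hI.mul_left y x hx, map_mul π y x⟩
  · rintro y _ ⟨x, hx, rfl⟩
    obtain ⟨y, rfl⟩ := hπ y
    exact ⟨x * y, hI.mul_right y x hx, map_mul π x y⟩
  · rintro _ ⟨x, hx, rfl⟩
    exact ⟨Star.star x, hI.star x hx, map_star π x⟩
  · rintro _ ⟨x, hx, rfl⟩ ε hε
    obtain ⟨r, s, h1, h2, h3⟩ := hI.pi x hx ε hε
    refine ⟨π r, π s, ?_, ?_, ?_⟩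
    · refine lt_of_le_of_lt (le_of_eq_of_le ?_ (NonUnitalStarAlgHom.norm_apply_le π _)) h1
      simp only [map_sub, map_mul, map_star]
    · refine lt_of_le_of_lt (le_of_eq_of_le ?_ (NonUnitalStarAlgHom.norm_apply_le π _)) h2
      simp only [map_sub, map_mul, map_star]
    · refine lt_of_le_of_lt (le_of_eq_of_le ?_ (NonUnitalStarAlgHom.norm_apply_le π _)) h3
      simp only [map_mul, map_star]

theorem Van.lev {B g : L} (h : Van B g) (hB : IsSelfAdjoint B) {σ : ℝ} (hσ : 0 < σ) :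
    ∃ η : ℝ, 0 < η ∧ ∀ (Q : Type u) [CStarAlgebra Q] (π : L →⋆ₐ[ℂ] Q), ‖π B‖ ≤ η → ‖π g‖ ≤ σ := by
  refine h.mem hB {x | ∀ σ : ℝ, 0 < σ → ∃ η : ℝ, 0 < η ∧ ∀ (Q : Type u) [CStarAlgebra Q]
    (π : L →⋆ₐ[ℂ] Q), ‖π B‖ ≤ η → ‖π x‖ ≤ σ} ?_ ?_ ?_ ?_ ?_ σ hσ
  · refine isClosed_of_closure_subset fun x hx σ hσ => ?_
    obtain ⟨y, hy, hxy⟩ := Metric.mem_closure_iff.1 hx (σ / 2) (half_pos hσ)
    obtain ⟨η, hη, H⟩ := hy (σ / 2) (half_pos hσ)
    refine ⟨η, hη, fun Q _ π hB => ?_⟩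
    have h1 := H Q π hB
    have h2 : ‖π (x - y)‖ ≤ ‖x - y‖ := NonUnitalStarAlgHom.norm_apply_le π _
    rw [dist_eq_norm] at hxy
    have h3 : π x = π (x - y) + π y := by rw [map_sub]; abel
    rw [h3]
    exact (norm_add_le _ _).trans (by linarith)
  · intro x hx y hy σ hσ
    obtain ⟨η, hη, H⟩ := hx (σ / 2) (half_pos hσ)
    obtain ⟨η', hη', H'⟩ := hy (σ / 2) (half_pos hσ)
    refine ⟨min η η', lt_min hη hη', fun Q _ π hB => ?_⟩
    have h1 := H Q π (hB.trans (min_le_left _ _))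
    have h2 := H' Q π (hB.trans (min_le_right _ _))
    rw [map_add]
    exact (norm_add_le _ _).trans (by linarith)
  · intro y x hx σ hσ
    have hy : 0 < ‖y‖ + 1 := by positivity
    obtain ⟨η, hη, H⟩ := hx (σ / (‖y‖ + 1)) (div_pos hσ hy)
    refine ⟨η, hη, fun Q _ π hB => ?_⟩
    have h1 := H Q π hB
    have h2 : ‖π y‖ ≤ ‖y‖ + 1 := (NonUnitalStarAlgHom.norm_apply_le π _).trans (by linarith)
    rw [map_mul]
    refine (norm_mul_le _ _).trans ((mul_le_mul h2 h1 (norm_nonneg _) hy.le).trans (le_of_eq ?_))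
    field_simp
  · intro y x hx σ hσ
    have hy : 0 < ‖y‖ + 1 := by positivity
    obtain ⟨η, hη, H⟩ := hx (σ / (‖y‖ + 1)) (div_pos hσ hy)
    refine ⟨η, hη, fun Q _ π hB => ?_⟩
    have h1 := H Q π hB
    have h2 : ‖π y‖ ≤ ‖y‖ + 1 := (NonUnitalStarAlgHom.norm_apply_le π _).trans (by linarith)
    rw [map_mul]
    refine (norm_mul_le _ _).trans ((mul_le_mul h1 h2 (norm_nonneg _)
      (div_pos hσ hy).le).trans (le_of_eq ?_))
    field_simp
  · intro σ hσ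
    exact ⟨σ, hσ, fun Q _ π hB => hB⟩

end Crest.Agent.R110
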