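import Crest.Agent.R110.Her0
import Crest.Agent.R110.Cut
import Crest.Agent.R110.Idl

/-! # Row 110, task R110-Her.
`her`: `y = (X+δ)^(-1/2) x^(1/2)`; `y⋆Xy = x - δ x^(1/2)(X+δ)⁻¹x^(1/2)` and with `u = (X+δ)^(-1/2)`,
`‖x^(1/2) u u x^(1/2)‖ = ‖u x u‖ ≤ ‖u (X+δ) u‖ ≤ 1`.
`f1`: `T = {x | ∀ ε > 0, ∃ z, ‖(kz)⋆(kz) - x‖ < ε}` is closed, closed under `x ↦ y⋆xy`, under sums (`z = r z₁ + s z₂` with
`r, s` from `hI.pi k`), hereditary among positive elements (`her`).  `Van.mem` for `J = {x | x⋆x ∈ T}`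
(`(x+y)⋆(x+y) ≤ 2x⋆x + 2y⋆y`, `(yx)⋆(yx) ≤ ‖y‖² x⋆x`) and `g' = CFC.sqrt x` (`‖π √x‖² = ‖π x‖`). -/

set_option autoImplicit false
set_option linter.unusedVariables false

namespace Crest.Agent.R110

universe u

variable {L : Type u} [CStarAlgebra L] [PartialOrder L] [StarOrderedRing L]

namespace HerX

/-- closure of the set of all `z⋆ h z` -/
def T (h : L) : Set L := closure (Set.range fun z : L => star z * h * z)

omit [PartialOrder L] [StarOrderedRing L] in
theorem T_closed (h : L) : IsClosed (T h) := isClosed_closure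

omit [PartialOrder L] [StarOrderedRing L] in
theorem T_conj {h x : L} (hx : x ∈ T h) (y : L) : star y * x * y ∈ T h := by
  refine map_mem_closure (f := fun x : L => star y * x * y) (by fun_prop) hx ?_
  rintro _ ⟨z, rfl⟩
  exact ⟨z * y, by simp [mul_assoc]⟩

omit [PartialOrder L] [StarOrderedRing L] in
theorem norm_conj_le (a b c : L) : ‖star a * b * c‖ ≤ ‖a‖ * ‖b‖ * ‖c‖ := by
  calc ‖star a * b * c‖ ≤ ‖star a * b‖ * ‖c‖ := norm_mul_le _ _
    _ ≤ ‖star a‖ * ‖b‖ * ‖c‖ := by gcongr; exact norm_mul_le _ _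
    _ = ‖a‖ * ‖b‖ * ‖c‖ := by rw [norm_star]

omit [PartialOrder L] [StarOrderedRing L] in
theorem T_add0 {h : L} (hs : IsSelfAdjoint h) (hp : PI h) (z₁ z₂ : L) :
    star z₁ * h * z₁ + star z₂ * h * z₂ ∈ T h := by
  refine Metric.mem_closure_iff.2 fun ε hε => ?_
  set N : ℝ := (‖z₁‖ + ‖z₂‖) ^ 2 + 1 with hN
  have hN0 : 0 < N := by positivity
  obtain ⟨r, s, h1, h2, h3⟩ := hp (ε / N) (div_pos hε hN0)
  refine ⟨_, ⟨r * z₁ + s * z₂, rfl⟩, ?_⟩
  rw [dist_comm, dist_eq_norm]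
  have h4 : ‖star s * h * r‖ < ε / N := by
    rw [← norm_star]
    simpa [hs.star_eq, mul_assoc] using h3
  have e : star (r * z₁ + s * z₂) * h * (r * z₁ + s * z₂) - (star z₁ * h * z₁ + star z₂ * h * z₂)
      = star z₁ * (star r * h * r - h) * z₁ + star z₂ * (star s * h * s - h) * z₂
        + star z₁ * (star r * h * s) * z₂ + star z₂ * (star s * h * r) * z₁ := by
    simp only [star_add, star_mul]
    noncomm_ring
  show ‖star (r * z₁ + s * z₂) * h * (r * z₁ + s * z₂) - (star z₁ * h * z₁ + star z₂ * h * z₂)‖ < ε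
  rw [e]
  have a1 := norm_conj_le z₁ (star r * h * r - h) z₁
  have a2 := norm_conj_le z₂ (star s * h * s - h) z₂
  have a3 := norm_conj_le z₁ (star r * h * s) z₂
  have a4 := norm_conj_le z₂ (star s * h * r) z₁
  have n1 := norm_nonneg z₁
  have n2 := norm_nonneg z₂
  have b1 : ‖z₁‖ * ‖star r * h * r - h‖ * ‖z₁‖ ≤ ‖z₁‖ * (ε / N) * ‖z₁‖ := by gcongr
  have b2 : ‖z₂‖ * ‖star s * h * s - h‖ * ‖z₂‖ ≤ ‖z₂‖ * (ε / N) * ‖z₂‖ := by gcongr
  have b3 : ‖z₁‖ * ‖star r * h * s‖ * ‖z₂‖ ≤ ‖z₁‖ * (ε / N) * ‖z₂‖ := by gcongr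
  have b4 : ‖z₂‖ * ‖star s * h * r‖ * ‖z₁‖ ≤ ‖z₂‖ * (ε / N) * ‖z₁‖ := by gcongr
  have c1 := norm_add_le (star z₁ * (star r * h * r - h) * z₁ + star z₂ * (star s * h * s - h) * z₂
        + star z₁ * (star r * h * s) * z₂) (star z₂ * (star s * h * r) * z₁)
  have c2 := norm_add_le (star z₁ * (star r * h * r - h) * z₁ + star z₂ * (star s * h * s - h) * z₂)
        (star z₁ * (star r * h * s) * z₂)
  have c3 := norm_add_le (star z₁ * (star r * h * r - h) * z₁) (star z₂ * (star s * h * s - h) * z₂)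
  have hq : 0 < ε / N := div_pos hε hN0
  have key : ε / N * N = ε := div_mul_cancel₀ _ hN0.ne'
  have : ‖z₁‖ * (ε / N) * ‖z₁‖ + ‖z₂‖ * (ε / N) * ‖z₂‖ + ‖z₁‖ * (ε / N) * ‖z₂‖
      + ‖z₂‖ * (ε / N) * ‖z₁‖ = ε - ε / N := by
    have : ε - ε / N = ε / N * (N - 1) := by rw [mul_sub, key, mul_one]
    rw [this, hN]; ring
  linarith

omit [PartialOrder L] [StarOrderedRing L] in
theorem T_add {h x y : L} (hs : IsSelfAdjoint h) (hp : PI h) (hx : x ∈ T h) (hy : y ∈ T h) :
    x + y ∈ T h := by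
  have := map_mem_closure₂ (f := fun a b : L => a + b) (u := T h) (by fun_prop) hx hy (by
    rintro _ ⟨z₁, rfl⟩ _ ⟨z₂, rfl⟩
    exact T_add0 hs hp z₁ z₂)
  rwa [(T_closed h).closure_eq] at this

theorem T_her {h x X : L} (hx : 0 ≤ x) (hX : x ≤ X) (hT : X ∈ T h) : x ∈ T h := by
  rw [← (T_closed h).closure_eq]
  refine Metric.mem_closure_iff.2 fun ε hε => ?_
  obtain ⟨y, hy⟩ := her hx hX hε
  exact ⟨_, T_conj hT y, by rwa [dist_comm, dist_eq_norm]⟩

omit [PartialOrder L] [StarOrderedRing L] in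
theorem T_smul {h x : L} (hx : x ∈ T h) {c : ℝ} (hc : 0 ≤ c) : c • x ∈ T h := by
  have := T_conj hx ((Real.sqrt c) • (1 : L))
  have e : star ((Real.sqrt c) • (1 : L)) * x * ((Real.sqrt c) • (1 : L)) = c • x := by
    simp [smul_smul, Real.mul_self_sqrt hc]
  rwa [e] at this

end HerX

open HerX in
theorem f1 {I : Set L} (hI : Ctx I) {k x : L} (hk : k ∈ I) (hk0 : 0 ≤ k) (hx : 0 ≤ x) (h : Van k x)
    {ε : ℝ} (hε : 0 < ε) : ∃ z, ‖star (k * z) * (k * z) - x‖ < ε := by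
  have hp : PI (star k * k) := hI.pi k hk
  have hs : IsSelfAdjoint (star k * k) := IsSelfAdjoint.star_mul_self k
  have hsq : CFC.sqrt x * CFC.sqrt x = x := CFC.sqrt_mul_sqrt_self x hx
  have hsa : IsSelfAdjoint (CFC.sqrt x) := IsSelfAdjoint.of_nonneg (CFC.sqrt_nonneg x)
  have hv : Van k (CFC.sqrt x) := by
    intro Q _ π hk'
    have h1 := h Q π hk'
    have h2 : star (π (CFC.sqrt x)) * π (CFC.sqrt x) = 0 := by
      rw [← map_star, hsa.star_eq, ← map_mul, hsq, h1]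
    exact (CStarRing.star_mul_self_eq_zero_iff _).1 h2
  have hJ : CFC.sqrt x ∈ {y : L | star y * y ∈ T (star k * k)} := by
    refine Van.mem hv (IsSelfAdjoint.of_nonneg hk0) _ ?_ ?_ ?_ ?_ ?_
    · exact (T_closed _).preimage (f := fun y : L => star y * y) (by fun_prop)
    · intro a ha b hb
      have h1 := T_add hs hp ha hb
      refine T_her (star_mul_self_nonneg _) ?_ (T_add hs hp h1 h1)
      have h2 := star_mul_self_nonneg (a - b)
      have e : star a * a + star b * b + (star a * a + star b * b) - star (a + b) * (a + b)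
          = star (a - b) * (a - b) := by
        simp only [star_add, star_sub]
        noncomm_ring
      rw [← e] at h2
      exact sub_nonneg.1 h2
    · intro y a ha
      refine T_her (star_mul_self_nonneg _) ?_ (T_smul ha (norm_nonneg (star y * y)))
      have := CStarAlgebra.star_left_conjugate_le_norm_smul (a := a) (b := star y * y)
        (IsSelfAdjoint.star_mul_self y)
      simpa [mul_assoc] using this
    · intro y a ha
      have := T_conj ha y
      show star (a * y) * (a * y) ∈ T (star k * k)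
      simpa [mul_assoc] using this
    · exact subset_closure ⟨1, by simp⟩
  have hT : x ∈ T (star k * k) := by
    have : star (CFC.sqrt x) * CFC.sqrt x ∈ T (star k * k) := hJ
    rwa [hsa.star_eq, hsq] at this
  obtain ⟨_, ⟨z, rfl⟩, hz⟩ := Metric.mem_closure_iff.1 hT ε hε
  refine ⟨z, ?_⟩
  rw [dist_comm, dist_eq_norm] at hz
  simpa [mul_assoc] using hz

end Crest.Agent.R110
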