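import Crest.Agent.R110.Many
import Crest.Agent.R110.Chain
import Crest.Agent.R110.Her

/-! # Row 110, task R110-Build: construction of the copies `v i` and the markers `k m`.
Take `p, g` from `chain`.  Induction on `j ≤ n` for: `∃ v k`, `∀ i < j, Sub (v i) (p i) ∧ ‖(v i)⋆ v i - x‖ < ε`, markers for
`m ≤ j`, relations for `m < i < j` (`xm B c μ v m` depends only on `v i`, `i < m`).  Step: `refine_many` with
`g := cut (th η n j) (xm B c μ v j)`, `p := p j`, `gp := g j`, the markers `m < j`; `hlink`: `π (g j) = 0` kills `p i`, `v i` for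
`i < j`, so `π (xm .. m) = π B` for `m ≤ j`, hence `‖πB‖ ≤ th η n j ≤ th η n (m+1) ≤ η` for `m < j`.  `v j = p' z` by `f1`
(`Cov.van`), `Rel.mono`.  Marker `j` is unchanged, the new marker `j+1` is `cut (th η n (j+2)) (xm B c μ v' (j+1))`
(`cov_cut`; it lies in `I` by `cut_sub`, `0 < th`).  Orthogonality: `p i * p j = 0`, `p i` selfadjoint. -/

set_option autoImplicit false
set_option linter.unusedSectionVars false
set_option linter.unusedVariables false

namespace Crest.Agent.R110

universe u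

variable {L : Type u} [CStarAlgebra L] [PartialOrder L] [StarOrderedRing L]

namespace BuildX

theorem th_anti {η : ℝ} (hη : 0 < η) (n : ℕ) {m m' : ℕ} (h : m ≤ m') : th η n m' ≤ th η n m := by
  unfold th
  have h1 : (m : ℝ) ≤ m' := by exact_mod_cast h
  have h2 : 0 ≤ η / (2 * ((n : ℝ) + 1)) := by positivity
  nlinarith [mul_le_mul_of_nonneg_right h1 h2]

theorem th_lt {η : ℝ} (hη : 0 < η) (n m : ℕ) : th η n (m + 1) < th η n m := by
  unfold th
  have h2 : 0 < η / (2 * ((n : ℝ) + 1)) := by positivity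
  push_cast
  linarith

theorem th_zero (η : ℝ) (n : ℕ) : th η n 0 = η := by simp [th]

theorem th_pos {η : ℝ} (hη : 0 < η) {n m : ℕ} (h : m ≤ n + 1) : 0 < th η n m := by
  refine lt_of_lt_of_le ?_ (th_anti hη n h)
  unfold th
  have h1 : ((n + 1 : ℕ) : ℝ) * (η / (2 * ((n : ℝ) + 1))) = η / 2 := by
    push_cast
    field_simp
  rw [h1]
  linarith

omit [PartialOrder L] [StarOrderedRing L] in
theorem xm_sa {B : L} (hB : IsSelfAdjoint B) (c : L) (μ : ℝ) (v : ℕ → L) (m : ℕ) :
    IsSelfAdjoint (xm B c μ v m) := by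
  unfold xm
  refine hB.sub (IsSelfAdjoint.smul (IsSelfAdjoint.all μ) ?_)
  exact (IsSelfAdjoint.mul_star_self _).conjugate' c

omit [PartialOrder L] [StarOrderedRing L] in
theorem xm_congr (B c : L) (μ : ℝ) {v v' : ℕ → L} {m : ℕ} (h : ∀ i < m, v i = v' i) :
    xm B c μ v m = xm B c μ v' m := by
  unfold xm
  rw [Finset.sum_congr rfl (fun i hi => h i (Finset.mem_range.1 hi))]

omit [PartialOrder L] [StarOrderedRing L] in
theorem xm_mem {I : Set L} (hI : Ctx I) {B : L} (hB : B ∈ I) (c : L) (μ : ℝ) {v : ℕ → L} {m : ℕ}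
    (h : ∀ i < m, v i ∈ I) : xm B c μ v m ∈ I := by
  have h0 : (0 : L) ∈ I := by simpa using hI.mul_left 0 B hB
  have hS : ∑ i ∈ Finset.range m, v i ∈ I :=
    Finset.sum_induction _ (fun y => y ∈ I) (fun a b ha hb => hI.add a ha b hb) h0
      (fun i hi => h i (Finset.mem_range.1 hi))
  unfold xm
  exact hI.sub hB (hI.smul μ (hI.mul_right c _ (hI.mul_left _ _ (hI.mul_right _ _ hS))))

omit [PartialOrder L] [StarOrderedRing L] in
theorem map_xm {Q : Type u} [CStarAlgebra Q] (π : L →⋆ₐ[ℂ] Q) (B c : L) (μ : ℝ) {v : ℕ → L} {m : ℕ}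
    (h : ∀ i < m, π (v i) = 0) : π (xm B c μ v m) = π B := by
  have hS : π (∑ i ∈ Finset.range m, v i) = 0 := by
    rw [map_sum]
    exact Finset.sum_eq_zero (fun i hi => h i (Finset.mem_range.1 hi))
  unfold xm
  rw [← Complex.coe_smul, map_sub, map_smul, map_mul, map_mul, map_mul, hS]
  simp

end BuildX

theorem layer_build {I : Set L} (hI : Ctx I) {a B x : L} (c : L) (ha : a ∈ I) (ha0 : 0 ≤ a)
    (hB : B ∈ I) (hB0 : 0 ≤ B) (hx : 0 ≤ x) {σ η μ ε δ : ℝ} (hσ : 0 < σ) (hη : 0 < η) (hε : 0 < ε)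
    (hδ : 0 < δ) (hxa : Van (cut (2 * σ) (a * a)) x) (hH : HypL I a B σ η) (n : ℕ) :
    ∃ v k : ℕ → L, (∀ i < n, Sub (v i) a ∧ ‖star (v i) * v i - x‖ < ε) ∧
      (∀ i < n, ∀ j < n, i ≠ j → star (v i) * v j = 0) ∧
      (∀ m ≤ n, Sub (k m) (cut (th η n (m + 1)) (xm B c μ v m)) ∧
        Cov (k m) (cut (th η n m) (xm B c μ v m))) ∧
      ∀ m i, m < i → i < n → Rel c (cut (th η n i) (xm B c μ v i)) (v i) (k m) δ := by
  obtain ⟨p, g, hpg, horth⟩ := chain hI n ha ha0 hσ
  have hBs : IsSelfAdjoint B := hB0.isSelfAdjoint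
  have key : ∀ j ≤ n, ∃ v k : ℕ → L, (∀ i < j, Sub (v i) (p i) ∧ ‖star (v i) * v i - x‖ < ε) ∧
      (∀ m ≤ j, 0 ≤ k m ∧ Sub (k m) (cut (th η n (m + 1)) (xm B c μ v m)) ∧
        Cov (k m) (cut (th η n m) (xm B c μ v m))) ∧
      ∀ m i, m < i → i < j → Rel c (cut (th η n i) (xm B c μ v i)) (v i) (k m) δ := by
    intro j
    induction j with
    | zero =>
      intro _
      refine ⟨fun _ => 0, fun m => cut (th η n (m + 1)) (xm B c μ (fun _ => 0) m),
        fun i hi => absurd hi (Nat.not_lt_zero i), fun m _ => ⟨cut_nonneg _ _, Sub.refl _, ?_⟩,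
        fun m i _ hi => absurd hi (Nat.not_lt_zero i)⟩
      exact cov_cut (BuildX.th_lt hη n m) (BuildX.xm_sa hBs c μ _ m)
    | succ j ih =>
      intro hj
      have hjn : j < n := hj
      obtain ⟨v, k, hv, hk, hR⟩ := ih hjn.le
      obtain ⟨hp0, hpa, hpv, hpc, hgv, hgp⟩ := hpg j hjn
      have hvI : ∀ i < j, v i ∈ I := fun i hi =>
        ((hv i hi).1.trans (hpg i (hi.trans hjn)).2.1).mem hI ha
      have hkI : ∀ m ≤ j, k m ∈ I := fun m hm =>
        ((hk m hm).2.1.trans (cut_sub (BuildX.th_pos hη (by omega))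
          (BuildX.xm_sa hBs c μ v m))).mem hI
          (BuildX.xm_mem hI hB c μ (fun i hi => hvI i (by omega)))
      have hlink : ∀ (Q : Type u) [CStarAlgebra Q] (π : L →⋆ₐ[ℂ] Q),
          π (cut (th η n j) (xm B c μ v j)) = 0 → π (g j) = 0 →
          π (cut η B) = 0 ∧ ∀ m < j, π (k m) = 0 := by
        intro Q _ π h1 h2
        have hv0 : ∀ i < j, π (v i) = 0 := fun i hi =>
          (hv i hi).1.van Q π (hgp i hi Q π h2)
        have hx : ∀ m ≤ j, ∀ τ : ℝ, π (cut τ (xm B c μ v m)) = π (cut τ B) := by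
          intro m hm τ
          rw [map_cut π τ (BuildX.xm_sa hBs c μ v m), map_cut π τ hBs,
            BuildX.map_xm π B c μ (fun i hi => hv0 i (by omega))]
        rw [hx j le_rfl] at h1
        refine ⟨?_, fun m hm => ?_⟩
        · refine van_cut_mono ?_ hBs Q π h1
          have := BuildX.th_anti hη n (Nat.zero_le j)
          rwa [BuildX.th_zero] at this
        · refine (hk m hm.le).2.1.van Q π ?_
          rw [hx m hm.le]
          exact van_cut_mono (BuildX.th_anti hη n (by omega)) hBs Q π h1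
      obtain ⟨p', k', h0, hs, hc, hk'⟩ := refine_many hI hH c (cut (th η n j) (xm B c μ v j)) hδ
        (hpa.mem hI ha) hp0 hpc hpv j k (fun m => cut (th η n m) (xm B c μ v m))
        (fun m hm => ⟨hkI m hm.le, (hk m hm.le).1, (hk m hm.le).2.2⟩) hlink
      obtain ⟨z, hz⟩ := f1 hI ((hs.trans hpa).mem hI ha) h0 hx ((hc.van.trans hgv).trans hxa) hε
      have hxe : ∀ m ≤ j, xm B c μ (Function.update v j (p' * z)) m = xm B c μ v m := fun m hm =>
        BuildX.xm_congr B c μ (fun i hi => Function.update_of_ne (by omega) _ _)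
      refine ⟨Function.update v j (p' * z), fun m => if m < j then k' m else if m = j then k j
        else cut (th η n (m + 1)) (xm B c μ (Function.update v j (p' * z)) m),
        fun i hi => ?_, fun m hm => ?_, fun m i hmi hi => ?_⟩
      · by_cases hij : i = j
        · subst hij
          rw [Function.update_self]
          exact ⟨hs.mul z, hz⟩
        · rw [Function.update_of_ne hij]
          exact hv i (by omega)
      · by_cases h1 : m < j
        · simp only [h1, if_true]
          rw [hxe m h1.le]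
          exact ⟨(hk' m h1).1, (hk' m h1).2.1.trans (hk m h1.le).2.1, (hk' m h1).2.2.1⟩
        · by_cases h2 : m = j
          · subst h2
            simp only [h1, if_false, if_true]
            rw [hxe m le_rfl]
            exact hk m le_rfl
          · simp only [h1, h2, if_false]
            exact ⟨cut_nonneg _ _, Sub.refl _,
              cov_cut (BuildX.th_lt hη n m) (BuildX.xm_sa hBs c μ _ m)⟩
      · have h1 : m < j := by omega
        simp only [h1, if_true]
        rw [hxe i (by omega)]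
        by_cases hij : i = j
        · subst hij
          rw [Function.update_self]
          exact (hk' m h1).2.2.2.mono ((Sub.refl p').mul z) (Sub.refl _)
        · rw [Function.update_of_ne hij]
          exact (hR m i hmi (by omega)).mono (Sub.refl _) (hk' m h1).2.1
  obtain ⟨v, k, hv, hk, hR⟩ := key n le_rfl
  refine ⟨v, k, fun i hi => ⟨(hv i hi).1.trans (hpg i hi).2.1, (hv i hi).2⟩,
    fun i hi j hj hij => ?_, fun m hm => (hk m hm).2, hR⟩
  obtain ⟨z, hz⟩ := (hv i hi).1
  obtain ⟨w, hw⟩ := (hv j hj).1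
  have hsa : star (p i) = p i := (hpg i hi).1.isSelfAdjoint.star_eq
  rw [hz, hw, star_mul, hsa, mul_assoc, ← mul_assoc (p i), horth i hi j hj hij, zero_mul, mul_zero]

end Crest.Agent.R110
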