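import Crest.Agent.R110.Halve

/-! # Row 110, task R110-Chain.
`copies`: induction on `n` (for all `h`, `δ`): halve `h` into `d, d'` (accuracy `δ/2`), take `n` copies inside `d'`.
If `x = d z`, `y = d' z'`, `x` selfadjoint, then `x y = z⋆ d d' z' = 0`.
`chain`: `γ = σ/(2(n+1))`, `ℓ j = 2σ - 2jγ`, copies with accuracy `γ/2`, `p j = cut (ℓ j - γ) (d j * d j)`,
`g j = cut (ℓ j) (a * a)`, `θ = γ/2`; use `map_cut_eq_zero_iff`, `norm_map_le_cut`, `‖π (d*d)‖ = ‖π d‖^2`. -/

set_option autoImplicit false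
set_option linter.unusedVariables false

namespace Crest.Agent.R110

universe u

variable {L : Type u} [CStarAlgebra L] [PartialOrder L] [StarOrderedRing L]

theorem copies {I : Set L} (hI : Ctx I) (n : ℕ) {h : L} (hh : h ∈ I) (h0 : 0 ≤ h) {δ : ℝ}
    (hδ : 0 < δ) : ∃ d : ℕ → L, (∀ i < n, 0 ≤ d i ∧ Sub (d i) h ∧
      ∀ (Q : Type u) [CStarAlgebra Q] (π : L →⋆ₐ[ℂ] Q), |‖π (d i)‖ ^ 2 - ‖π h‖ ^ 2| ≤ δ) ∧
      ∀ i < n, ∀ j < n, i ≠ j → d i * d j = 0 := by
  induction n generalizing h δ with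
  | zero =>
    exact ⟨fun _ => 0, fun i hi => absurd hi (Nat.not_lt_zero i),
      fun i hi => absurd hi (Nat.not_lt_zero i)⟩
  | succ n ih =>
    obtain ⟨e, e', he, he', hs, hs', hee, hn⟩ := halve hI hh h0 (half_pos hδ)
    obtain ⟨d, hd1, hd2⟩ := ih (hs'.mem hI hh) he' (half_pos hδ)
    have key : ∀ i < n, e * d i = 0 := by
      intro i hi
      obtain ⟨z, hz⟩ := (hd1 i hi).2.1
      rw [hz, ← mul_assoc, hee, zero_mul]
    have key' : ∀ i < n, d i * e = 0 := by
      intro i hi
      have h1 := congrArg star (key i hi)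
      rwa [star_mul, (IsSelfAdjoint.of_nonneg he).star_eq,
        (IsSelfAdjoint.of_nonneg (hd1 i hi).1).star_eq, star_zero] at h1
    refine ⟨fun i => if i < n then d i else e, fun i hi => ?_, fun i hi j hj hij => ?_⟩
    · by_cases hin : i < n
      · simp only [hin, if_true]
        refine ⟨(hd1 i hin).1, (hd1 i hin).2.1.trans hs', fun Q _ π => ?_⟩
        have h1 := (hd1 i hin).2.2 Q π
        have h2 := (hn Q π).2
        rw [abs_le] at h1 h2 ⊢
        constructor <;> linarith [h1.1, h1.2, h2.1, h2.2]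
      · simp only [hin, if_false]
        refine ⟨he, hs, fun Q _ π => ?_⟩
        have h2 := (hn Q π).1
        rw [abs_le] at h2 ⊢
        constructor <;> linarith [h2.1, h2.2]
    · by_cases hin : i < n <;> by_cases hjn : j < n <;> simp only [hin, hjn, if_true, if_false]
      · exact hd2 i hin j hjn hij
      · exact key' i hin
      · exact key j hjn
      · omega

end Crest.Agent.R110
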