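import Crest.Agent.R110.Cuntz

/-!
# Row 110: orthogonal copies and the ideal `{x | x⋆ x ≾ h}` of a properly infinite element
-/

set_option autoImplicit false

namespace Crest.Agent.R110

open scoped CStarAlgebra
open Crest.OpAlg

variable {C : Type*} [NonUnitalCStarAlgebra C]

theorem star_smul_conj (c : ℝ) (d b e : C) :
    star (c • d) * b * (c • e) = (c * c) • (star d * b * e) := by
  rw [star_smul, star_trivial, smul_mul_assoc, smul_mul_assoc, mul_smul_comm, smul_smul]

theorem Cu.smul {a b : C} (h : Cu a b) {c : ℝ} (hc : 0 ≤ c) : Cu (c • a) b := by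
  intro ε hε
  obtain ⟨d, hd⟩ := h (ε / (c + 1)) (by positivity)
  refine ⟨Real.sqrt c • d, ?_⟩
  rw [star_smul_conj, Real.mul_self_sqrt hc, ← smul_sub, norm_smul, Real.norm_eq_abs,
    abs_of_nonneg hc]
  rw [lt_div_iff₀ (by positivity)] at hd
  nlinarith [norm_nonneg (star d * b * d - a)]

theorem Cu.smul_right {a b : C} {c : ℝ} (hc : 0 < c) (h : Cu a (c • b)) : Cu a b := by
  intro ε hε
  obtain ⟨d, hd⟩ := h ε hε
  refine ⟨Real.sqrt c • d, ?_⟩
  rw [star_smul_conj, Real.mul_self_sqrt hc.le]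
  rwa [mul_smul_comm, smul_mul_assoc] at hd

theorem norm_star_mul_mul_le (p z q : C) : ‖star p * z * q‖ ≤ ‖p‖ * ‖z‖ * ‖q‖ := by
  refine (norm_mul_le _ _).trans ?_
  gcongr
  exact (norm_mul_le _ _).trans (by rw [norm_star])

/-- finitely many elements below a properly infinite `h` have mutually orthogonal witnesses. -/
theorem pi_copies {h : C} (hs : IsSelfAdjoint h) (hh : IsProperlyInfinite h) (n : ℕ)
    (x : Fin n → C) (hx : ∀ i, Cu (x i) h) {ε : ℝ} (hε : 0 < ε) :
    ∃ v : Fin n → C, (∀ i, ‖star (v i) * h * v i - x i‖ < ε) ∧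
      ∀ i j, i ≠ j → ‖star (v i) * h * v j‖ < ε := by
  induction n generalizing ε with
  | zero => exact ⟨fun i => i.elim0, fun i => i.elim0, fun i => i.elim0⟩
  | succ n ih =>
    obtain ⟨v, hv1, hv2⟩ := ih (fun i => x i.succ) (fun i => hx _) (half_pos hε)
    obtain ⟨d, hd⟩ := hx 0 (ε / 2) (half_pos hε)
    obtain ⟨M, hM⟩ : ∃ M : ℝ, M = ‖d‖ + ∑ i, ‖v i‖ := ⟨_, rfl⟩
    have hS : 0 ≤ ∑ i, ‖v i‖ := Finset.sum_nonneg fun i _ => norm_nonneg _
    have hdM : ‖d‖ ≤ M := by linarith
    have hvM : ∀ i, ‖v i‖ ≤ M := fun i => by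
      have := Finset.single_le_sum (f := fun i => ‖v i‖) (fun i _ => norm_nonneg _)
        (Finset.mem_univ i)
      linarith [norm_nonneg d]
    have hM0 : 0 ≤ M := (norm_nonneg _).trans hdM
    have hK0 : 0 < M * M + 1 := by positivity
    obtain ⟨r, s, h1, h2, h3⟩ := hh (ε / 2 / (M * M + 1)) (by positivity)
    have h4 : ‖star s * h * r‖ < ε / 2 / (M * M + 1) := by
      rw [← norm_star, star_mul, star_mul, star_star, hs.star_eq, ← mul_assoc]; exact h3
    have key : ∀ (p q z : C), ‖p‖ ≤ M → ‖q‖ ≤ M → ‖z‖ < ε / 2 / (M * M + 1) →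
        ‖star p * z * q‖ ≤ ε / 2 := by
      intro p q z hp hq hz
      have h5 : ‖star p * z * q‖ ≤ M * ‖z‖ * M :=
        (norm_star_mul_mul_le p z q).trans (by gcongr)
      have h6 : ‖z‖ * (M * M + 1) ≤ ε / 2 := by rw [← le_div_iff₀ hK0]; exact hz.le
      nlinarith [norm_nonneg z]
    have e1 : ∀ p q r' s' y : C, star (r' * p) * h * (s' * q) - y
        = star p * (star r' * h * s' - h) * q + (star p * h * q - y) := by
      intro p q r' s' y; rw [star_mul]; noncomm_ring
    have e2 : ∀ p q r' s' : C, star (r' * p) * h * (s' * q)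
        = star p * (star r' * h * s') * q := by
      intro p q r' s'; rw [star_mul]; noncomm_ring
    refine ⟨Fin.cons (r * d) fun i => s * v i, fun i => ?_, fun i j hij => ?_⟩
    · refine Fin.cases ?_ (fun i => ?_) i
      · simp only [Fin.cons_zero]
        rw [e1]
        linarith [norm_add_le (star d * (star r * h * r - h) * d) (star d * h * d - x 0),
          key d d _ hdM hdM h1]
      · simp only [Fin.cons_succ]
        rw [e1]
        linarith [norm_add_le (star (v i) * (star s * h * s - h) * v i)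
          (star (v i) * h * v i - x i.succ), key _ _ _ (hvM i) (hvM i) h2, hv1 i]
    · revert hij
      refine Fin.cases ?_ (fun i => ?_) i <;> refine Fin.cases ?_ (fun j => ?_) j <;> intro hij
      · exact absurd rfl hij
      · simp only [Fin.cons_zero, Fin.cons_succ]
        rw [e2]
        linarith [key _ _ _ hdM (hvM j) h3]
      · simp only [Fin.cons_zero, Fin.cons_succ]
        rw [e2]
        linarith [key _ _ _ (hvM i) hdM h4]
      · simp only [Fin.cons_succ]
        have hij' : i ≠ j := fun h => hij (by rw [h])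
        have := e1 (v i) (v j) s s 0
        rw [sub_zero, sub_zero] at this
        rw [this]
        linarith [norm_add_le (star (v i) * (star s * h * s - h) * v j)
          (star (v i) * h * v j), key _ _ _ (hvM i) (hvM j) h2, hv2 i j hij']

theorem isClosed_cu (b : C) : IsClosed {a : C | Cu a b} := by
  refine isClosed_of_closure_subset fun a ha => Cu.of_approx fun ε hε => ?_
  obtain ⟨a', h1, h2⟩ := Metric.mem_closure_iff.1 ha ε hε
  exact ⟨a', by rwa [dist_comm, dist_eq_norm] at h2, h1⟩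

variable [PartialOrder C] [StarOrderedRing C]

theorem cu_mul_self {x : C} (hx : 0 ≤ x) : Cu x (x * x) := by
  intro ε hε
  have hs := hx.isSelfAdjoint
  obtain ⟨δ, hδ⟩ : ∃ δ : ℝ, δ = ε / 4 := ⟨_, rfl⟩
  have hδ0 : 0 < δ := by rw [hδ]; positivity
  obtain ⟨g, hgd⟩ : ∃ g : ℝ → ℝ, g = fun t => Real.sqrt t / (|t| + δ) := ⟨_, rfl⟩
  have hne : ∀ t : ℝ, |t| + δ ≠ 0 := fun t => by positivity
  have hg : Continuous g := by rw [hgd]; exact Real.continuous_sqrt.div (by fun_prop) hne
  have hg0 : g 0 = 0 := by simp [hgd]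
  have hgs : IsSelfAdjoint (cfcₙ g x) := cfcₙ_predicate _ _
  refine ⟨cfcₙ g x, ?_⟩
  have h1 : star (cfcₙ g x) * (x * x) * cfcₙ g x - x
      = cfcₙ (fun t => g t * (t * t) * g t - t) x := by
    rw [cfcₙ_sub _ _ x (by fun_prop) (by simp) (by fun_prop) rfl,
      cfcₙ_mul (fun t => g t * (t * t)) g x (by fun_prop) (by simp),
      cfcₙ_mul g (fun t : ℝ => t * t) x (by fun_prop) hg0 (by fun_prop) (by simp),
      cfcₙ_mul (fun t : ℝ => t) (fun t : ℝ => t) x, cfcₙ_id' ℝ x, hgs.star_eq]
  rw [h1]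
  refine (norm_cfcₙ_le (c := ε / 2) fun t ht => ?_).trans_lt (half_lt_self hε)
  have ht0 : 0 ≤ t := quasispectrum_nonneg_of_nonneg x hx _ ht
  have hp : 0 < t + δ := by positivity
  have h3 : g t * (t * t) * g t - t = -(t * δ * (2 * t + δ) / (t + δ) ^ 2) := by
    have h4 : g t * (t * t) * g t = (Real.sqrt t * Real.sqrt t) * (t * t) / (t + δ) ^ 2 := by
      simp only [hgd, abs_of_nonneg ht0]; field_simp
    rw [h4, Real.mul_self_sqrt ht0]; field_simp; ring
  rw [h3, norm_neg, Real.norm_eq_abs, abs_of_nonneg (by positivity), div_le_iff₀ (by positivity)]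
  have h5 : ε / 2 = 2 * δ := by rw [hδ]; ring
  rw [h5]
  nlinarith [mul_nonneg hδ0.le (mul_nonneg ht0 hδ0.le), mul_pos hδ0 (mul_pos hδ0 hδ0)]

theorem mul_self_cu {x : C} (hx : 0 ≤ x) : Cu (x * x) x := by
  have h1 : star (CFC.sqrt x) = CFC.sqrt x := (CFC.sqrt_nonneg x).isSelfAdjoint.star_eq
  have h2 := CFC.sqrt_mul_sqrt_self x hx
  refine Cu.of_eq (CFC.sqrt x) ?_
  rw [h1]
  generalize CFC.sqrt x = y at h2
  rw [← h2]; noncomm_ring

theorem star_add_mul_le (x y : C) :
    star (x + y) * (x + y) ≤ (2 : ℝ) • (star x * x + star y * y) := by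
  have h := star_mul_self_nonneg (x - y)
  rw [← sub_nonneg]
  convert h using 1
  rw [two_smul, star_add, star_sub]; noncomm_ring

theorem star_mul_mul_le (p x : C) : star (p * x) * (p * x) ≤ (‖p‖ ^ 2) • (star x * x) := by
  have := CStarAlgebra.star_left_conjugate_le_norm_smul (a := x) (b := star p * p)
    (IsSelfAdjoint.star_mul_self p)
  rw [CStarRing.norm_star_mul_self, ← sq] at this
  rw [star_mul]
  simpa only [mul_assoc] using this

/-- the closed two-sided ideal `{x | x⋆ x ≾ h}` of a properly infinite positive `h`. -/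
def cuIdeal (h : C) (h0 : 0 ≤ h) (hh : IsProperlyInfinite h) : TwoSidedIdeal C :=
  TwoSidedIdeal.mk' {x | Cu (star x * x) h}
    (by simpa using Cu.zero h)
    (fun {x y} hx hy => (cu_of_le (star_mul_self_nonneg _) (star_add_mul_le x y)).trans
      (((pi_add h0.isSelfAdjoint hh hx hy).smul zero_le_two)))
    (fun {x} hx => by simpa using hx)
    (fun {x y} hy => (cu_of_le (star_mul_self_nonneg _) (star_mul_mul_le x y)).trans
      (Cu.smul hy (by positivity)))
    (fun {x y} hx => by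
      have := Cu.conj (show Cu (star x * x) h from hx) y
      change Cu _ _
      rw [star_mul]
      simpa only [mul_assoc] using this)

theorem mem_cuIdeal {h : C} {h0 : 0 ≤ h} {hh : IsProperlyInfinite h} {x : C} :
    x ∈ cuIdeal h h0 hh ↔ Cu (star x * x) h := by
  rw [cuIdeal, TwoSidedIdeal.mem_mk']; rfl

theorem mem_cuIdeal_of_nonneg {h : C} {h0 : 0 ≤ h} {hh : IsProperlyInfinite h} {x : C}
    (hx : 0 ≤ x) : x ∈ cuIdeal h h0 hh ↔ Cu x h := by
  rw [mem_cuIdeal, hx.isSelfAdjoint.star_eq]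
  exact ⟨fun h1 => (cu_mul_self hx).trans h1, fun h1 => (mul_self_cu hx).trans h1⟩

theorem self_mem_cuIdeal {h : C} (h0 : 0 ≤ h) (hh : IsProperlyInfinite h) :
    h ∈ cuIdeal h h0 hh := (mem_cuIdeal_of_nonneg h0).2 (Cu.refl h0)

theorem star_mem_cuIdeal {h : C} {h0 : 0 ≤ h} {hh : IsProperlyInfinite h} {x : C}
    (hx : x ∈ cuIdeal h h0 hh) : star x ∈ cuIdeal h h0 hh := by
  rw [mem_cuIdeal] at hx ⊢
  rw [star_star]
  exact (cu_mul_star x).trans hx

theorem smul_mem_cuIdeal {h : C} {h0 : 0 ≤ h} {hh : IsProperlyInfinite h} {x : C} (c : ℂ)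
    (hx : x ∈ cuIdeal h h0 hh) : c • x ∈ cuIdeal h h0 hh := by
  rw [mem_cuIdeal] at hx ⊢
  have : star (c • x) * (c • x) = (‖c‖ ^ 2) • (star x * x) := by
    rw [star_smul, smul_mul_assoc, mul_smul_comm, smul_smul, Complex.star_def,
      Complex.conj_mul', ← Complex.ofReal_pow, Complex.coe_smul]
  rw [this]
  exact hx.smul (by positivity)

theorem isClosed_cuIdeal {h : C} (h0 : 0 ≤ h) (hh : IsProperlyInfinite h) :
    IsClosed (cuIdeal h h0 hh : Set C) := by
  have : (cuIdeal h h0 hh : Set C) = (fun x : C => star x * x) ⁻¹' {a : C | Cu a h} := by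
    ext x; exact mem_cuIdeal
  rw [this]
  exact (isClosed_cu h).preimage (by fun_prop)

/-- a positive element of the closed two-sided ideal generated by a properly infinite `h` is
Cuntz below `h`. -/
theorem cu_of_mem_closure_span {h x : C} (h0 : 0 ≤ h) (hh : IsProperlyInfinite h) (hx : 0 ≤ x)
    (hm : x ∈ closure (TwoSidedIdeal.span {h} : Set C)) : Cu x h := by
  rw [← mem_cuIdeal_of_nonneg (h0 := h0) (hh := hh) hx]
  refine closure_minimal ?_ (isClosed_cuIdeal h0 hh) hm
  exact TwoSidedIdeal.span_le.2 (Set.singleton_subset_iff.2 (self_mem_cuIdeal h0 hh))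

end Crest.Agent.R110
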