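import Crest.Prelude.Def_PurelyInfinite

/-!
# Row 110: Cuntz subequivalence toolbox (non-unital C⋆-algebras)
-/

set_option autoImplicit false

namespace Crest.Agent.R110

open scoped CStarAlgebra
open Crest.OpAlg

variable {C : Type*} [NonUnitalCStarAlgebra C]

/-- Cuntz subequivalence `a ≾ b`. -/
def Cu (a b : C) : Prop := ∀ ε : ℝ, 0 < ε → ∃ d : C, ‖star d * b * d - a‖ < ε

/-- the cut-down `(a - ε)₊`. -/
noncomputable def cut (ε : ℝ) (a : C) : C := cfcₙ (fun t : ℝ => max (t - ε) 0) a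

theorem Cu.of_eq {a b : C} (d : C) (h : star d * b * d = a) : Cu a b := fun ε hε =>
  ⟨d, by rw [h, sub_self, norm_zero]; exact hε⟩

theorem Cu.zero (b : C) : Cu 0 b := Cu.of_eq 0 (by simp)

theorem Cu.conj_self (b d : C) : Cu (star d * b * d) b := Cu.of_eq d rfl

theorem norm_conj_le (d z : C) : ‖star d * z * d‖ ≤ ‖d‖ * ‖z‖ * ‖d‖ := by
  refine (norm_mul_le _ _).trans ?_
  gcongr
  exact (norm_mul_le _ _).trans (by rw [norm_star])

theorem Cu.trans {a b c : C} (h₁ : Cu a b) (h₂ : Cu b c) : Cu a c := by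
  intro ε hε
  obtain ⟨d, hd⟩ := h₁ (ε / 2) (half_pos hε)
  have hK : 0 < ‖d‖ * ‖d‖ + 1 := by positivity
  obtain ⟨e, he⟩ := h₂ (ε / 2 / (‖d‖ * ‖d‖ + 1)) (by positivity)
  refine ⟨e * d, ?_⟩
  have h1 : star (e * d) * c * (e * d) - a
      = star d * (star e * c * e - b) * d + (star d * b * d - a) := by
    rw [star_mul]; noncomm_ring
  rw [h1]
  have h2 : ‖star d * (star e * c * e - b) * d‖ ≤ ε / 2 := by
    refine (norm_conj_le _ _).trans ?_
    have h3 : ‖star e * c * e - b‖ * (‖d‖ * ‖d‖ + 1) ≤ ε / 2 := by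
      rw [← le_div_iff₀ hK]; exact he.le
    nlinarith [norm_nonneg (star e * c * e - b), norm_nonneg d]
  linarith [norm_add_le (star d * (star e * c * e - b) * d) (star d * b * d - a)]

/-- `≾ b` is closed on the left. -/
theorem Cu.of_approx {a b : C} (h : ∀ ε : ℝ, 0 < ε → ∃ a' : C, ‖a' - a‖ < ε ∧ Cu a' b) :
    Cu a b := by
  intro ε hε
  obtain ⟨a', h1, h2⟩ := h (ε / 2) (half_pos hε)
  obtain ⟨d, hd⟩ := h2 (ε / 2) (half_pos hε)
  refine ⟨d, ?_⟩
  have : star d * b * d - a = (star d * b * d - a') + (a' - a) := by abel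
  rw [this]
  linarith [norm_add_le (star d * b * d - a') (a' - a)]

theorem Cu.conj {a b : C} (h : Cu a b) (d : C) : Cu (star d * a * d) b :=
  (Cu.conj_self a d).trans h

theorem cut_sa (ε : ℝ) (a : C) : IsSelfAdjoint (cut ε a) := cfcₙ_predicate _ a

theorem norm_cut_sub_le {a : C} (ha : ∀ t ∈ quasispectrum ℝ a, 0 ≤ t) (hsa : IsSelfAdjoint a)
    {ε : ℝ} (hε : 0 ≤ ε) : ‖cut ε a - a‖ ≤ ε := by
  have h0 : max ((0 : ℝ) - ε) 0 = 0 := max_eq_right (by linarith)
  have h1 : cut ε a - a = cfcₙ (fun t : ℝ => max (t - ε) 0 - t) a := by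
    rw [cfcₙ_sub (fun t : ℝ => max (t - ε) 0) (fun t : ℝ => t) a, cfcₙ_id' ℝ a, cut]
  rw [h1]
  refine norm_cfcₙ_le fun t ht => ?_
  have := ha t ht
  rw [Real.norm_eq_abs, abs_le]
  constructor
  · linarith [le_max_left (t - ε) 0]
  · have : max (t - ε) 0 ≤ t := max_le (by linarith) this
    linarith

variable [PartialOrder C] [StarOrderedRing C]

theorem cut_nonneg (ε : ℝ) (a : C) : 0 ≤ cut ε a :=
  cfcₙ_nonneg fun _ _ => le_max_right _ _

theorem norm_cut_sub {a : C} (ha : 0 ≤ a) {ε : ℝ} (hε : 0 ≤ ε) : ‖cut ε a - a‖ ≤ ε :=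
  norm_cut_sub_le (fun _ ht => quasispectrum_nonneg_of_nonneg a ha _ ht) ha.isSelfAdjoint hε

theorem cut_le {a : C} (ha : 0 ≤ a) {ε : ℝ} (hε : 0 ≤ ε) : cut ε a ≤ a := by
  have h0 : max ((0 : ℝ) - ε) 0 = 0 := max_eq_right (by linarith)
  have hsa := ha.isSelfAdjoint
  conv_rhs => rw [← cfcₙ_id' ℝ a]
  refine cfcₙ_mono fun t ht => ?_
  have := quasispectrum_nonneg_of_nonneg a ha _ ht
  exact max_le (by linarith) this

/-- if `x x⋆ ≤ b` then `f(b)` is an approximate left unit for `x`. -/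
theorem norm_sub_cfc_mul_le {x b : C} (h : x * star x ≤ b) (f : ℝ → ℝ) (hf : Continuous f)
    (hf0 : f 0 = 0) {η : ℝ} (hη : 0 ≤ η) (hfη : ∀ t, 0 ≤ t → (1 - f t) * t * (1 - f t) ≤ η ^ 2) :
    ‖x - cfcₙ f b * x‖ ≤ η := by
  have hb : 0 ≤ b := (mul_star_self_nonneg x).trans h
  have hbs : IsSelfAdjoint b := hb.isSelfAdjoint
  have hb' : 0 ≤ (b : C⁺¹) := Unitization.inr_nonneg_iff.2 hb
  have hbs' : IsSelfAdjoint (b : C⁺¹) := hb'.isSelfAdjoint
  set u : C⁺¹ := cfc (fun t : ℝ => 1 - f t) (b : C⁺¹) with hu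
  have hus : IsSelfAdjoint u := cfc_predicate _ _
  have hu1 : u = 1 - ((cfcₙ f b : C) : C⁺¹) := by
    rw [Unitization.real_cfcₙ_eq_cfc_inr b f hf0, hu, cfc_sub (fun _ => 1) f,
      cfc_const_one ℝ (b : C⁺¹)]
  have h1 : ((x - cfcₙ f b * x : C) : C⁺¹) = u * x := by
    rw [hu1, Unitization.inr_sub, Unitization.inr_mul, sub_mul, one_mul]
  have h2 : (x : C⁺¹) * star (x : C⁺¹) ≤ (b : C⁺¹) := by
    rw [← Unitization.inr_star, ← Unitization.inr_mul]
    exact (Unitization.inr_le_iff _ _ (IsSelfAdjoint.mul_star_self x) hbs).2 h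
  have h3 : (u * x) * star (u * x) ≤ u * b * u := by
    have := hus.conjugate_le_conjugate h2
    rw [star_mul, hus.star_eq]
    simpa only [mul_assoc] using this
  have h4 : u * b * u = cfc (fun t : ℝ => (1 - f t) * t * (1 - f t)) (b : C⁺¹) := by
    rw [cfc_mul (fun t : ℝ => (1 - f t) * t) (fun t : ℝ => 1 - f t),
      cfc_mul (fun t : ℝ => 1 - f t) (fun t : ℝ => t), cfc_id' ℝ (b : C⁺¹)]
  have h5 : ‖u * b * u‖ ≤ η ^ 2 := by
    rw [h4]
    refine norm_cfc_le (by positivity) fun t ht => ?_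
    have ht0 := spectrum_nonneg_of_nonneg hb' ht
    rw [Real.norm_eq_abs, abs_of_nonneg (by nlinarith [mul_self_nonneg (1 - f t)])]
    exact hfη t ht0
  have h6 := (CStarAlgebra.norm_le_norm_of_nonneg_of_le (mul_star_self_nonneg _) h3).trans h5
  rw [CStarRing.norm_self_mul_star, ← sq] at h6
  rw [← Unitization.norm_inr (𝕜 := ℂ), h1]
  exact (abs_le_of_sq_le_sq' h6 hη).2

/-- `x x⋆ ≤ b` gives `x⋆ x ≾ b`. -/
theorem cu_star_mul_of_le {x b : C} (h : x * star x ≤ b) : Cu (star x * x) b := by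
  intro ε hε
  have hb : 0 ≤ b := (mul_star_self_nonneg x).trans h
  have hbs : IsSelfAdjoint b := hb.isSelfAdjoint
  set η : ℝ := ε / (‖x‖ + 1) with hη
  have hη0 : 0 < η := by positivity
  set δ : ℝ := η ^ 2 / 2 with hδ
  have hδ0 : 0 < δ := by positivity
  let g : ℝ → ℝ := fun t => Real.sqrt t / (|t| + δ)
  have hne : ∀ t : ℝ, |t| + δ ≠ 0 := fun t => by positivity
  have hg : Continuous g := Real.continuous_sqrt.div (by fun_prop) hne
  have hg0 : g 0 = 0 := by simp [g]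
  have hgs : IsSelfAdjoint (cfcₙ g b) := cfcₙ_predicate _ _
  have h1 : cfcₙ g b * b * cfcₙ g b = cfcₙ (fun t => g t * t * g t) b := by
    rw [cfcₙ_mul (fun t => g t * t) g, cfcₙ_mul g (fun t : ℝ => t), cfcₙ_id' ℝ b]
  have h2 : ‖x - cfcₙ (fun t => g t * t * g t) b * x‖ ≤ η := by
    refine norm_sub_cfc_mul_le h _ (by fun_prop) (by simp) hη0.le fun t ht => ?_
    have h3 : g t * t * g t = t ^ 2 / (t + δ) ^ 2 := by
      simp only [g, abs_of_nonneg ht]
      have := Real.mul_self_sqrt ht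
      field_simp
      nlinarith
    have hp : 0 < t + δ := by positivity
    have h4 : 1 - t ^ 2 / (t + δ) ^ 2 = δ * (2 * t + δ) / (t + δ) ^ 2 := by
      field_simp; ring
    have h5 : 0 ≤ 1 - t ^ 2 / (t + δ) ^ 2 := by rw [h4]; positivity
    have h6 : 1 - t ^ 2 / (t + δ) ^ 2 ≤ 1 := by
      have : 0 ≤ t ^ 2 / (t + δ) ^ 2 := by positivity
      linarith
    have h7 : (1 - t ^ 2 / (t + δ) ^ 2) * t ≤ η ^ 2 := by
      rw [h4, div_mul_eq_mul_div, div_le_iff₀ (by positivity)]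
      have : η ^ 2 = 2 * δ := by rw [hδ]; ring
      rw [this]
      nlinarith [mul_nonneg hδ0.le (mul_nonneg ht hδ0.le), mul_pos hδ0 (mul_pos hδ0 hδ0)]
    rw [h3]
    nlinarith [mul_nonneg h5 ht]
  refine ⟨cfcₙ g b * x, ?_⟩
  have h8 : star (cfcₙ g b * x) * b * (cfcₙ g b * x) - star x * x
      = -(star x * (x - cfcₙ (fun t => g t * t * g t) b * x)) := by
    rw [star_mul, hgs.star_eq, ← h1]; noncomm_ring
  rw [h8, norm_neg]
  refine (norm_mul_le _ _).trans_lt ?_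
  rw [norm_star]
  have h9 : η * (‖x‖ + 1) = ε := by rw [hη]; field_simp
  nlinarith [norm_nonneg x, mul_le_mul_of_nonneg_left h2 (norm_nonneg x)]

theorem cu_star_mul (x : C) : Cu (star x * x) (x * star x) := cu_star_mul_of_le le_rfl

theorem cu_mul_star (x : C) : Cu (x * star x) (star x * x) := by
  simpa only [star_star] using cu_star_mul (star x)

theorem cu_of_le {a b : C} (ha : 0 ≤ a) (h : a ≤ b) : Cu a b := by
  have h1 : star (CFC.sqrt a) = CFC.sqrt a := (CFC.sqrt_nonneg a).isSelfAdjoint.star_eq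
  have h2 := CFC.sqrt_mul_sqrt_self a ha
  have := cu_star_mul_of_le (x := CFC.sqrt a) (b := b) (by rwa [h1, h2])
  rwa [h1, h2] at this

theorem Cu.refl {a : C} (ha : 0 ≤ a) : Cu a a := cu_of_le ha le_rfl

theorem cu_cut {a : C} (ha : 0 ≤ a) {ε : ℝ} (hε : 0 ≤ ε) : Cu (cut ε a) a :=
  cu_of_le (cut_nonneg ε a) (cut_le ha hε)

/-- Rørdam's lemma (approximate form). -/
theorem cu_cut_of_norm_le {a b : C} (ha : IsSelfAdjoint a) (hb : 0 ≤ b) {ε : ℝ} (hε : 0 ≤ ε)
    (h : ‖a - b‖ ≤ ε) : Cu (cut ε a) b := by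
  have h0 : max ((0 : ℝ) - ε) 0 = 0 := max_eq_right (by linarith)
  have hbs := hb.isSelfAdjoint
  refine Cu.of_approx fun η hη => ?_
  obtain ⟨k, hkd⟩ : ∃ k : ℝ → ℝ, k = fun t => max (t - ε) 0 := ⟨_, rfl⟩
  have hk : Continuous k := by rw [hkd]; fun_prop
  have hk0 : k 0 = 0 := by rw [hkd]; exact h0
  have hkn : ∀ t, 0 ≤ k t := fun t => by rw [hkd]; exact le_max_right _ _
  obtain ⟨δ, hδ⟩ : ∃ δ : ℝ, δ = η / 4 := ⟨_, rfl⟩
  have hδ0 : 0 < δ := by rw [hδ]; positivity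
  obtain ⟨f, hfd⟩ : ∃ f : ℝ → ℝ, f = fun t => k t / (k t + δ) := ⟨_, rfl⟩
  have hne : ∀ t, k t + δ ≠ 0 := fun t => by have := hkn t; positivity
  have hf : Continuous f := by rw [hfd]; exact hk.div (by fun_prop) hne
  have hf0 : f 0 = 0 := by simp [hfd, hk0]
  have hfs : IsSelfAdjoint (cfcₙ f a) := cfcₙ_predicate _ _
  have h1 : cfcₙ f a * a * cfcₙ f a = cfcₙ (fun t => f t * t * f t) a := by
    rw [cfcₙ_mul (fun t => f t * t) f a (by fun_prop) (by simp), cfcₙ_mul f (fun t : ℝ => t),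
      cfcₙ_id' ℝ a]
  have h2 : cfcₙ f a * cfcₙ f a = cfcₙ (fun t => f t * f t) a := by rw [cfcₙ_mul f f]
  have h3 : cfcₙ (fun t => f t * k t * f t) a
      = cfcₙ f a * a * cfcₙ f a - ε • (cfcₙ f a * cfcₙ f a) := by
    rw [h1, h2, ← cfcₙ_smul ε (fun t => f t * f t) a (by fun_prop) (by simp [hf0]),
      ← cfcₙ_sub _ _ a (by fun_prop) (by simp [hf0]) (by fun_prop) (by simp [hf0])]
    refine cfcₙ_congr fun t _ => ?_
    rcases le_total t ε with ht | ht
    · have : k t = 0 := by rw [hkd]; exact max_eq_right (by linarith)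
      simp [hfd, this]
    · have : k t = t - ε := by rw [hkd]; exact max_eq_left (by linarith)
      simp only [smul_eq_mul]
      rw [this]; ring
  refine ⟨cfcₙ (fun t => f t * k t * f t) a, ?_, ?_⟩
  · rw [cut, ← hkd, ← cfcₙ_sub _ _ a (by fun_prop) (by simp [hf0]) (by fun_prop) hk0]
    refine (norm_cfcₙ_le (c := η / 2) fun t _ => ?_).trans_lt (half_lt_self hη)
    have hp : 0 < k t + δ := by have := hkn t; positivity
    have h4 : f t * k t * f t - k t = -(k t * δ * (2 * k t + δ) / (k t + δ) ^ 2) := by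
      simp only [hfd]; field_simp; ring
    have := hkn t
    rw [h4, norm_neg, Real.norm_eq_abs, abs_of_nonneg (by positivity),
      div_le_iff₀ (by positivity)]
    have h5 : η / 2 = 2 * δ := by rw [hδ]; ring
    rw [h5]
    nlinarith [mul_nonneg hδ0.le (mul_nonneg this hδ0.le), mul_pos hδ0 (mul_pos hδ0 hδ0)]
  · have h6 : cfcₙ (fun t => f t * k t * f t) a ≤ star (cfcₙ f a) * b * cfcₙ f a := by
      have h7 := CStarAlgebra.star_left_conjugate_le_norm_smul (a := cfcₙ f a) (b := a - b)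
        (ha.sub hbs)
      have h8 : ‖a - b‖ • (star (cfcₙ f a) * cfcₙ f a) ≤ ε • (star (cfcₙ f a) * cfcₙ f a) :=
        smul_le_smul_of_nonneg_right h (star_mul_self_nonneg _)
      have h9 := h7.trans h8
      rw [hfs.star_eq] at h9 ⊢
      rw [h3, sub_le_iff_le_add, ← sub_le_iff_le_add']
      simpa only [mul_sub, sub_mul] using h9
    refine (cu_of_le (cfcₙ_nonneg fun t _ => ?_) h6).trans (Cu.conj_self b _)
    nlinarith [mul_nonneg (mul_self_nonneg (f t)) (hkn t)]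

/-- `a ≾ b` gives `(a - ε)₊ ≾ d⋆ b d` for a suitable `d`. -/
theorem Cu.exists_cut {a b : C} (h : Cu a b) (ha : IsSelfAdjoint a) (hb : 0 ≤ b) {ε : ℝ}
    (hε : 0 < ε) : ∃ d : C, ‖star d * b * d - a‖ < ε ∧ Cu (cut ε a) (star d * b * d) := by
  obtain ⟨d, hd⟩ := h ε hε
  exact ⟨d, hd, cu_cut_of_norm_le ha (star_left_conjugate_nonneg hb d) hε.le
    (by rw [norm_sub_rev]; exact hd.le)⟩

omit [PartialOrder C] [StarOrderedRing C] in
/-- two elements below a properly infinite `h` have orthogonal witnesses. -/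
theorem pi_pair {h x y : C} (hh : IsProperlyInfinite h) (hx : Cu x h) (hy : Cu y h) {ε : ℝ}
    (hε : 0 < ε) : ∃ r s : C, ‖star r * h * r - x‖ < ε ∧ ‖star s * h * s - y‖ < ε ∧
      ‖star r * h * s‖ < ε := by
  obtain ⟨d, hd⟩ := hx (ε / 2) (half_pos hε)
  obtain ⟨e, he⟩ := hy (ε / 2) (half_pos hε)
  set K : ℝ := (‖d‖ + ‖e‖) ^ 2 + 1 with hK
  have hK0 : 0 < K := by positivity
  obtain ⟨r, s, h1, h2, h3⟩ := hh (ε / 2 / K) (by positivity)
  have key : ∀ (p q z : C), ‖p‖ ≤ ‖d‖ + ‖e‖ → ‖q‖ ≤ ‖d‖ + ‖e‖ → ‖z‖ < ε / 2 / K →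
      ‖star p * z * q‖ ≤ ε / 2 := by
    intro p q z hp hq hz
    have h4 : ‖star p * z * q‖ ≤ (‖d‖ + ‖e‖) * ‖z‖ * (‖d‖ + ‖e‖) := by
      refine (norm_mul_le _ _).trans ?_
      gcongr
      refine (norm_mul_le _ _).trans ?_
      rw [norm_star]; gcongr
    have h5 : ‖z‖ * K ≤ ε / 2 := by rw [← le_div_iff₀ hK0]; exact hz.le
    nlinarith [norm_nonneg z]
  have hd' : ‖d‖ ≤ ‖d‖ + ‖e‖ := le_add_of_nonneg_right (norm_nonneg _)
  have he' : ‖e‖ ≤ ‖d‖ + ‖e‖ := le_add_of_nonneg_left (norm_nonneg _)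
  refine ⟨r * d, s * e, ?_, ?_, ?_⟩
  · have : star (r * d) * h * (r * d) - x
        = star d * (star r * h * r - h) * d + (star d * h * d - x) := by
      rw [star_mul]; noncomm_ring
    rw [this]
    linarith [norm_add_le (star d * (star r * h * r - h) * d) (star d * h * d - x),
      key d d _ hd' hd' h1]
  · have : star (s * e) * h * (s * e) - y
        = star e * (star s * h * s - h) * e + (star e * h * e - y) := by
      rw [star_mul]; noncomm_ring
    rw [this]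
    linarith [norm_add_le (star e * (star s * h * s - h) * e) (star e * h * e - y),
      key e e _ he' he' h2]
  · have : star (r * d) * h * (s * e) = star d * (star r * h * s) * e := by
      rw [star_mul]; noncomm_ring
    rw [this]
    linarith [key d e _ hd' he' h3]

omit [PartialOrder C] [StarOrderedRing C] in
theorem pi_add {h x y : C} (hs : IsSelfAdjoint h) (hh : IsProperlyInfinite h) (hx : Cu x h)
    (hy : Cu y h) : Cu (x + y) h := by
  intro ε hε
  obtain ⟨r, s, h1, h2, h3⟩ := pi_pair hh hx hy (show 0 < ε / 4 by positivity)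
  refine ⟨r + s, ?_⟩
  have h4 : ‖star s * h * r‖ < ε / 4 := by
    rw [← norm_star, star_mul, star_mul, star_star, hs.star_eq, ← mul_assoc]; exact h3
  have : star (r + s) * h * (r + s) - (x + y)
      = (star r * h * r - x) + (star s * h * s - y) + (star r * h * s + star s * h * r) := by
    rw [star_add]; noncomm_ring
  rw [this]
  linarith [norm_add_le ((star r * h * r - x) + (star s * h * s - y))
    (star r * h * s + star s * h * r), norm_add_le (star r * h * r - x) (star s * h * s - y),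
    norm_add_le (star r * h * s) (star s * h * r)]

omit [PartialOrder C] [StarOrderedRing C] in
theorem pi_sum {h : C} (hs : IsSelfAdjoint h) (hh : IsProperlyInfinite h) {ι : Type*}
    (s : Finset ι) (x : ι → C) (hx : ∀ i ∈ s, Cu (x i) h) : Cu (∑ i ∈ s, x i) h :=
  Finset.sum_induction x (fun z => Cu z h) (fun _ _ => pi_add hs hh) (Cu.zero h) hx

end Crest.Agent.R110
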