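import Crest.Agent.R110.Defs

/-! # Row 110, task R110-Cut: functional calculus for `cut`.
For statements about `π : L →⋆ₐ[ℂ] Q` install an order on `Q` by `letI := CStarAlgebra.spectralOrder Q;
haveI := CStarAlgebra.spectralOrderedRing Q` and use `map_cut` (`StarAlgHomClass.map_cfc` / `StarAlgHom.map_cfc`),
`map_nonneg`.  `exists_unit_cut`: `w = cfc (fun t => 1 / max t τ) h`.  `cfc_fac`: `f t = t * g t` with
`g t = f t * t / max (t^2) (τ^2/4)`-like continuous `g`. -/

set_option autoImplicit false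
set_option linter.unusedVariables false

namespace Crest.Agent.R110

universe u

variable {L : Type u} [CStarAlgebra L] [PartialOrder L] [StarOrderedRing L]

omit [PartialOrder L] [StarOrderedRing L] in
theorem cut_sa (τ : ℝ) (h : L) : IsSelfAdjoint (cut τ h) := cfc_predicate _ _

namespace Cut0X

omit [PartialOrder L] [StarOrderedRing L] in
theorem cut_zero_iff (τ : ℝ) {h : L} (hh : IsSelfAdjoint h) :
    cut τ h = 0 ↔ ∀ x ∈ spectrum ℝ h, x ≤ τ := by
  unfold cut
  constructor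
  · intro h0 x hx
    have h1 : cfc (fun t : ℝ => max (t - τ) 0) h = cfc (fun _ : ℝ => (0 : ℝ)) h := by
      rw [h0, cfc_const_zero]
    have := eqOn_of_cfc_eq_cfc h1 (by fun_prop) (by fun_prop) hh hx
    simp only [max_eq_right_iff] at this
    linarith
  · intro h0
    rw [← cfc_const_zero ℝ h]
    refine cfc_congr fun x hx => ?_
    exact max_eq_right (by linarith [h0 x hx])

omit [PartialOrder L] [StarOrderedRing L] in
theorem id_mul (g : ℝ → ℝ) (hg : Continuous g) {h : L} (hh : IsSelfAdjoint h) :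
    cfc (fun t => t * g t) h = h * cfc g h ∧ cfc (fun t => t * g t) h = cfc g h * h := by
  constructor
  · rw [cfc_mul (fun t : ℝ => t) g h, cfc_id' ℝ h]
  · have : (fun t : ℝ => t * g t) = fun t => g t * t := funext fun t => mul_comm _ _
    rw [this, cfc_mul g (fun t : ℝ => t) h, cfc_id' ℝ h]

end Cut0X

theorem cut_nonneg (τ : ℝ) (h : L) : 0 ≤ cut τ h := by
  exact cfc_nonneg fun x _ => le_max_right _ _

omit [PartialOrder L] [StarOrderedRing L] in
theorem map_cut {Q : Type u} [CStarAlgebra Q] (π : L →⋆ₐ[ℂ] Q) (τ : ℝ) {h : L}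
    (hh : IsSelfAdjoint h) : π (cut τ h) = cut τ (π h) := by
  unfold cut
  exact StarAlgHom.map_cfc π _ h (by fun_prop) (NonUnitalStarAlgHom.norm_apply_le π |> fun hb => AddMonoidHomClass.continuous_of_bound π 1 (by simpa using hb)) hh (hh.map π)

theorem norm_cut_sub {τ : ℝ} (hτ : 0 ≤ τ) {h : L} (hh : 0 ≤ h) : ‖cut τ h - h‖ ≤ τ := by
  have hs : IsSelfAdjoint h := IsSelfAdjoint.of_nonneg hh
  have h1 : cut τ h - h = cfc (fun t : ℝ => max (t - τ) 0 - t) h := by
    unfold cut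
    rw [cfc_sub (fun t : ℝ => max (t - τ) 0) (fun t : ℝ => t) h, cfc_id' ℝ h]
  rw [h1]
  refine norm_cfc_le hτ fun x hx => ?_
  have hx0 : 0 ≤ x := spectrum_nonneg_of_nonneg hh hx
  rw [Real.norm_eq_abs, abs_le]
  constructor
  · linarith [le_max_left (x - τ) 0]
  · rcases le_total (x - τ) 0 with h' | h'
    · rw [max_eq_right h']; linarith
    · rw [max_eq_left h']; linarith

omit [PartialOrder L] [StarOrderedRing L] in
theorem norm_cut_le {τ : ℝ} (hτ : 0 ≤ τ) {h : L} (hh : IsSelfAdjoint h) : ‖cut τ h‖ ≤ ‖h‖ := by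
  unfold cut
  refine norm_cfc_le (norm_nonneg _) fun x hx => ?_
  have h1 := norm_apply_le_norm_cfc (fun t : ℝ => t) h hx (by fun_prop) hh
  rw [cfc_id' ℝ h, Real.norm_eq_abs] at h1
  rw [Real.norm_eq_abs, abs_of_nonneg (le_max_right _ _)]
  exact max_le (by linarith [le_abs_self x]) (norm_nonneg _)

theorem cut_eq_zero_iff_le (τ : ℝ) {h : L} (hh : IsSelfAdjoint h) :
    cut τ h = 0 ↔ h ≤ τ • (1 : L) := by
  rw [Cut0X.cut_zero_iff τ hh, ← Algebra.algebraMap_eq_smul_one,
    le_algebraMap_iff_spectrum_le (R := ℝ) hh]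

theorem cut_eq_zero_iff_norm {τ : ℝ} (hτ : 0 ≤ τ) {h : L} (hh : 0 ≤ h) :
    cut τ h = 0 ↔ ‖h‖ ≤ τ := by
  rw [cut_eq_zero_iff_le τ (IsSelfAdjoint.of_nonneg hh), ← Algebra.algebraMap_eq_smul_one,
    CStarAlgebra.norm_le_iff_le_algebraMap h hτ hh]

omit [PartialOrder L] [StarOrderedRing L] in
theorem cut_eq_zero_of_norm_cut {τ θ : ℝ} {h : L} (hh : IsSelfAdjoint h) (hn : ‖cut τ h‖ ≤ θ) :
    cut (τ + θ) h = 0 := by
  rw [Cut0X.cut_zero_iff _ hh]
  intro x hx
  have h1 := norm_apply_le_norm_cfc (fun t : ℝ => max (t - τ) 0) h hx (by fun_prop) hh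
  have h2 : ‖max (x - τ) 0‖ ≤ θ := h1.trans hn
  rw [Real.norm_eq_abs] at h2
  linarith [le_abs_self (max (x - τ) 0), le_max_left (x - τ) 0]

omit [PartialOrder L] [StarOrderedRing L] in
/-- a function vanishing near `0` factors through `h` -/
theorem cfc_fac (f : ℝ → ℝ) (hf : Continuous f) {τ : ℝ} (hτ : 0 < τ) (h0 : ∀ t, |t| < τ → f t = 0)
    {h : L} (hh : IsSelfAdjoint h) : ∃ w, cfc f h = h * w ∧ cfc f h = w * h := by
  have hpos : ∀ t : ℝ, 0 < max (t ^ 2) (τ ^ 2) := fun t => lt_max_of_lt_right (by positivity)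
  have hg : Continuous fun t : ℝ => f t * t / max (t ^ 2) (τ ^ 2) :=
    (hf.mul continuous_id).div (by fun_prop) fun t => (hpos t).ne'
  have he : f = fun t => t * (f t * t / max (t ^ 2) (τ ^ 2)) := by
    funext t
    by_cases ht : |t| < τ
    · simp [h0 t ht]
    · have h1 : τ ^ 2 ≤ t ^ 2 := by
        rw [← sq_abs t]
        exact pow_le_pow_left₀ hτ.le (not_lt.1 ht) 2
      have h2 : t ≠ 0 := by
        rintro rfl
        exact ht (by simpa using hτ)
      rw [max_eq_left h1]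
      field_simp
  refine ⟨cfc (fun t : ℝ => f t * t / max (t ^ 2) (τ ^ 2)) h, ?_⟩
  have := Cut0X.id_mul _ hg hh
  rwa [← he] at this

omit [PartialOrder L] [StarOrderedRing L] in
theorem cut_sub {τ : ℝ} (hτ : 0 < τ) {h : L} (hh : IsSelfAdjoint h) : Sub (cut τ h) h := by
  obtain ⟨w, hw, _⟩ := cfc_fac (fun t : ℝ => max (t - τ) 0) (by fun_prop) hτ
    (fun t ht => max_eq_right (by linarith [le_abs_self t])) hh
  exact ⟨w, hw⟩

omit [PartialOrder L] [StarOrderedRing L] in
theorem exists_unit_cut {τ : ℝ} (hτ : 0 < τ) {h : L} (hh : IsSelfAdjoint h) :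
    ∃ w, IsSelfAdjoint w ∧ ‖w‖ ≤ 1 / τ ∧ w * h = h * w ∧ h * w * cut τ h = cut τ h := by
  have hpos : ∀ t : ℝ, 0 < max t τ := fun t => lt_max_of_lt_right hτ
  have hg : Continuous fun t : ℝ => 1 / max t τ :=
    continuous_const.div (by fun_prop) fun t => (hpos t).ne'
  obtain ⟨e1, e2⟩ := Cut0X.id_mul _ hg hh
  refine ⟨cfc (fun t : ℝ => 1 / max t τ) h, cfc_predicate _ _, ?_, by rw [← e1, ← e2], ?_⟩
  · refine norm_cfc_le (by positivity) fun x _ => ?_
    rw [Real.norm_eq_abs, abs_of_pos (one_div_pos.2 (hpos x))]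
    exact one_div_le_one_div_of_le hτ (le_max_right _ _)
  · rw [← e1]
    unfold cut
    rw [← cfc_mul (fun t : ℝ => t * (1 / max t τ)) (fun t : ℝ => max (t - τ) 0) h
      (continuous_id.mul hg).continuousOn]
    refine cfc_congr fun x _ => ?_
    rcases le_total x τ with h' | h'
    · simp [max_eq_right (sub_nonpos.2 h')]
    · have : x ≠ 0 := by linarith
      simp only [max_eq_left h']
      field_simp

end Crest.Agent.R110
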