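import Crest.Agent.R110.Cut

/-! # Row 110, task R110-Est: the final estimate of the layer lemma.
Fix `π` with `π (cut ρ (xm B c (lam/n) v n)) = 0`, order `Q` spectrally: `πB ≤ (lam/n) π(c⋆ S S⋆ c) + ρ`, `S = S_n`.  Downward
(strong) induction on `m ≤ n`: `π (cut (th η n m) (xm B c μ v m)) = 0`.  For `y = k m`: `S⋆ c y = S_m⋆ c y + W y` in `Q` with
`‖W‖ ≤ ‖c‖ M + n M δ` (`W = π(v m)⋆ π c + ∑_{m<i<n} π(v i)⋆ π(e'⋆ c e - j)`; `W = 0` if `m = n`; use `e' v = v`, `e y = y`,
`π j = 0`).  `(Z + Wy)⋆(Z + Wy) ≤ 2 Z⋆Z + 2‖W‖² y⋆y`; `cut_posreg`: `th (m+1) y⋆y + μ Z⋆Z ≤ y⋆By`, `th (m+1) ≥ η/2`.  Hence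
`(η/4) y⋆y ≤ ½ y⋆By ≤ (2(lam/n)‖W‖² + ρ) y⋆y`, so `π y = 0`, and `Cov.van`.  `m = 0`: `xm .. 0 = B`, `th η n 0 = η`. -/

set_option autoImplicit false
set_option linter.unusedVariables false

namespace Crest.Agent.R110

universe u

variable {L : Type u} [CStarAlgebra L] [PartialOrder L] [StarOrderedRing L]

namespace EstX

theorem core {B y Z W : L} {lam κ ρ η t ω : ℝ} (hκ0 : 0 ≤ κ) (hκ : κ ≤ lam)
    (h1 : star y * B * y ≤ κ • (star (Z + W * y) * (Z + W * y)) + ρ • (star y * y))
    (h2 : t • (star y * y) ≤ star y * B * y - (4 * lam) • (star Z * Z)) (ht : η / 4 ≤ t)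
    (hW : ‖W‖ ≤ ω) (hs : 2 * κ * ω ^ 2 + ρ < η / 4) : y = 0 := by
  have hP : 0 ≤ star y * y := star_mul_self_nonneg y
  have hX : 0 ≤ star Z * Z := star_mul_self_nonneg Z
  have hV : star (W * y) * (W * y) ≤ (ω ^ 2) • (star y * y) := by
    have e : star (W * y) * (W * y) = star y * (star W * W) * y := by
      simp [mul_assoc]
    rw [e]
    refine (CStarAlgebra.star_left_conjugate_le_norm_smul (IsSelfAdjoint.star_mul_self W)).trans ?_
    refine smul_le_smul_of_nonneg_right ?_ hP
    rw [CStarRing.norm_star_mul_self, sq]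
    exact mul_self_le_mul_self (norm_nonneg _) hW
  have hS : star (Z + W * y) * (Z + W * y) ≤
      (2 : ℝ) • (star Z * Z) + (2 : ℝ) • (star (W * y) * (W * y)) := by
    rw [← sub_nonneg]
    have e : (2 : ℝ) • (star Z * Z) + (2 : ℝ) • (star (W * y) * (W * y)) -
        star (Z + W * y) * (Z + W * y) = star (Z - W * y) * (Z - W * y) := by
      simp only [two_smul, star_add, star_sub, add_mul, mul_add, sub_mul, mul_sub]
      abel
    rw [e]
    exact star_mul_self_nonneg _
  have hS2 : κ • (star (Z + W * y) * (Z + W * y)) ≤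
      (4 * lam) • (star Z * Z) + (2 * κ * ω ^ 2) • (star y * y) := by
    refine (smul_le_smul_of_nonneg_left hS hκ0).trans ?_
    rw [smul_add, smul_smul, smul_smul]
    refine add_le_add (smul_le_smul_of_nonneg_right (by linarith) hX) ?_
    have := smul_le_smul_of_nonneg_left hV (show (0 : ℝ) ≤ κ * 2 by linarith)
    rw [smul_smul] at this
    convert this using 2
    ring
  have h3 : (t - (2 * κ * ω ^ 2 + ρ)) • (star y * y) ≤ 0 := by
    rw [sub_smul, add_smul, sub_nonpos]
    have h4 := h1.trans (add_le_add hS2 le_rfl)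
    have h5 := h2.trans (sub_le_sub_right h4 _)
    convert h5 using 1
    abel
  have hpos : 0 < t - (2 * κ * ω ^ 2 + ρ) := by linarith
  have h6 : star y * y ≤ 0 := by
    have := smul_le_smul_of_nonneg_left h3 (inv_pos.2 hpos).le
    rwa [smul_smul, inv_mul_cancel₀ hpos.ne', one_smul, smul_zero] at this
  exact (CStarRing.star_mul_self_eq_zero_iff y).1 (le_antisymm h6 hP)

theorem xm_sa {B c : L} (hB0 : 0 ≤ B) (μ : ℝ) (v : ℕ → L) (m : ℕ) : IsSelfAdjoint (xm B c μ v m) := by
  unfold xm
  refine (IsSelfAdjoint.of_nonneg hB0).sub (IsSelfAdjoint.smul (IsSelfAdjoint.all μ) ?_)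
  exact IsSelfAdjoint.of_nonneg (star_left_conjugate_nonneg (mul_star_self_nonneg _) c)

omit [PartialOrder L] [StarOrderedRing L] in
theorem xm_conj (B c y : L) (μ : ℝ) (v : ℕ → L) (m : ℕ) :
    star y * xm B c μ v m * y = star y * B * y -
      μ • (star (star (∑ i ∈ Finset.range m, v i) * c * y) *
        (star (∑ i ∈ Finset.range m, v i) * c * y)) := by
  unfold xm
  generalize (∑ i ∈ Finset.range m, v i) = S
  simp [mul_sub, sub_mul, mul_assoc]

end EstX

open EstX in
theorem layer_est {B c : L} (hB0 : 0 ≤ B) {η lam ρ δ M : ℝ} {n : ℕ} (hn : 0 < n) (hη : 0 < η)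
    (hlam : 0 < lam) (hρ : 0 ≤ ρ) (hδ : 0 ≤ δ) (hM : 0 ≤ M) (v k : ℕ → L) (hv : ∀ i < n, ‖v i‖ ≤ M)
    (hk : ∀ m ≤ n, Sub (k m) (cut (th η n (m + 1)) (xm B c (4 * lam) v m)) ∧
        Cov (k m) (cut (th η n m) (xm B c (4 * lam) v m)))
    (hrel : ∀ m i, m < i → i < n → Rel c (cut (th η n i) (xm B c (4 * lam) v i)) (v i) (k m) δ)
    (hsmall : 2 * (lam / n) * (‖c‖ * M + n * M * δ) ^ 2 + ρ < η / 4) :
    Van (cut ρ (xm B c (lam / n) v n)) (cut η B) := by
  intro Q _ π h0
  letI := CStarAlgebra.spectralOrder Q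
  haveI := CStarAlgebra.spectralOrderedRing Q
  have hn1 : (1 : ℝ) ≤ n := by exact_mod_cast hn
  have hsm : ∀ (r : ℝ) (x : L), π (r • x) = r • π x := fun r x => by
    rw [← Complex.coe_smul, map_smul, Complex.coe_smul]
  have hle : π (xm B c (lam / n) v n) ≤ ρ • (1 : Q) := by
    rw [map_cut π ρ (xm_sa hB0 _ _ _)] at h0
    exact (cut_eq_zero_iff_le ρ ((xm_sa hB0 _ _ _).map π)).1 h0
  have key : ∀ d m, m + d = n → ∀ i, m ≤ i → i ≤ n →
      π (cut (th η n i) (xm B c (4 * lam) v i)) = 0 := by
    have step : ∀ m ≤ n, (∀ i, m < i → i ≤ n → π (cut (th η n i) (xm B c (4 * lam) v i)) = 0) →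
        π (cut (th η n m) (xm B c (4 * lam) v m)) = 0 := by
      intro m hm ih
      refine (hk m hm).2.van Q π ?_
      set y := k m with hy
      -- the remainder
      have hW : ∃ W : Q, ‖W‖ ≤ ‖c‖ * M + n * M * δ ∧
          π (star (∑ i ∈ Finset.range n, v i) * c * y) =
            π (star (∑ i ∈ Finset.range m, v i) * c * y) + W * π y := by
        have h1 : ∀ i ∈ Finset.Ico m n, ∃ W : Q,
            ‖W‖ ≤ (if i = m then ‖c‖ * M else 0) + M * δ ∧ π (star (v i) * c * y) = W * π y := by
          intro i hi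
          obtain ⟨hi1, hi2⟩ := Finset.mem_Ico.1 hi
          have hvi : ‖π (star (v i))‖ ≤ M :=
            (NonUnitalStarAlgHom.norm_apply_le π _).trans (by rw [norm_star]; exact hv i hi2)
          by_cases him : i = m
          · refine ⟨π (star (v i)) * π c, ?_, by simp⟩
            rw [if_pos him]
            have h2 : ‖π c‖ ≤ ‖c‖ := NonUnitalStarAlgHom.norm_apply_le π _
            have h3 := (norm_mul_le (π (star (v i))) (π c)).trans
              (mul_le_mul hvi h2 (norm_nonneg _) hM)
            nlinarith [mul_nonneg hM hδ]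
          · obtain ⟨e', e, j, h2, h3, h4, h5⟩ := hrel m i (by omega) hi2
            have hj : π j = 0 := h4 Q π (ih i (by omega) hi2.le)
            refine ⟨π (star (v i)) * π (star e' * c * e - j), ?_, ?_⟩
            · rw [if_neg him, zero_add]
              exact (norm_mul_le _ _).trans (mul_le_mul hvi
                ((NonUnitalStarAlgHom.norm_apply_le π _).trans h5) (norm_nonneg _) hM)
            · rw [map_sub, hj, sub_zero, ← map_mul, ← map_mul]
              congr 1
              have e1 : star (v i) = star (v i) * star e' := by rw [← star_mul, h2]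
              calc star (v i) * c * y = star (v i) * star e' * c * (e * y) := by rw [← e1, h3]
                _ = _ := by simp only [mul_assoc]
        choose! W hW using h1
        refine ⟨∑ i ∈ Finset.Ico m n, W i, ?_, ?_⟩
        · refine (norm_sum_le _ _).trans ((Finset.sum_le_sum fun i hi => (hW i hi).1).trans ?_)
          rw [Finset.sum_add_distrib, Finset.sum_ite_eq', Finset.sum_const, nsmul_eq_mul,
            Nat.card_Ico]
          have h2 : ((n - m : ℕ) : ℝ) ≤ n := by exact_mod_cast Nat.sub_le n m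
          have h3 : 0 ≤ M * δ := mul_nonneg hM hδ
          have h4 : 0 ≤ ‖c‖ * M := mul_nonneg (norm_nonneg _) hM
          have h5 := mul_le_mul_of_nonneg_right h2 h3
          split_ifs <;> nlinarith
        · rw [← Finset.sum_range_add_sum_Ico v hm, star_add, add_mul, add_mul, map_add]
          congr 1
          rw [star_sum, Finset.sum_mul, Finset.sum_mul, map_sum, Finset.sum_mul]
          exact Finset.sum_congr rfl fun i hi => (hW i hi).2
      obtain ⟨W, hW1, hW2⟩ := hW
      refine core (B := π B) (Z := π (star (∑ i ∈ Finset.range m, v i) * c * y)) (W := W)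
        (lam := lam) (κ := lam / n) (ρ := ρ) (η := η) (t := th η n (m + 1)) (by positivity)
        (div_le_self hlam.le hn1) ?_ ?_ ?_ hW1 hsmall
      · have h1 := star_left_conjugate_le_conjugate hle (π y)
        rw [← map_star, ← map_mul, ← map_mul, xm_conj, map_sub, hsm, map_mul _ (star _), map_star,
          hW2, sub_le_iff_le_add] at h1
        simpa [add_comm, map_star] using h1
      · have h1 := OrderHomClass.mono π (cut_posreg (xm_sa hB0 (4 * lam) v m) (hk m hm).1)
        rw [xm_conj] at h1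
        simpa [hsm, map_star] using h1
      · unfold th
        have h1 : ((m + 1 : ℕ) : ℝ) ≤ n + 1 := by exact_mod_cast Nat.succ_le_succ hm
        have h2 : ((m + 1 : ℕ) : ℝ) * (η / (2 * (n + 1))) ≤ (n + 1) * (η / (2 * (n + 1))) :=
          mul_le_mul_of_nonneg_right h1 (by positivity)
        have h3 : ((n : ℝ) + 1) * (η / (2 * (n + 1))) = η / 2 := by field_simp
        linarith
    intro d
    induction d with
    | zero =>
      intro m hm i h1 h2
      exact step i h2 fun j h3 h4 => by omega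
    | succ d ih =>
      intro m hm i h1 h2
      rcases h1.eq_or_lt with rfl | h1
      · exact step m h2 fun j h3 h4 => ih (m + 1) (by omega) j h3 h4
      · exact ih (m + 1) (by omega) i h1 h2
  have := key n 0 (by omega) 0 le_rfl (Nat.zero_le n)
  simpa [th, xm] using this

end Crest.Agent.R110
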