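import Crest.Agent.R110.Cut
import Crest.Agent.R110.Idl

/-! # Row 110, task R110-Her.
`her`: `y = (X+δ)^(-1/2) x^(1/2)`; `y⋆Xy = x - δ x^(1/2)(X+δ)⁻¹x^(1/2)` and with `u = (X+δ)^(-1/2)`,
`‖x^(1/2) u u x^(1/2)‖ = ‖u x u‖ ≤ ‖u (X+δ) u‖ ≤ 1`.
`f1`: `T = {x | ∀ ε > 0, ∃ z, ‖(kz)⋆(kz) - x‖ < ε}` is closed, closed under `x ↦ y⋆xy`, under sums (`z = r z₁ + s z₂` with
`r, s` from `hI.pi k`), hereditary among positive elements (`her`).  `Van.mem` for `J = {x | x⋆x ∈ T}`
(`(x+y)⋆(x+y) ≤ 2x⋆x + 2y⋆y`, `(yx)⋆(yx) ≤ ‖y‖² x⋆x`) and `g' = CFC.sqrt x` (`‖π √x‖² = ‖π x‖`). -/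

set_option autoImplicit false
set_option linter.unusedVariables false

namespace Crest.Agent.R110

universe u

variable {L : Type u} [CStarAlgebra L] [PartialOrder L] [StarOrderedRing L]

theorem her {x X : L} (hx : 0 ≤ x) (hX : x ≤ X) {ε : ℝ} (hε : 0 < ε) :
    ∃ y, ‖star y * X * y - x‖ < ε := by
  have hX0 : 0 ≤ X := hx.trans hX
  have hXsa : IsSelfAdjoint X := IsSelfAdjoint.of_nonneg hX0
  set δ : ℝ := ε / 2 with hδ
  have hδ0 : 0 < δ := by positivity
  let f : ℝ → ℝ := fun t => 1 / Real.sqrt (|t| + δ)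
  have hpos : ∀ t : ℝ, 0 < |t| + δ := fun t => by positivity
  have hf : Continuous f := by
    refine continuous_const.div (by fun_prop) fun t => ?_
    exact (Real.sqrt_pos.2 (hpos t)).ne'
  set u : L := cfc f X with hu_def
  have hu : IsSelfAdjoint u := cfc_predicate f X
  have h1 : u * X * u = cfc (fun t => f t * t * f t) X := by
    rw [cfc_mul _ _ X (by fun_prop) (by fun_prop), cfc_mul _ _ X (by fun_prop) (by fun_prop),
      cfc_id' ℝ X]
  have h2 : δ • (u * u) = cfc (fun t => δ * (f t * f t)) X := by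
    rw [cfc_const_mul δ _ X (by fun_prop), cfc_mul _ _ X (by fun_prop) (by fun_prop)]
  have h3 : u * X * u + δ • (u * u) = 1 := by
    rw [h1, h2, ← cfc_add X _ _ (by fun_prop) (by fun_prop), ← cfc_one ℝ X]
    refine cfc_congr fun t ht => ?_
    have ht0 : 0 ≤ t := spectrum_nonneg_of_nonneg hX0 ht
    have hs : Real.sqrt (|t| + δ) * Real.sqrt (|t| + δ) = t + δ := by
      rw [Real.mul_self_sqrt (hpos t).le, abs_of_nonneg ht0]
    have hs0 : Real.sqrt (|t| + δ) ≠ 0 := (Real.sqrt_pos.2 (hpos t)).ne'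
    have hff : f t * f t = 1 / (t + δ) := by
      simp only [f]
      rw [div_mul_div_comm, hs, one_mul]
    have htd : t + δ ≠ 0 := by positivity
    show f t * t * f t + δ * (f t * f t) = 1
    rw [mul_right_comm, hff]
    field_simp
  set r : L := CFC.sqrt x with hr_def
  have hr : IsSelfAdjoint r := IsSelfAdjoint.of_nonneg (CFC.sqrt_nonneg x)
  have hrr : r * r = x := CFC.sqrt_mul_sqrt_self x hx
  have huu : 0 ≤ u * u := by
    have := star_mul_self_nonneg u
    rwa [hu.star_eq] at this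
  have h4 : u * X * u ≤ 1 := by
    rw [← h3]
    exact le_add_of_nonneg_right (smul_nonneg hδ0.le huu)
  have h5 : u * x * u ≤ u * X * u := by
    have := star_left_conjugate_le_conjugate hX u
    rwa [hu.star_eq] at this
  have h6 : 0 ≤ u * x * u := by
    have := star_left_conjugate_nonneg hx u
    rwa [hu.star_eq] at this
  have h7 : ‖u * x * u‖ ≤ 1 := (CStarAlgebra.norm_le_one_iff_of_nonneg _ h6).2 (h5.trans h4)
  have h8 : ‖star (u * r) * (u * r)‖ ≤ 1 := by
    rw [CStarRing.norm_star_mul_self, ← CStarRing.norm_self_mul_star, star_mul, hu.star_eq,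
      hr.star_eq]
    have : u * r * (r * u) = u * x * u := by rw [← hrr]; noncomm_ring
    rwa [this]
  refine ⟨u * r, ?_⟩
  have h9 : star (u * r) * X * (u * r) - x = -(δ • (star (u * r) * (u * r))) := by
    have h10 : u * X * u = 1 - δ • (u * u) := eq_sub_of_add_eq h3
    rw [star_mul, hu.star_eq, hr.star_eq]
    have e1 : r * u * X * (u * r) = r * (u * X * u) * r := by noncomm_ring
    have e2 : r * u * (u * r) = r * (u * u) * r := by noncomm_ring
    rw [e1, e2, h10, mul_sub, sub_mul, mul_one, hrr, mul_smul_comm, smul_mul_assoc]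
    abel
  rw [h9, norm_neg, norm_smul, Real.norm_of_nonneg hδ0.le]
  calc δ * ‖star (u * r) * (u * r)‖ ≤ δ * 1 := by gcongr
    _ < ε := by rw [mul_one, hδ]; linarith

end Crest.Agent.R110
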