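import Crest.Agent.R110.Her

/-! # Row 110, task R110-OS: the one-sided criterion.
`k = cut ρ (B - λY) ∈ I` (`cut_sub`), `t₀ = k z` with `t₀⋆t₀ ≈ cut η B` (`f1`), `ρ t₀⋆t₀ ≤ t₀⋆(B - λY)t₀ ≤ t₀⋆Bt₀`
(`cut_posreg`).  `her` for `t₀⋆t₀ ≤ ρ⁻¹ • t₀⋆Bt₀` gives `y`; `t = (√ρ)⁻¹ • t₀ y`; `λ t⋆Yt ≤ t⋆Bt`, `‖cut η B‖ ≤ ‖B‖`. -/

set_option autoImplicit false
set_option linter.unusedVariables false

namespace Crest.Agent.R110

universe u

variable {L : Type u} [CStarAlgebra L] [PartialOrder L] [StarOrderedRing L]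

theorem os {I : Set L} (hI : Ctx I) {B Y : L} (hB : B ∈ I) (hY : Y ∈ I) (hB0 : 0 ≤ B) (hY0 : 0 ≤ Y)
    {lam ρ η : ℝ} (hlam : 0 < lam) (hρ : 0 < ρ) (hη : 0 ≤ η)
    (h : Van (cut ρ (B - lam • Y)) (cut η B)) {ε : ℝ} (hε : 0 < ε) :
    ∃ t, ‖star t * B * t - cut η B‖ < ε ∧ ‖star t * Y * t‖ ≤ (‖B‖ + ε) / lam := by
  have hBs : IsSelfAdjoint B := hB0.isSelfAdjoint
  have hlY : 0 ≤ lam • Y := smul_nonneg hlam.le hY0
  have hDs : IsSelfAdjoint (B - lam • Y) := hBs.sub hlY.isSelfAdjoint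
  have hDI : B - lam • Y ∈ I := hI.sub hB (hI.smul lam hY)
  have hkI : cut ρ (B - lam • Y) ∈ I := (cut_sub hρ hDs).mem hI hDI
  obtain ⟨z, hz⟩ := f1 hI hkI (cut_nonneg _ _) (cut_nonneg _ _) h (half_pos hε)
  set t₀ := cut ρ (B - lam • Y) * z with ht₀
  have hsub : Sub t₀ (cut ρ (B - lam • Y)) := ⟨z, rfl⟩
  have hexp : ∀ t : L, star t * (B - lam • Y) * t = star t * B * t - lam • (star t * Y * t) := by
    intro t
    simp only [mul_sub, sub_mul, mul_smul_comm, smul_mul_assoc]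
  have hpos : ∀ t : L, 0 ≤ lam • (star t * Y * t) := fun t =>
    smul_nonneg hlam.le (star_left_conjugate_nonneg hY0 t)
  have h1 : ρ • (star t₀ * t₀) ≤ star t₀ * B * t₀ := by
    have := cut_posreg hDs hsub
    rw [hexp] at this
    exact this.trans (sub_le_self _ (hpos t₀))
  have h2 : star t₀ * t₀ ≤ ρ⁻¹ • (star t₀ * B * t₀) := by
    have := smul_le_smul_of_nonneg_left h1 (inv_nonneg.2 hρ.le)
    rwa [smul_smul, inv_mul_cancel₀ hρ.ne', one_smul] at this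
  obtain ⟨y, hy⟩ := her (star_mul_self_nonneg t₀) h2 (half_pos hε)
  set t := (Real.sqrt ρ)⁻¹ • (t₀ * y) with ht
  have hsubt : Sub t (cut ρ (B - lam • Y)) :=
    ⟨(Real.sqrt ρ)⁻¹ • (z * y), by rw [ht, ht₀, mul_smul_comm, mul_assoc]⟩
  have h3 : star t * B * t = star y * (ρ⁻¹ • (star t₀ * B * t₀)) * y := by
    have hs : (Real.sqrt ρ)⁻¹ * (Real.sqrt ρ)⁻¹ = ρ⁻¹ := by
      rw [← mul_inv, Real.mul_self_sqrt hρ.le]
    rw [ht, star_smul, star_trivial, star_mul]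
    simp only [mul_smul_comm, smul_mul_assoc, smul_smul, hs, mul_assoc]
  have h4 : ‖star t * B * t - cut η B‖ < ε := by
    rw [h3]
    calc _ = ‖(star y * (ρ⁻¹ • (star t₀ * B * t₀)) * y - star t₀ * t₀) + (star t₀ * t₀ - cut η B)‖ := by
          congr 1; abel
      _ ≤ _ := norm_add_le _ _
      _ < ε / 2 + ε / 2 := add_lt_add hy hz
      _ = ε := add_halves ε
  refine ⟨t, h4, ?_⟩
  have h5 : lam • (star t * Y * t) ≤ star t * B * t := by
    have := cut_posreg hDs hsubt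
    rw [hexp] at this
    exact sub_nonneg.1 ((smul_nonneg hρ.le (star_mul_self_nonneg t)).trans this)
  have h6 := CStarAlgebra.norm_le_norm_of_nonneg_of_le (hpos t) h5
  rw [norm_smul, Real.norm_eq_abs, abs_of_pos hlam] at h6
  have h7 : ‖star t * B * t‖ ≤ ‖B‖ + ε := by
    have h8 := norm_cut_le hη hBs
    have h9 : ‖star t * B * t‖ ≤ ‖star t * B * t - cut η B‖ + ‖cut η B‖ := by
      simpa using norm_add_le (star t * B * t - cut η B) (cut η B)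
    linarith
  rw [le_div_iff₀ hlam]
  linarith

end Crest.Agent.R110
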