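import Crest.Agent.R110.Build
import Crest.Agent.R110.Est
import Crest.Agent.R110.OS

/-! # Row 110, task R110-Layer.
`lam = (‖B‖+ε+1)/ε²`, `ρ = η/16`, `M = ‖x‖+2` (`‖v i‖² ≤ ‖x‖+1`), `n` with `2 (lam/n)(‖c‖M+1)² < η/8`, `δ = 1/(nM)`,
`layer_build` with `μ = 4 lam` and accuracy `min ε 1`; `s₀ = (√n)⁻¹ • ∑_{i<n} v i = a * s`, `s₀⋆s₀ - x = n⁻¹ ∑ ((v i)⋆ v i - x)`,
`Y = c⋆ s₀ s₀⋆ c`, `B - lam • Y = xm B c (lam/n) v n`; `layer_est`, `os`, `‖s₀⋆ c t‖² = ‖t⋆Yt‖`. -/

set_option autoImplicit false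
set_option linter.unusedVariables false

namespace Crest.Agent.R110

universe u

variable {L : Type u} [CStarAlgebra L] [PartialOrder L] [StarOrderedRing L]

theorem layer {I : Set L} (hI : Ctx I) {a B x : L} (ha : a ∈ I) (ha0 : 0 ≤ a)
    (hB : B ∈ I) (hB0 : 0 ≤ B) (hx : 0 ≤ x) {σ η : ℝ} (hσ : 0 < σ) (hη : 0 < η)
    (hxa : Van (cut (2 * σ) (a * a)) x) (hH : HypL I a B σ η) (c : L) {ε : ℝ} (hε : 0 < ε) :
    ∃ s t : L, ‖star (a * s) * (a * s) - x‖ < ε ∧ ‖star t * B * t - cut η B‖ < ε ∧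
      ‖star (a * s) * c * t‖ < ε := by
  classical
  set lam : ℝ := (‖B‖ + ε + 1) / ε ^ 2 with hlam_def
  have hlam : 0 < lam := by positivity
  set M : ℝ := ‖x‖ + 2 with hM_def
  have hM : 0 < M := by positivity
  obtain ⟨n, hn⟩ := exists_nat_gt (16 * lam * (‖c‖ * M + 1) ^ 2 / η)
  have hpos : 0 < 16 * lam * (‖c‖ * M + 1) ^ 2 / η := by positivity
  have hnR : (0 : ℝ) < n := hpos.trans hn
  have hn0 : 0 < n := by exact_mod_cast hnR
  have hε1 : 0 < min ε 1 := lt_min hε one_pos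
  obtain ⟨v, k, hv, horth, hk, hrel⟩ := layer_build hI c ha ha0 hB hB0 hx (μ := 4 * lam)
    (δ := 1 / (n * M)) hσ hη hε1 (by positivity) hxa hH n
  have hvM : ∀ i < n, ‖v i‖ ≤ M := by
    intro i hi
    have h1 := (hv i hi).2
    have h2 : ‖star (v i) * v i‖ ≤ ‖x‖ + 1 := by
      have h3 : ‖star (v i) * v i‖ ≤ ‖star (v i) * v i - x‖ + ‖x‖ := by
        simpa using norm_add_le (star (v i) * v i - x) x
      have h4 := min_le_right ε 1
      linarith
    rw [CStarRing.norm_star_mul_self] at h2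
    have h5 := norm_nonneg (v i)
    have h6 := norm_nonneg x
    nlinarith
  have hsmall : 2 * (lam / n) * (‖c‖ * M + n * M * (1 / (n * M))) ^ 2 + η / 16 < η / 4 := by
    have e : (n : ℝ) * M * (1 / (n * M)) = 1 := by field_simp
    rw [e]
    rw [div_lt_iff₀ hη] at hn
    have h7 : 2 * (lam / n) * (‖c‖ * M + 1) ^ 2 < η / 8 := by
      have e2 : 2 * (lam / n) * (‖c‖ * M + 1) ^ 2 = (2 * lam * (‖c‖ * M + 1) ^ 2) / n := by ring
      rw [e2, div_lt_iff₀ hnR]
      linarith
    linarith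
  have hvan := layer_est (B := B) (c := c) hB0 hn0 hη hlam (ρ := η / 16) (δ := 1 / (n * M)) (M := M)
    (by positivity) (by positivity) hM.le v k hvM hk hrel hsmall
  have hz : ∀ i, ∃ z : L, i < n → v i = a * z := by
    intro i
    by_cases hi : i < n
    · obtain ⟨z, hz⟩ := (hv i hi).1
      exact ⟨z, fun _ => hz⟩
    · exact ⟨0, fun h => absurd h hi⟩
  choose z hz using hz
  set S : L := ∑ i ∈ Finset.range n, v i with hS
  set r : ℝ := (Real.sqrt n)⁻¹ with hr
  have hrr : r * r = (n : ℝ)⁻¹ := by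
    rw [hr, ← mul_inv, Real.mul_self_sqrt hnR.le]
  set s : L := r • ∑ i ∈ Finset.range n, z i with hs
  have has : a * s = r • S := by
    rw [hs, mul_smul_comm, Finset.mul_sum, hS]
    congr 1
    exact Finset.sum_congr rfl fun i hi => (hz i (Finset.mem_range.1 hi)).symm
  have hSS : star S * S = ∑ i ∈ Finset.range n, star (v i) * v i := by
    rw [hS, star_sum, Finset.sum_mul]
    refine Finset.sum_congr rfl fun i hi => ?_
    rw [Finset.mul_sum, Finset.sum_eq_single i]
    · intro j hj hji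
      exact horth i (Finset.mem_range.1 hi) j (Finset.mem_range.1 hj) (Ne.symm hji)
    · intro h
      exact absurd hi h
  have hstar : star (a * s) = r • star S := by
    rw [has, star_smul, star_trivial]
  have h1 : star (a * s) * (a * s) - x =
      (n : ℝ)⁻¹ • ∑ i ∈ Finset.range n, (star (v i) * v i - x) := by
    rw [hstar, has, smul_mul_smul_comm, hrr, hSS, Finset.sum_sub_distrib, Finset.sum_const,
      Finset.card_range, smul_sub, ← Nat.cast_smul_eq_nsmul ℝ, smul_smul, inv_mul_cancel₀ hnR.ne',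
      one_smul]
  set Y : L := star c * ((a * s) * star (a * s)) * c with hY
  have hYI : Y ∈ I :=
    hI.mul_right _ _ (hI.mul_left _ _ (hI.mul_right _ _ (hI.mul_right _ _ ha)))
  have hYe : Y = star (star (a * s) * c) * (star (a * s) * c) := by
    rw [hY, star_mul (star (a * s)) c, star_star]
    simp only [mul_assoc]
  have hY0 : 0 ≤ Y := by
    rw [hYe]
    exact star_mul_self_nonneg _
  have hxm : B - lam • Y = xm B c (lam / n) v n := by
    rw [xm, ← hS, hY, hstar, has, smul_mul_smul_comm, hrr, mul_smul_comm, smul_mul_assoc, smul_smul,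
      div_eq_mul_inv]
  rw [← hxm] at hvan
  obtain ⟨t, ht1, ht2⟩ := os hI hB hYI hB0 hY0 hlam (by positivity : 0 < η / 16) hη.le hvan hε
  refine ⟨s, t, ?_, ht1, ?_⟩
  · rw [h1, norm_smul, Real.norm_of_nonneg (inv_nonneg.2 hnR.le)]
    have h2 : ‖∑ i ∈ Finset.range n, (star (v i) * v i - x)‖ < n * ε := by
      refine (norm_sum_le _ _).trans_lt ?_
      have h3 : ∑ i ∈ Finset.range n, ‖star (v i) * v i - x‖ < ∑ i ∈ Finset.range n, ε :=
        Finset.sum_lt_sum_of_nonempty (Finset.nonempty_range_iff.2 hn0.ne') fun i hi =>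
          ((hv i (Finset.mem_range.1 hi)).2).trans_le (min_le_left _ _)
      simpa using h3
    rw [inv_mul_lt_iff₀ hnR]
    exact h2
  · have h4 : star t * Y * t = star (star (a * s) * c * t) * (star (a * s) * c * t) := by
      rw [hYe, star_mul (star (a * s) * c) t]
      simp only [mul_assoc]
    rw [h4, CStarRing.norm_star_mul_self] at ht2
    have h5 : (‖B‖ + ε) / lam < ε ^ 2 := by
      rw [div_lt_iff₀ hlam, hlam_def]
      have e3 : ε ^ 2 * ((‖B‖ + ε + 1) / ε ^ 2) = ‖B‖ + ε + 1 := by field_simp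
      rw [e3]
      linarith
    have h6 := norm_nonneg (star (a * s) * c * t)
    nlinarith

end Crest.Agent.R110
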