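import Crest.Agent.R110.Cut
import Crest.Agent.R110.Idl

/-! # Row 110, task R110-Refine: lifting a solution from a quotient.
`lift_side`: `H = vv⋆ + (p j)(p j)⋆` (`Sub H p`), `p' = cut τ H`, `w` from `exists_unit_cut`, `e = H w = w H`,
`u = w v`, so `π₀ e = π₀ u * star (π₀ v)` as `π₀ j = 0`.  Covering: if `‖π p'‖ ≤ τ` then `‖πH‖ ≤ 2τ`, so
`‖πv‖² ≤ 2τ`, `‖π(pj)‖² ≤ 2τ` (`norm_map_mono`); `p⁴ = p² v⋆v + p (p j) + p² (p p - v⋆v - j)` gives, for `N = ‖πp‖`,
`N⁴ ≤ 2τN² + N√(2τ) + τN²`, impossible for `N > θ` when `τ` is small (depending on `θ` only).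
`refine`: `τ` = min of the two `τ`'s; `Sol` with accuracy `ε ≤ min τ 1` small; lift `s, t`;
`π₀ (star e' * c * e) = π₀ u' * π₀(v⋆ c w) * star (π₀ u)` (`e'`, `e` selfadjoint), `‖π₀ v‖² ≤ ‖p‖² + 1`. -/

set_option autoImplicit false
set_option linter.unusedVariables false

namespace Crest.Agent.R110

universe u

variable {L : Type u} [CStarAlgebra L] [PartialOrder L] [StarOrderedRing L]

theorem LiftX.arith {θ τ N A : ℝ} (hθ : 0 < θ) (hτ : 0 < τ) (h1 : τ ≤ θ ^ 2 / 6) (h2 : τ ≤ θ ^ 6 / 8)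
    (hN : 0 ≤ N) (hA : 0 ≤ A) (hA2 : A * A ≤ 2 * τ)
    (h : (N * N) * (N * N) ≤ (N * N) * (2 * τ) + N * A + (N * N) * τ) : N ≤ θ := by
  by_contra hlt
  push Not at hlt
  have hN0 : 0 < N := hθ.trans hlt
  have h3 : N * N * N ≤ 3 * τ * N + A := by
    have : N * (N * N * N) ≤ N * (3 * τ * N + A) := by linarith only [h]
    exact le_of_mul_le_mul_left this hN0
  have hA3 : A ≤ θ ^ 3 / 2 := by
    apply abs_le_of_sq_le_sq' _ (by positivity) |>.2
    nlinarith only [hA2, h2]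
  have hsq : θ ^ 2 < N ^ 2 := pow_lt_pow_left₀ hlt hθ.le two_ne_zero
  have hcu : θ ^ 3 < N ^ 3 := pow_lt_pow_left₀ hlt hθ.le three_ne_zero
  have h4 : 3 * τ * N ≤ N ^ 2 / 2 * N := mul_le_mul_of_nonneg_right (by linarith only [h1, hsq]) hN
  nlinarith only [h3, hA3, hcu, h4]

theorem lift_side {p gp : L} (hp : 0 ≤ p) (hc : Cov p gp) :
    ∃ τ₀ : ℝ, 0 < τ₀ ∧ ∀ τ, 0 < τ → τ ≤ τ₀ → ∀ v j : L, Sub v p → ‖p * p - star v * v - j‖ ≤ τ →
      ∃ p' e w : L, 0 ≤ p' ∧ Sub p' p ∧ Cov p' gp ∧ e * p' = p' ∧ IsSelfAdjoint e ∧ ‖w‖ ≤ 1 / τ ∧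
        ∀ (Q : Type u) [CStarAlgebra Q] (π : L →⋆ₐ[ℂ] Q), π j = 0 → π e = π w * π v * star (π v) := by
  obtain ⟨θ, hθ, hc⟩ := hc
  refine ⟨min (θ ^ 2 / 6) (θ ^ 6 / 8), lt_min (by positivity) (by positivity), ?_⟩
  intro τ hτ hτ0 v j hv hj
  have hτ1 : τ ≤ θ ^ 2 / 6 := hτ0.trans (min_le_left _ _)
  have hτ2 : τ ≤ θ ^ 6 / 8 := hτ0.trans (min_le_right _ _)
  have hps : IsSelfAdjoint p := IsSelfAdjoint.of_nonneg hp
  have h1 : 0 ≤ v * star v := mul_star_self_nonneg v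
  have h2 : 0 ≤ (p * j) * star (p * j) := mul_star_self_nonneg _
  have hH0 : 0 ≤ v * star v + (p * j) * star (p * j) := add_nonneg h1 h2
  have hHs : IsSelfAdjoint (v * star v + (p * j) * star (p * j)) := IsSelfAdjoint.of_nonneg hH0
  have hHp : Sub (v * star v + (p * j) * star (p * j)) p := by
    obtain ⟨z, hz⟩ := hv
    refine ⟨z * star v + j * star (p * j), ?_⟩
    rw [mul_add, ← mul_assoc, ← mul_assoc, ← hz]
  obtain ⟨w, hw, hwn, hwc, hwu⟩ := exists_unit_cut hτ hHs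
  refine ⟨cut τ (v * star v + (p * j) * star (p * j)), (v * star v + (p * j) * star (p * j)) * w, w,
    cut_nonneg _ _, (cut_sub hτ hHs).trans hHp, ⟨τ, hτ, ?_⟩, hwu, ?_, hwn, ?_⟩
  · intro Q _ π hπ
    apply hc Q π
    have hH : ‖π (v * star v + (p * j) * star (p * j))‖ ≤ 2 * τ := by
      have := norm_map_le_cut π hτ.le hH0
      linarith only [this, hπ]
    have hv2 : ‖π v‖ * ‖π v‖ ≤ 2 * τ := by
      have := norm_map_mono π h1 (le_add_of_nonneg_right h2)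
      have h3 : ‖π (v * star v)‖ = ‖π v‖ * ‖π v‖ := by
        rw [map_mul, map_star, CStarRing.norm_self_mul_star]
      linarith only [this, h3, hH]
    have hA2 : ‖π (p * j)‖ * ‖π (p * j)‖ ≤ 2 * τ := by
      have := norm_map_mono π h2 (le_add_of_nonneg_left h1)
      have h3 : ‖π ((p * j) * star (p * j))‖ = ‖π (p * j)‖ * ‖π (p * j)‖ := by
        rw [map_mul, map_star, CStarRing.norm_self_mul_star]
      linarith only [this, h3, hH]
    have hr : ‖π (p * p - star v * v - j)‖ ≤ τ :=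
      (NonUnitalStarAlgHom.norm_apply_le π _).trans hj
    have hPs : star (π p) = π p := by rw [← map_star, hps.star_eq]
    have hN2 : ‖π p * π p‖ = ‖π p‖ * ‖π p‖ := by
      have := CStarRing.norm_star_mul_self (x := π p)
      rwa [hPs] at this
    have hN4 : ‖(π p * π p) * (π p * π p)‖ = (‖π p‖ * ‖π p‖) * (‖π p‖ * ‖π p‖) := by
      have := CStarRing.norm_star_mul_self (x := π p * π p)
      rwa [star_mul, hPs, hN2] at this
    have hid : (π p * π p) * (π p * π p) = (π p * π p) * (star (π v) * π v) + π p * π (p * j) +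
        (π p * π p) * π (p * p - star v * v - j) := by
      simp only [map_sub, map_mul, map_star]
      noncomm_ring
    have hb1 : ‖(π p * π p) * (star (π v) * π v)‖ ≤ (‖π p‖ * ‖π p‖) * (2 * τ) := by
      refine (norm_mul_le _ _).trans ?_
      rw [hN2, CStarRing.norm_star_mul_self]
      exact mul_le_mul_of_nonneg_left hv2 (by positivity)
    have hb2 : ‖π p * π (p * j)‖ ≤ ‖π p‖ * ‖π (p * j)‖ := norm_mul_le _ _
    have hb3 : ‖(π p * π p) * π (p * p - star v * v - j)‖ ≤ (‖π p‖ * ‖π p‖) * τ := by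
      refine (norm_mul_le _ _).trans ?_
      rw [hN2]
      exact mul_le_mul_of_nonneg_left hr (by positivity)
    have hmain : (‖π p‖ * ‖π p‖) * (‖π p‖ * ‖π p‖) ≤ (‖π p‖ * ‖π p‖) * (2 * τ) +
        ‖π p‖ * ‖π (p * j)‖ + (‖π p‖ * ‖π p‖) * τ := by
      rw [← hN4, hid]
      exact (norm_add_le _ _).trans (add_le_add ((norm_add_le _ _).trans (add_le_add hb1 hb2)) hb3)
    exact LiftX.arith hθ hτ hτ1 hτ2 (norm_nonneg _) (norm_nonneg _) hA2 hmain
  · show star _ = _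
    rw [star_mul, hw.star_eq, hHs.star_eq, hwc]
  · intro Q _ π hπ
    rw [← hwc]
    simp only [map_mul, map_add, map_star, hπ, mul_zero, zero_mul, add_zero, mul_assoc]

end Crest.Agent.R110
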