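import Crest.Agent.R110.Halve
import Crest.Agent.R110.Her

/-! # Row 110, task R110-Proj: a full projection in the compact case.
`θ` from `Cov p p`; `p₁ = cut θ p`; `E = cfc φ p`, `φ t = min 1 (max 0 (2t/θ - 1))` (so `E p₁ = p₁`), `E'' = cfc φ' p`,
`φ' t = min 1 (max 0 (4t/θ - 1))` (`E'' E = E`), `R = cfc (fun t => √(1 - φ t)) p` (`R R = 1 - E`, `R p₁ = 0`, `Sub (1 - R) p`
by `cfc_fac`).  `halve p₁` with `δ`: need `Van d p`, `Van d' p`; so use instead `p₁ = cut (θ/2) p` with the functions rescaled and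
`δ = θ²/4`: `π d = 0` gives `‖π p₁‖ ≤ θ/2`, `‖π p‖ ≤ θ`, `π p = 0`.  `f1`: `y₀ = d z` with `‖y₀⋆y₀ - E‖ < 1/2` (`Van d E`), `y = y₀ E''`,
`‖y⋆y - E‖ < 1/2`, `Sub y p`, `Sub y⋆ p`.  `s = y + R`: `s⋆s = 1 + (y⋆y - E)` is invertible, `G = (s⋆s)⁻¹` selfadjoint,
`q = 1 - s G s⋆` is a projection, `s⋆ d' = 0` so `q d' = d'` and `Van q d'`.  `Sub q p`: `s = 1 + n`, `s⋆ = 1 + n'` with `Sub n p`, `Sub n' p`,
`1 - G = (y⋆y - E) G`, and `q = (1 - G) - n' + (1 - G) n' - n G s⋆`. -/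

set_option autoImplicit false
set_option linter.unusedVariables false

namespace Crest.Agent.R110

universe u

variable {L : Type u} [CStarAlgebra L] [PartialOrder L] [StarOrderedRing L]

namespace ProjX

theorem sub_sub {a b p : L} (ha : Sub a p) (hb : Sub b p) : Sub (a - b) p := by
  obtain ⟨z, rfl⟩ := ha
  obtain ⟨w, rfl⟩ := hb
  exact ⟨z - w, (mul_sub _ _ _).symm⟩

theorem sub_add {a b p : L} (ha : Sub a p) (hb : Sub b p) : Sub (a + b) p := by
  obtain ⟨z, rfl⟩ := ha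
  obtain ⟨w, rfl⟩ := hb
  exact ⟨z + w, (mul_add _ _ _).symm⟩

/-- a ramp from `a` to `2 a` -/
noncomputable def ramp (a t : ℝ) : ℝ := min 1 (max 0 (t / a - 1))

theorem ramp_cont (a : ℝ) : Continuous (ramp a) := by
  unfold ramp
  fun_prop

theorem ramp_nonneg (a t : ℝ) : 0 ≤ ramp a t := le_min zero_le_one (le_max_left _ _)

theorem ramp_le (a t : ℝ) : ramp a t ≤ 1 := min_le_left _ _

theorem ramp_zero {a t : ℝ} (ha : 0 < a) (h : t ≤ a) : ramp a t = 0 := by
  have : t / a - 1 ≤ 0 := by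
    rw [sub_nonpos, div_le_one ha]
    exact h
  rw [ramp, max_eq_left this, min_eq_right zero_le_one]

theorem ramp_one {a t : ℝ} (ha : 0 < a) (h : 2 * a ≤ t) : ramp a t = 1 := by
  have : 1 ≤ t / a - 1 := by
    rw [le_sub_iff_add_le, le_div_iff₀ ha]
    linarith
  rw [ramp, min_eq_left (this.trans (le_max_right _ _))]

theorem funcs {p : L} (hp : IsSelfAdjoint p) {τ : ℝ} (hτ : 0 < τ) :
    ∃ E F R : L, 0 ≤ E ∧ IsSelfAdjoint F ∧ IsSelfAdjoint R ∧ ‖F‖ ≤ 1 ∧ F * E = E ∧ R * R = 1 - E ∧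
      R * cut τ p = 0 ∧ Sub E p ∧ Sub F p ∧ Sub (1 - R) p := by
  have c1 := ramp_cont (τ / 2)
  have c2 := ramp_cont (τ / 4)
  have c3 : Continuous fun t => √(1 - ramp (τ / 2) t) := by fun_prop
  refine ⟨cfc (ramp (τ / 2)) p, cfc (ramp (τ / 4)) p, cfc (fun t => √(1 - ramp (τ / 2) t)) p,
    cfc_nonneg fun t _ => ramp_nonneg _ _, cfc_predicate _ _, cfc_predicate _ _,
    norm_cfc_le zero_le_one fun t _ => ?_, ?_, ?_, ?_, ?_, ?_, ?_⟩
  · rw [Real.norm_eq_abs, abs_of_nonneg (ramp_nonneg _ _)]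
    exact ramp_le _ _
  · rw [← cfc_mul _ _ p]
    refine cfc_congr fun t _ => ?_
    rcases le_total t (τ / 2) with h | h
    · simp only [ramp_zero (half_pos hτ) h, mul_zero]
    · simp only [ramp_one (a := τ / 4) (by positivity) (by linarith : 2 * (τ / 4) ≤ t), one_mul]
  · rw [← cfc_mul _ _ p, ← cfc_one ℝ p, ← cfc_sub _ _ p]
    refine cfc_congr fun t _ => ?_
    exact Real.mul_self_sqrt (sub_nonneg.2 (ramp_le _ _))
  · rw [cut, ← cfc_mul _ _ p, ← cfc_zero ℝ p]
    refine cfc_congr fun t _ => ?_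
    rcases le_total t τ with h | h
    · simp only [max_eq_right (sub_nonpos.2 h), mul_zero, Pi.zero_apply]
    · simp only [ramp_one (a := τ / 2) (by positivity) (by linarith : 2 * (τ / 2) ≤ t), sub_self,
        Real.sqrt_zero, zero_mul, Pi.zero_apply]
  · obtain ⟨w, hw, -⟩ := cfc_fac _ c1 (half_pos hτ)
      (fun t ht => ramp_zero (half_pos hτ) (le_of_abs_le ht.le)) hp
    exact ⟨w, hw⟩
  · obtain ⟨w, hw, -⟩ := cfc_fac _ c2 (τ := τ / 4) (by positivity)
      (fun t ht => ramp_zero (by positivity) (le_of_abs_le ht.le)) hp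
    exact ⟨w, hw⟩
  · obtain ⟨w, hw, -⟩ := cfc_fac (fun t => 1 - √(1 - ramp (τ / 2) t)) (by fun_prop) (half_pos hτ)
      (fun t ht => by simp [ramp_zero (half_pos hτ) (le_of_abs_le ht.le)]) hp
    refine ⟨w, ?_⟩
    rw [← hw, cfc_sub _ _ p, cfc_const_one ℝ p]

end ProjX

open ProjX in
theorem exists_proj {I : Set L} (hI : Ctx I) {p : L} (hp : p ∈ I) (hp0 : 0 ≤ p) (hc : Cov p p) :
    ∃ q : L, IsSelfAdjoint q ∧ q * q = q ∧ Sub q p ∧ Van q p := by
  obtain ⟨θ, hθ, hcov⟩ := hc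
  have hps : IsSelfAdjoint p := hp0.isSelfAdjoint
  have hτ : 0 < θ / 2 := half_pos hθ
  have h1 : Sub (cut (θ / 2) p) p := cut_sub hτ hps
  obtain ⟨d, d', d0, d0', hd, hd', hdd, hn⟩ :=
    halve hI (h1.mem hI hp) (cut_nonneg _ _) (δ := (θ / 2) ^ 2) (by positivity)
  have key : ∀ (Q : Type u) [CStarAlgebra Q] (π : L →⋆ₐ[ℂ] Q) (e : L),
      |‖π e‖ ^ 2 - ‖π (cut (θ / 2) p)‖ ^ 2| ≤ (θ / 2) ^ 2 → π e = 0 → π p = 0 := by
    intro Q _ π e h he
    rw [he, norm_zero] at h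
    have h2 : ‖π (cut (θ / 2) p)‖ ≤ θ / 2 := by
      refine (pow_le_pow_iff_left₀ (norm_nonneg _) hτ.le two_ne_zero).1 ?_
      linarith [(abs_le.1 h).1]
    exact hcov Q π (by linarith [norm_map_le_cut π hτ.le hp0])
  have vd : Van d p := fun Q _ π h => key Q π d (hn Q π).1 h
  have vd' : Van d' p := fun Q _ π h => key Q π d' (hn Q π).2 h
  obtain ⟨E, F, R, E0, hF, hR, nF, hFE, hRR, hRp, sE, sF, sR⟩ := funcs hps hτ
  obtain ⟨z, hz⟩ := f1 hI ((hd.trans h1).mem hI hp) d0 E0 (vd.trans sE.van) one_half_pos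
  have hEF : E * F = E := by
    simpa only [star_mul, hF.star_eq, E0.isSelfAdjoint.star_eq] using congrArg star hFE
  have hRd : R * d = 0 := by
    obtain ⟨w, rfl⟩ := hd
    rw [← mul_assoc, hRp, zero_mul]
  have hRd' : R * d' = 0 := by
    obtain ⟨w, rfl⟩ := hd'
    rw [← mul_assoc, hRp, zero_mul]
  obtain ⟨y, hy⟩ : ∃ y, y = d * z * F := ⟨_, rfl⟩
  have hys : star y = F * star (d * z) := by rw [hy, star_mul, hF.star_eq]
  have sy : Sub y p := hy ▸ (((hd.trans h1).mul z).mul F)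
  have sys : Sub (star y) p := hys ▸ sF.mul _
  have hRy : R * y = 0 := by rw [hy, ← mul_assoc, ← mul_assoc, hRd, zero_mul, zero_mul]
  have hyR : star y * R = 0 := by
    simpa only [star_mul, hR.star_eq, star_zero] using congrArg star hRy
  have hyd : star y * d' = 0 := by
    rw [hys, star_mul, d0.isSelfAdjoint.star_eq, mul_assoc, mul_assoc, hdd, mul_zero, mul_zero]
  have hnorm : ‖E - star y * y‖ < 1 := by
    have e : E - star y * y = -(F * (star (d * z) * (d * z) - E) * F) := by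
      rw [hys, hy, mul_sub, sub_mul, hFE, hEF, neg_sub]
      simp only [mul_assoc]
    rw [e, norm_neg]
    calc _ ≤ ‖F‖ * ‖star (d * z) * (d * z) - E‖ * ‖F‖ :=
          (norm_mul_le _ _).trans (mul_le_mul_of_nonneg_right (norm_mul_le _ _) (norm_nonneg _))
      _ ≤ 1 * (1 / 2) * 1 := by gcongr
      _ < 1 := by norm_num
  obtain ⟨s, hs⟩ : ∃ s, s = y + R := ⟨_, rfl⟩
  have hss : star s = star y + R := by rw [hs, star_add, hR.star_eq]
  have hA : star s * s = 1 - (E - star y * y) := by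
    rw [hss, hs, add_mul, mul_add, mul_add, hyR, hRy, hRR]
    abel
  obtain ⟨U, hU⟩ := isUnit_one_sub_of_norm_lt_one hnorm
  rw [← hA] at hU
  obtain ⟨G, hG1, hG2⟩ : ∃ G : L, star s * s * G = 1 ∧ G * (star s * s) = 1 :=
    ⟨↑U⁻¹, by rw [← hU, U.mul_inv], by rw [← hU, U.inv_mul]⟩
  have hGs : star G = G := by
    have h2 : star G * (star s * s) = 1 := by
      simpa only [star_mul, star_star, star_one] using congrArg star hG1
    rw [← mul_one (star G), ← hG1, ← mul_assoc, h2, one_mul]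
  refine ⟨1 - s * G * star s, ?_, ?_, ?_, Van.trans ?_ vd'⟩
  · rw [IsSelfAdjoint, star_sub, star_one, star_mul, star_mul, star_star, hGs, mul_assoc]
  · have e : s * G * star s * (s * G * star s) = s * G * star s := by
      calc s * G * star s * (s * G * star s) = s * (G * (star s * s)) * G * star s := by
            simp only [mul_assoc]
        _ = _ := by rw [hG2, mul_one]
    rw [sub_mul, mul_sub, mul_sub, e]
    simp
  · have s1 : Sub (1 - G) p := by
      have e : 1 - G = (star y * y - E) * G := by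
        rw [← hG1, hA]
        noncomm_ring
      rw [e]
      exact (sub_sub (sys.mul y) sE).mul G
    have s2 : Sub (y - (1 - R)) p := sub_sub sy sR
    have s3 : Sub (star y - (1 - R)) p := sub_sub sys sR
    have e : 1 - s * G * star s = (1 - G) - (star y - (1 - R)) + (1 - G) * (star y - (1 - R)) -
        (y - (1 - R)) * (G * star s) := by
      rw [hss, hs]
      noncomm_ring
    rw [e]
    exact sub_sub (sub_add (sub_sub s1 s3) (s1.mul _)) (s2.mul _)
  · refine Sub.van ⟨d', ?_⟩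
    rw [sub_mul, one_mul, mul_assoc, hss, add_mul, hyd, hRd', add_zero, mul_zero, sub_zero]

end Crest.Agent.R110
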