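import Crest.Agent.R110.PCs
import Crest.Agent.R110.Proj
import Crest.Agent.R110.OS

/-! # Row 110, task R110-PC: the compact case.
`pc_side`: `d = w w⋆`, `halve d` with `δ = θ²/8` into `d₁, d₂`; `k = cut (θ/2) d₁`, `h₁ = cut (θ/4) k`, `r = k w'` the unit of
`exists_unit_cut (θ/4) k` (selfadjoint, `r h₁ = h₁`, `q r = r`, `q h₁ = h₁`), `e = (q - r)(q - r) + d₂`.
`h₁ e = 0`; `π e = 0` gives `π d₂ = 0` (`norm_map_mono`), `‖πd₁‖² ≤ 2δ = θ²/4`, `π k = 0`, `π r = 0`, `π q = 0`;
`π h₁ = 0` gives `‖πd₁‖ ≤ 3θ/4`, `‖πd‖² ≤ 9θ²/16 + θ²/8 ≤ θ²`.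
`pc`: `q` from `exists_proj`, `B = k k`, `c' = c k`, `η = ε/2`, `ρ = η/4`, `M = ‖p‖²+1`, `lam = (‖B‖+ε+1)/ε²`,
`g = cut (η/2) B`, `w = q c' g`, `θ = (η/4)(η/2)²/(lam M)`; `v = e z` with `‖v⋆v - p p‖ < min ε 1` (`f1`), `v = q v`, `vv⋆ ≤ M q`,
`Y = c'⋆ v v⋆ c'`.  Hypothesis of `os`: in `π` with `B ≤ lam Y + ρ`: `h₁ = w y`, `ξ = g y`, `v⋆ c' ξ = v⋆ h₁ = 0`, so
`(η/2) ξ⋆ξ ≤ ξ⋆Bξ ≤ ρ ξ⋆ξ` (`cut_posreg`), `πξ = 0`, `πh₁ = 0`, `‖π(ww⋆)‖ ≤ θ`; `(η/2-ρ) g g ≤ g(B-ρ)g ≤ lam M w⋆w`, so
`‖π g‖ ≤ η/2` and `cut η (πB) = 0`. -/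

set_option autoImplicit false
set_option linter.unusedVariables false

namespace Crest.Agent.R110

universe u

variable {L : Type u} [CStarAlgebra L] [PartialOrder L] [StarOrderedRing L]

namespace PCX

theorem key {b y x : L} {τ ρ lam : ℝ} (hb : IsSelfAdjoint b) (hle : b - lam • y ≤ ρ • (1 : L))
    (hx : Sub x (cut τ b)) (hτ : ρ ≤ τ) (hlam : 0 ≤ lam) :
    (τ - ρ) * ‖x‖ ^ 2 ≤ lam * ‖star x * y * x‖ := by
  have h1 := cut_posreg hb hx
  have h2 := star_left_conjugate_le_conjugate hle x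
  have e1 : star x * (b - lam • y) * x = star x * b * x - lam • (star x * y * x) := by
    simp only [mul_sub, sub_mul, mul_smul_comm, smul_mul_assoc]
  have e2 : star x * (ρ • (1 : L)) * x = ρ • (star x * x) := by
    simp only [mul_smul_comm, smul_mul_assoc, mul_one]
  rw [e1, e2] at h2
  have h3 : (τ - ρ) • (star x * x) ≤ lam • (star x * y * x) := by
    rw [sub_smul, sub_le_iff_le_add]
    refine h1.trans ?_
    rw [sub_le_iff_le_add] at h2
    rwa [add_comm] at h2
  have h4 : (0 : L) ≤ (τ - ρ) • (star x * x) :=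
    smul_nonneg (sub_nonneg.2 hτ) (star_mul_self_nonneg x)
  have h5 := CStarAlgebra.norm_le_norm_of_nonneg_of_le h4 h3
  rwa [norm_smul, norm_smul, Real.norm_of_nonneg (sub_nonneg.2 hτ), Real.norm_of_nonneg hlam,
    CStarRing.norm_star_mul_self, ← sq] at h5

theorem vv_le {q v : L} (hqs : IsSelfAdjoint q) (hqq : q * q = q) (hv : q * v = v) {M : ℝ}
    (hM : ‖star v * v‖ ≤ M) : v * star v ≤ M • q := by
  have h0 : IsSelfAdjoint (v * star v) := IsSelfAdjoint.mul_star_self v
  have h1 : v * star v ≤ M • (1 : L) := by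
    have := h0.le_algebraMap_norm_self
    rw [Algebra.algebraMap_eq_smul_one] at this
    refine this.trans (smul_le_smul_of_nonneg_right ?_ zero_le_one)
    rw [CStarRing.norm_self_mul_star, ← CStarRing.norm_star_mul_self]; exact hM
  have h2 := star_left_conjugate_le_conjugate h1 q
  have hv' : star v * q = star v := by
    have := congrArg star hv
    rwa [star_mul, hqs.star_eq] at this
  rw [hqs.star_eq] at h2
  have e1 : q * (v * star v) * q = v * star v := by
    rw [← mul_assoc, hv, mul_assoc, hv']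
  have e2 : q * (M • (1 : L)) * q = M • q := by
    simp only [mul_smul_comm, smul_mul_assoc, mul_one, hqq]
  rwa [e1, e2] at h2

theorem van_os {B c' q v h₁ : L} (hB : IsSelfAdjoint B) (hqs : IsSelfAdjoint q) (hqq : q * q = q)
    (hv : q * v = v) {M lam η : ℝ} (hM0 : 0 < M) (hM : ‖star v * v‖ ≤ M) (hlam : 0 < lam) (hη : 0 < η)
    (hh : Sub h₁ (q * c' * cut (η / 2) B)) (hvh : star v * h₁ = 0)
    (hθ : ∀ (Q : Type u) [CStarAlgebra Q] (π : L →⋆ₐ[ℂ] Q), π h₁ = 0 →
      ‖π ((q * c' * cut (η / 2) B) * star (q * c' * cut (η / 2) B))‖ ≤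
        (η / 4) * (η / 2) ^ 2 / (lam * M)) :
    Van (cut (η / 4) (B - lam • (star c' * (v * star v) * c'))) (cut η B) := by
  intro Q _ π h0
  letI := CStarAlgebra.spectralOrder Q
  haveI := CStarAlgebra.spectralOrderedRing Q
  set g := cut (η / 2) B with hg
  set Y := star c' * (v * star v) * c' with hY
  have hv' : star v * q = star v := by
    have := congrArg star hv
    rwa [star_mul, hqs.star_eq] at this
  have hY0 : (0 : L) ≤ Y := star_left_conjugate_nonneg (mul_star_self_nonneg v) c'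
  have hsa : IsSelfAdjoint (B - lam • Y) :=
    hB.sub ((IsSelfAdjoint.all lam).smul (IsSelfAdjoint.of_nonneg hY0))
  have hπB : IsSelfAdjoint (π B) := hB.map π
  rw [map_cut π _ hsa, cut_eq_zero_iff_le _ (hsa.map π)] at h0
  have hle : π B - lam • π Y ≤ (η / 4) • (1 : Q) := by
    have e : π (B - lam • Y) = π B - lam • π Y := by
      rw [map_sub, ← Complex.coe_smul, map_smul, Complex.coe_smul]
    rwa [e] at h0
  have hπg : π g = cut (η / 2) (π B) := map_cut π _ hB
  obtain ⟨y, hy⟩ := hh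
  have hξ : star v * c' * (g * y) = 0 := by
    rw [← hvh, hy, ← hv']; simp only [mul_assoc, hv', ← mul_assoc (star v) q]
  have hξY : star (g * y) * Y * (g * y) = 0 := by
    have : star (g * y) * Y * (g * y) = star (g * y) * star c' * v * (star v * c' * (g * y)) := by
      simp only [hY, mul_assoc]
    rw [this, hξ, mul_zero]
  have h1 := key hπB hle (x := π (g * y)) (τ := η / 2) ⟨π y, by rw [map_mul, hπg]⟩ (by linarith)
    hlam.le
  have e1 : star (π (g * y)) * π Y * π (g * y) = 0 := by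
    rw [← map_star, ← map_mul, ← map_mul, hξY, map_zero]
  rw [e1, norm_zero, mul_zero] at h1
  have h2 : π (g * y) = 0 := by
    have h3 : ‖π (g * y)‖ ^ 2 ≤ 0 := by
      by_contra hc
      push Not at hc
      have : 0 < (η / 2 - η / 4) * ‖π (g * y)‖ ^ 2 := mul_pos (by linarith) hc
      linarith
    have h4 : ‖π (g * y)‖ ^ 2 = 0 := le_antisymm h3 (sq_nonneg _)
    simpa using h4
  have h3 : π h₁ = 0 := by
    rw [hy, mul_assoc (q * c'), map_mul, h2, mul_zero]
  have h4 := hθ Q π h3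
  set w := q * c' * g with hw
  have h5 : ‖π (star w * w)‖ ≤ (η / 4) * (η / 2) ^ 2 / (lam * M) := by
    rw [map_mul, map_star, CStarRing.norm_star_mul_self]
    rwa [map_mul, map_star, CStarRing.norm_self_mul_star] at h4
  have h6 : star g * Y * g ≤ M • (star w * w) := by
    have h7 := star_left_conjugate_le_conjugate (vv_le hqs hqq hv hM) (c' * g)
    have e2 : star (c' * g) * (v * star v) * (c' * g) = star g * Y * g := by
      simp only [hY, star_mul, mul_assoc]
    have e3 : star (c' * g) * (M • q) * (c' * g) = M • (star w * w) := by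
      simp only [hw, star_mul, hqs.star_eq, mul_smul_comm, smul_mul_assoc, mul_assoc,
        ← mul_assoc q q, hqq]
    rwa [e2, e3] at h7
  have h7 := norm_map_mono π (star_left_conjugate_nonneg hY0 g) h6
  have e4 : π (M • (star w * w)) = M • π (star w * w) := by
    rw [← Complex.coe_smul, map_smul, Complex.coe_smul]
  rw [e4, norm_smul, Real.norm_of_nonneg hM0.le] at h7
  have h8 := key hπB hle (x := π g) (τ := η / 2) (by rw [hπg]; exact Sub.refl _) (by linarith)
    hlam.le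
  rw [← map_star, ← map_mul, ← map_mul] at h8
  have h9 : lam * ‖π (star g * Y * g)‖ ≤ (η / 4) * (η / 2) ^ 2 := by
    calc lam * ‖π (star g * Y * g)‖ ≤ lam * (M * ((η / 4) * (η / 2) ^ 2 / (lam * M))) :=
          mul_le_mul_of_nonneg_left (h7.trans (mul_le_mul_of_nonneg_left h5 hM0.le)) hlam.le
      _ = (η / 4) * (η / 2) ^ 2 := by field_simp
  have h10 : ‖π g‖ ^ 2 ≤ (η / 2) ^ 2 := by
    have : (η / 4) * ‖π g‖ ^ 2 ≤ (η / 4) * (η / 2) ^ 2 := by
      have e5 : η / 2 - η / 4 = η / 4 := by ring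
      rw [e5] at h8; linarith
    exact le_of_mul_le_mul_left this (by linarith)
  have h11 : ‖π g‖ ≤ η / 2 := (pow_le_pow_iff_left₀ (norm_nonneg _) (by linarith) two_ne_zero).1 h10
  rw [hπg] at h11
  have h12 := cut_eq_zero_of_norm_cut hπB h11
  rw [map_cut π _ hB, ← h12, add_halves]

end PCX

theorem pc {I : Set L} (hI : Ctx I) {p k : L} (hp : p ∈ I) (hk : k ∈ I) (hp0 : 0 ≤ p) (hk0 : 0 ≤ k)
    (hc : Cov p p) : Sol p k := by
  intro c ε hε
  obtain ⟨q, hqs, hqq, hqp, hvq⟩ := exists_proj hI hp hp0 hc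
  have hq : q ∈ I := hqp.mem hI hp
  have hks : IsSelfAdjoint k := IsSelfAdjoint.of_nonneg hk0
  have hps : IsSelfAdjoint p := IsSelfAdjoint.of_nonneg hp0
  have hB0 : (0 : L) ≤ k * k := by
    have := star_mul_self_nonneg k
    rwa [hks.star_eq] at this
  have hP0 : (0 : L) ≤ p * p := by
    have := star_mul_self_nonneg p
    rwa [hps.star_eq] at this
  have hBs : IsSelfAdjoint (k * k) := IsSelfAdjoint.of_nonneg hB0
  have hBI : k * k ∈ I := hI.mul_left k k hk
  set B := k * k with hB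
  set η := ε / 2 with hη
  have hη0 : 0 < η := half_pos hε
  set M := ‖p * p‖ + 1 with hM
  have hM0 : 0 < M := by positivity
  set lam := (‖B‖ + ε + 1) / ε ^ 2 with hlam
  have hlam0 : 0 < lam := by positivity
  have hθ : 0 < (η / 4) * (η / 2) ^ 2 / (lam * M) := by positivity
  obtain ⟨e, h₁, he0, heq, hve, hh, heh, hθ'⟩ := pc_side hI hq hqs hqq
    (w := q * (c * k) * cut (η / 2) B) (by simp only [← mul_assoc, hqq]) hθ
  have hvp : Van e (p * p) := fun Q _ π h => by rw [map_mul, hvq Q π (hve Q π h), zero_mul]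
  obtain ⟨z, hz⟩ := f1 hI (heq.mem hI hq) he0 hP0 hvp (lt_min hε one_pos)
  set v := e * z with hv
  have hvs : Sub v q := heq.mul z
  have hqv : q * v = v := by
    obtain ⟨u, hu⟩ := hvs
    rw [hu, ← mul_assoc, hqq]
  have hvM : ‖star v * v‖ ≤ M := by
    have h1 := norm_le_norm_add_norm_sub' (star v * v) (p * p)
    have h2 := hz.trans_le (min_le_right _ _)
    linarith
  have hvh : star v * h₁ = 0 := by rw [hv, star_mul, mul_assoc, heh, mul_zero]
  have hvI : v ∈ I := hvs.mem hI hq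
  have hYI : star (c * k) * (v * star v) * (c * k) ∈ I :=
    hI.mul_right _ _ (hI.mul_left _ _ (hI.mul_right _ _ hvI))
  have hY0 : (0 : L) ≤ star (c * k) * (v * star v) * (c * k) :=
    star_left_conjugate_nonneg (mul_star_self_nonneg v) _
  obtain ⟨t, ht1, ht2⟩ := os hI hBI hYI hB0 hY0 hlam0 (by positivity : 0 < η / 4) hη0.le
    (PCX.van_os hBs hqs hqq hqv hM0 hvM hlam0 hη0 hh hvh hθ') hη0
  obtain ⟨s, hs⟩ := hvs.trans hqp
  refine ⟨s, t, ?_, ?_, ?_⟩
  · rw [← hs]; exact hz.trans_le (min_le_left _ _)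
  · have e1 : star (k * t) * (k * t) = star t * B * t := by
      simp only [hB, star_mul, hks.star_eq, mul_assoc]
    rw [e1]
    have h1 := norm_sub_le_norm_sub_add_norm_sub (star t * B * t) (cut η B) B
    have h2 := norm_cut_sub hη0.le hB0
    linarith
  · rw [← hs]
    have e1 : star (star v * c * (k * t)) * (star v * c * (k * t)) =
        star t * (star (c * k) * (v * star v) * (c * k)) * t := by
      simp only [star_mul, star_star, mul_assoc]
    have h1 : ‖star v * c * (k * t)‖ ^ 2 ≤ (‖B‖ + η) / lam := by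
      rw [sq, ← CStarRing.norm_star_mul_self, e1]; exact ht2
    have h2 : (‖B‖ + η) / lam < ε ^ 2 := by
      rw [div_lt_iff₀ hlam0, hlam, mul_div_cancel₀ _ (by positivity)]
      linarith
    exact lt_of_pow_lt_pow_left₀ 2 hε.le (h1.trans_lt h2)

end Crest.Agent.R110
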