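import Crest.Agent.R110.Main0
import Crest.Agent.R110.Layer
import Crest.Agent.R110.PC

/-! # Row 110, task R110-Main.
`hb`: `layer` with `a := k`, `B := p p`, `x := cut (2σ) (k k)`, `c := c p`, `σ = ε/4`; `η ≤ ε/2` from `Van.lev` (`Van (p p) (k k)`) so that
`Van (cut η B) (cut σ (k k))`.  `HypL`: in `Q` (spectral order, `Ctx.map`) `Cov (π p') (π (cut η B))`, `Van.map`, and the last hypothesis give
`Cov (π p') (π p')`; apply `pc`.  `main`: `layer` with `B := b b`, `HypL` from `hb` in `Q` (`Cov.van`, `Sol.symm`). -/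

set_option autoImplicit false
set_option linter.unusedVariables false

namespace Crest.Agent.R110

universe u

variable {L : Type u} [CStarAlgebra L] [PartialOrder L] [StarOrderedRing L]

namespace MainX

theorem prep {I : Set L} (hI : Ctx I) {a : L} (ha : a ∈ I) (ha0 : 0 ≤ a) {τ : ℝ} (hτ : 0 < τ) :
    ∃ a₁ ∈ I, ∃ h : L, 0 ≤ a₁ ∧ IsSelfAdjoint h ∧ a₁ * a₁ = cut τ a ∧
      a₁ * h * a * h * a₁ = a₁ * a₁ := by
  have hs := ha0.isSelfAdjoint
  obtain ⟨f, hfd⟩ : ∃ f : ℝ → ℝ, f = fun t => Real.sqrt (max (t - τ) 0) := ⟨_, rfl⟩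
  obtain ⟨g, hgd⟩ : ∃ g : ℝ → ℝ, g = fun t => (Real.sqrt (max t τ))⁻¹ := ⟨_, rfl⟩
  have hf : Continuous f := by rw [hfd]; fun_prop
  have hpos : ∀ t : ℝ, 0 < Real.sqrt (max t τ) := fun t =>
    Real.sqrt_pos.2 (lt_of_lt_of_le hτ (le_max_right _ _))
  have hg : Continuous g := by
    rw [hgd]; exact Continuous.inv₀ (by fun_prop) fun t => (hpos t).ne'
  have hz : ∀ t, t ≤ τ → f t = 0 := fun t ht => by
    rw [hfd]; simp only []; rw [max_eq_right (by linarith), Real.sqrt_zero]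
  obtain ⟨w, hw, -⟩ := cfc_fac f hf hτ (fun t ht => hz t (abs_lt.1 ht).2.le) hs
  refine ⟨cfc f a, by rw [hw]; exact hI.mul_right w a ha, cfc g a,
    cfc_nonneg fun t _ => by rw [hfd]; exact Real.sqrt_nonneg _, cfc_predicate _ _, ?_, ?_⟩
  · rw [← cfc_mul f f a, cut]
    refine cfc_congr fun t _ => ?_
    rw [hfd]
    exact Real.mul_self_sqrt (le_max_right _ _)
  · have h1 : cfc (fun t => f t * g t * t * g t * f t) a
        = cfc f a * cfc g a * a * cfc g a * cfc f a := by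
      rw [cfc_mul (fun t => f t * g t * t * g t) f a, cfc_mul (fun t => f t * g t * t) g a,
        cfc_mul (fun t => f t * g t) (fun t => t) a, cfc_mul f g a, cfc_id' ℝ a]
    rw [← h1, ← cfc_mul f f a]
    refine cfc_congr fun t _ => ?_
    rcases le_total t τ with ht | ht
    · simp [hz t ht]
    · have h2 : g t * t * g t = 1 := by
        have h3 := hpos t
        have h4 : Real.sqrt (max t τ) * Real.sqrt (max t τ) = t := by
          rw [Real.mul_self_sqrt (le_trans hτ.le (le_max_right _ _)), max_eq_left ht]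
        rw [hgd]
        simp only []
        generalize Real.sqrt (max t τ) = r at h3 h4
        rw [← h4]
        field_simp
      change f t * g t * t * g t * f t = f t * f t
      calc f t * g t * t * g t * f t = f t * (g t * t * g t) * f t := by ring
        _ = f t * f t := by rw [h2, mul_one]

end MainX

/-- `a₁ = cfc (fun t => √(max (t-τ) 0)) a ∈ I`, `h = cfc (fun t => 1/√(max t τ)) a`, `s = h a₁ s₀`, `main` for `(a₁, b₁)` and
`h c h'`; `a₁ h a h a₁ = a₁ a₁ = cut τ a`. -/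
theorem main' {I : Set L} (hI : Ctx I) {a b : L} (ha : a ∈ I) (hb' : b ∈ I) (ha0 : 0 ≤ a)
    (hb0 : 0 ≤ b) (c : L) {ε : ℝ} (hε : 0 < ε) : ∃ s ∈ I, ∃ t ∈ I,
      ‖star s * a * s - a‖ < ε ∧ ‖star t * b * t - b‖ < ε ∧ ‖star s * c * t‖ < ε := by
  have hε2 := half_pos hε
  obtain ⟨a₁, ha₁, h, ha1, hh, e1, e2⟩ := MainX.prep hI ha ha0 hε2
  obtain ⟨b₁, hb₁, h', hb1, hh', e3, e4⟩ := MainX.prep hI hb' hb0 hε2
  obtain ⟨s, t, h1, h2, h3⟩ := main hI ha₁ hb₁ ha1 hb1 (h * c * h') (ε / 2) hε2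
  have key : ∀ (a a₁ h s : L), 0 ≤ a → 0 ≤ a₁ → IsSelfAdjoint h → a₁ * a₁ = cut (ε / 2) a →
      a₁ * h * a * h * a₁ = a₁ * a₁ → ‖star (a₁ * s) * (a₁ * s) - a₁ * a₁‖ < ε / 2 →
      ‖star (h * (a₁ * s)) * a * (h * (a₁ * s)) - a‖ < ε := by
    intro a a₁ h s ha0 ha1 hh e1 e2 h1
    have e5 : star (h * (a₁ * s)) * a * (h * (a₁ * s)) - a
        = (star (a₁ * s) * (a₁ * s) - a₁ * a₁) + (cut (ε / 2) a - a) := by
      have e6 : star (h * (a₁ * s)) * a * (h * (a₁ * s))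
          = star s * (a₁ * h * a * h * a₁) * s := by
        simp only [star_mul, hh.star_eq, ha1.isSelfAdjoint.star_eq, mul_assoc]
      have e7 : star (a₁ * s) * (a₁ * s) = star s * (a₁ * a₁) * s := by
        simp only [star_mul, ha1.isSelfAdjoint.star_eq, mul_assoc]
      rw [e6, e7, e2, e1]
      abel
    rw [e5]
    linarith [norm_add_le (star (a₁ * s) * (a₁ * s) - a₁ * a₁) (cut (ε / 2) a - a),
      norm_cut_sub hε2.le ha0]
  refine ⟨h * (a₁ * s), hI.mul_left _ _ (hI.mul_right _ _ ha₁), h' * (b₁ * t),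
    hI.mul_left _ _ (hI.mul_right _ _ hb₁), key a a₁ h s ha0 ha1 hh e1 e2 h1,
    key b b₁ h' t hb0 hb1 hh' e3 e4 h2, ?_⟩
  have e8 : star (h * (a₁ * s)) * c * (h' * (b₁ * t))
      = star (a₁ * s) * (h * c * h') * (b₁ * t) := by
    rw [star_mul h, hh.star_eq]
    simp only [mul_assoc]
  rw [e8]
  linarith

end Crest.Agent.R110
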