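import Crest.Agent.R110.Layer
import Crest.Agent.R110.PC

/-! # Row 110, task R110-Main.
`hb`: `layer` with `a := k`, `B := p p`, `x := cut (2σ) (k k)`, `c := c p`, `σ = ε/4`; `η ≤ ε/2` from `Van.lev` (`Van (p p) (k k)`) so that
`Van (cut η B) (cut σ (k k))`.  `HypL`: in `Q` (spectral order, `Ctx.map`) `Cov (π p') (π (cut η B))`, `Van.map`, and the last hypothesis give
`Cov (π p') (π p')`; apply `pc`.  `main`: `layer` with `B := b b`, `HypL` from `hb` in `Q` (`Cov.van`, `Sol.symm`). -/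

set_option autoImplicit false
set_option linter.unusedVariables false

namespace Crest.Agent.R110

universe u

variable {L : Type u} [CStarAlgebra L] [PartialOrder L] [StarOrderedRing L]

namespace Main0X

theorem map_nonneg' {Q : Type u} [CStarAlgebra Q] [PartialOrder Q] [StarOrderedRing Q]
    (π : L →⋆ₐ[ℂ] Q) {x : L} (hx : 0 ≤ x) : 0 ≤ π x := by
  obtain ⟨y, rfl⟩ := CStarAlgebra.nonneg_iff_eq_star_mul_self.mp hx
  rw [map_mul, map_star]
  exact star_mul_self_nonneg _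

theorem sq_nonneg' {x : L} (hx : 0 ≤ x) : 0 ≤ x * x := by
  have h := star_mul_self_nonneg x
  rwa [(IsSelfAdjoint.of_nonneg hx).star_eq] at h

theorem van_sq {x : L} (hx : 0 ≤ x) : Van (x * x) x := by
  intro Q _ π h
  have h1 : star (π x) * π x = 0 := by
    rw [← map_star, (IsSelfAdjoint.of_nonneg hx).star_eq, ← map_mul, h]
  exact (CStarRing.star_mul_self_eq_zero_iff _).mp h1

/-- the common final step -/
theorem sol_of_hyp {I : Set L} (hI : Ctx I) {a b : L} (ha : a ∈ I) (hb' : b ∈ I) (ha0 : 0 ≤ a)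
    (hb0 : 0 ≤ b) (c : L) {ε η : ℝ} (hε : 0 < ε) (hη : 0 < η) (hηε : η ≤ ε / 2)
    (hH : HypL I a (b * b) (ε / 4) η) :
    ∃ s t : L, ‖star (a * s) * (a * s) - a * a‖ < ε ∧
      ‖star (b * t) * (b * t) - b * b‖ < ε ∧ ‖star (a * s) * c * (b * t)‖ < ε := by
  have hσ : 0 < ε / 4 := by positivity
  obtain ⟨s, t, h1, h2, h3⟩ := layer hI ha ha0 (hI.mul_left b b hb') (sq_nonneg' hb0)
    (cut_nonneg (2 * (ε / 4)) (a * a)) hσ hη (Van.refl _) hH (c * b) hσ
  refine ⟨s, t, ?_, ?_, ?_⟩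
  · have h4 := norm_cut_sub (τ := 2 * (ε / 4)) (by positivity) (sq_nonneg' ha0)
    have h5 := norm_add_le (star (a * s) * (a * s) - cut (2 * (ε / 4)) (a * a))
      (cut (2 * (ε / 4)) (a * a) - a * a)
    rw [sub_add_sub_cancel] at h5
    linarith
  · have h4 := norm_cut_sub (τ := η) hη.le (sq_nonneg' hb0)
    have h5 := norm_add_le (star t * (b * b) * t - cut η (b * b)) (cut η (b * b) - b * b)
    rw [sub_add_sub_cancel] at h5
    have h6 : star (b * t) * (b * t) = star t * (b * b) * t := by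
      rw [star_mul, (IsSelfAdjoint.of_nonneg hb0).star_eq]
      simp only [mul_assoc]
    rw [h6]
    linarith
  · have h6 : star (a * s) * c * (b * t) = star (a * s) * (c * b) * t := by
      simp only [mul_assoc]
    rw [h6]
    linarith

end Main0X

theorem hb {I : Set L} (hI : Ctx I) {p k : L} (hp : p ∈ I) (hk : k ∈ I) (hp0 : 0 ≤ p) (hk0 : 0 ≤ k)
    (h : Van p k) : Sol k p := by
  intro c ε hε
  have hσ : 0 < ε / 4 := by positivity
  have hpp := Main0X.sq_nonneg' hp0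
  have hkk := Main0X.sq_nonneg' hk0
  have hv : Van (p * p) (k * k) :=
    ((Main0X.van_sq hp0).trans h).trans (Sub.van ⟨k, rfl⟩)
  obtain ⟨η₀, hη₀, hlev⟩ := hv.lev (IsSelfAdjoint.of_nonneg hpp) hσ
  have hη : 0 < min η₀ (ε / 2) := lt_min hη₀ (by positivity)
  have hvan : Van (cut (min η₀ (ε / 2)) (p * p)) (cut (ε / 4) (k * k)) := by
    intro Q _ π h0
    rw [map_cut_eq_zero_iff π hη.le hpp] at h0
    rw [map_cut_eq_zero_iff π hσ.le hkk]
    exact hlev Q π (h0.trans (min_le_left _ _))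
  refine Main0X.sol_of_hyp hI hk hp hk0 hp0 c hε hη (min_le_right _ _) ?_
  intro Q _ π hπ p' k' hp' hk' hp'0 hk'0 h1 h2 h3
  letI := CStarAlgebra.spectralOrder Q
  haveI := CStarAlgebra.spectralOrderedRing Q
  exact pc (hI.map π hπ) ⟨p', hp', rfl⟩ ⟨k', hk', rfl⟩ (Main0X.map_nonneg' π hp'0)
    (Main0X.map_nonneg' π hk'0) (h1.trans_van ((hvan.map π).trans h3))

theorem main {I : Set L} (hI : Ctx I) {a b : L} (ha : a ∈ I) (hb' : b ∈ I) (ha0 : 0 ≤ a)
    (hb0 : 0 ≤ b) : Sol a b := by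
  intro c ε hε
  refine Main0X.sol_of_hyp hI ha hb' ha0 hb0 c hε (η := ε / 2) (by positivity) le_rfl ?_
  intro Q _ π hπ p' k' hp' hk' hp'0 hk'0 h1 h2 h3
  letI := CStarAlgebra.spectralOrder Q
  haveI := CStarAlgebra.spectralOrderedRing Q
  exact (hb (hI.map π hπ) ⟨p', hp', rfl⟩ ⟨k', hk', rfl⟩ (Main0X.map_nonneg' π hp'0)
    (Main0X.map_nonneg' π hk'0) h2.van).symm

end Crest.Agent.R110
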