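import Crest.Agent.R110.Refine

/-! # Row 110, task R110-Many: induction on `j`; each step is `refine` in the quotient `exists_quot_van g`, the solution
coming from `HypL`; earlier relations persist by `Rel.mono`; update the family with `Function.update`. -/

set_option autoImplicit false
set_option linter.unusedSectionVars false
set_option linter.unusedVariables false

namespace Crest.Agent.R110

universe u

variable {L : Type u} [CStarAlgebra L] [PartialOrder L] [StarOrderedRing L]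

theorem refine_many {I : Set L} (hI : Ctx I) {a B : L} {σ η : ℝ} (hH : HypL I a B σ η) (c g : L)
    {δ : ℝ} (hδ : 0 < δ) {p gp : L} (hpI : p ∈ I) (hp : 0 ≤ p) (hcp : Cov p gp)
    (hpa : Van (cut σ (a * a)) p) (j : ℕ) (k gk : ℕ → L)
    (hk : ∀ m < j, k m ∈ I ∧ 0 ≤ k m ∧ Cov (k m) (gk m))
    (hlink : ∀ (Q : Type u) [CStarAlgebra Q] (π : L →⋆ₐ[ℂ] Q), π g = 0 → π gp = 0 →
      π (cut η B) = 0 ∧ ∀ m < j, π (k m) = 0) :
    ∃ (p' : L) (k' : ℕ → L), 0 ≤ p' ∧ Sub p' p ∧ Cov p' gp ∧
      ∀ m < j, 0 ≤ k' m ∧ Sub (k' m) (k m) ∧ Cov (k' m) (gk m) ∧ Rel c g p' (k' m) δ := by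
  obtain ⟨Q, iQ, π, hπ, hg, hl⟩ := exists_quot_van g
  have key : ∀ i ≤ j, ∃ (p' : L) (k' : ℕ → L), 0 ≤ p' ∧ Sub p' p ∧ Cov p' gp ∧
      (∀ m < j, 0 ≤ k' m ∧ Sub (k' m) (k m) ∧ Cov (k' m) (gk m)) ∧
      ∀ m < i, Rel c g p' (k' m) δ := by
    intro i
    induction i with
    | zero =>
      intro _
      exact ⟨p, k, hp, Sub.refl p, hcp, fun m hm => ⟨(hk m hm).2.1, Sub.refl _, (hk m hm).2.2⟩,
        fun m hm => absurd hm (Nat.not_lt_zero m)⟩
    | succ i ih =>
      intro hi
      have hij : i < j := hi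
      obtain ⟨p', k', h0, hs, hc, hk', hR⟩ := ih hij.le
      obtain ⟨hk0, hks, hkc⟩ := hk' i hij
      have hl' : ∀ (Q' : Type u) [CStarAlgebra Q'] (π' : Q →⋆ₐ[ℂ] Q'), π' (π gp) = 0 →
          π' (π (cut η B)) = 0 ∧ ∀ m < j, π' (π (k m)) = 0 := by
        intro Q' _ π' h
        refine hlink Q' (π'.comp π) ?_ h
        show π' (π g) = 0
        rw [hg, map_zero]
      have hv1 : Van (π gp) (π (cut η B)) := fun Q' _ π' h => (hl' Q' π' h).1
      have hv2 : Van (π gp) (π (k' i)) :=
        Van.trans (fun Q' _ π' h => (hl' Q' π' h).2 i hij) (hks.van.map π)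
      have hS : Sol (π p') (π (k' i)) :=
        hH Q π hπ p' (k' i) (hs.mem hI hpI) (hks.mem hI (hk i hij).1) h0 hk0
          ((hc.map π).trans_van hv1) ((hc.map π).trans_van hv2) ((hpa.trans hs.van).map π)
      obtain ⟨p'', k'', a1, a2, a3, a4, a5, a6, a7⟩ := refine c π hπ hg hl h0 hk0 hc hkc hS hδ
      refine ⟨p'', Function.update k' i k'', a1, a3.trans hs, a5, fun m hm => ?_, fun m hm => ?_⟩
      · by_cases hmi : m = i
        · subst hmi
          rw [Function.update_self]
          exact ⟨a2, a4.trans hks, a6⟩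
        · rw [Function.update_of_ne hmi]
          exact hk' m hm
      · by_cases hmi : m = i
        · subst hmi
          rw [Function.update_self]
          exact a7
        · rw [Function.update_of_ne hmi]
          exact (hR m (by omega)).mono a3 (Sub.refl _)
  obtain ⟨p', k', h0, hs, hc, hk', hR⟩ := key j le_rfl
  exact ⟨p', k', h0, hs, hc, fun m hm => ⟨(hk' m hm).1, (hk' m hm).2.1, (hk' m hm).2.2, hR m hm⟩⟩

end Crest.Agent.R110
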