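import Crest.Agent.R110.Proj
import Crest.Agent.R110.OS

/-! # Row 110, task R110-PC: the compact case.
`pc_side`: `d = w w⋆`, `halve d` with `δ = θ²/8` into `d₁, d₂`; `k = cut (θ/2) d₁`, `h₁ = cut (θ/4) k`, `r = k w'` the unit of
`exists_unit_cut (θ/4) k` (selfadjoint, `r h₁ = h₁`, `q r = r`, `q h₁ = h₁`), `e = (q - r)(q - r) + d₂`.
`h₁ e = 0`; `π e = 0` gives `π d₂ = 0` (`norm_map_mono`), `‖πd₁‖² ≤ 2δ = θ²/4`, `π k = 0`, `π r = 0`, `π q = 0`;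
`π h₁ = 0` gives `‖πd₁‖ ≤ 3θ/4`, `‖πd‖² ≤ 9θ²/16 + θ²/8 ≤ θ²`.
`pc`: `q` from `exists_proj`, `B = k k`, `c' = c k`, `η = ε/2`, `ρ = η/4`, `M = ‖p‖²+1`, `lam = (‖B‖+ε+1)/ε²`,
`g = cut (η/2) B`, `w = q c' g`, `θ = (η/4)(η/2)²/(lam M)`; `v = e z` with `‖v⋆v - p p‖ < min ε 1` (`f1`), `v = q v`, `vv⋆ ≤ M q`,
`Y = c'⋆ v v⋆ c'`.  Hypothesis of `os`: in `π` with `B ≤ lam Y + ρ`: `h₁ = w y`, `ξ = g y`, `v⋆ c' ξ = v⋆ h₁ = 0`, so
`(η/2) ξ⋆ξ ≤ ξ⋆Bξ ≤ ρ ξ⋆ξ` (`cut_posreg`), `πξ = 0`, `πh₁ = 0`, `‖π(ww⋆)‖ ≤ θ`; `(η/2-ρ) g g ≤ g(B-ρ)g ≤ lam M w⋆w`, so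
`‖π g‖ ≤ η/2` and `cut η (πB) = 0`. -/

set_option autoImplicit false
set_option linter.unusedVariables false

namespace Crest.Agent.R110

universe u

variable {L : Type u} [CStarAlgebra L] [PartialOrder L] [StarOrderedRing L]

theorem pc_side {I : Set L} (hI : Ctx I) {q w : L} (hq : q ∈ I) (hqs : IsSelfAdjoint q)
    (hqq : q * q = q) (hu : q * w = w) {θ : ℝ} (hθ : 0 < θ) :
    ∃ e h₁ : L, 0 ≤ e ∧ Sub e q ∧ Van e q ∧ Sub h₁ w ∧ star e * h₁ = 0 ∧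
      ∀ (Q : Type u) [CStarAlgebra Q] (π : L →⋆ₐ[ℂ] Q), π h₁ = 0 → ‖π (w * star w)‖ ≤ θ := by
  have hw : w ∈ I := hu ▸ hI.mul_right w q hq
  have hd : w * star w ∈ I := hI.mul_right _ w hw
  have hd0 : 0 ≤ w * star w := mul_star_self_nonneg w
  obtain ⟨d₁, d₂, h10, h20, hs1, hs2, h12, hn⟩ := halve hI hd hd0 (δ := θ ^ 2 / 8) (by positivity)
  have hqs' : ∀ x, Sub x w → q * x = x := by
    rintro x ⟨z, rfl⟩
    rw [← mul_assoc, hu]
  have hdw : Sub (w * star w) w := ⟨star w, rfl⟩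
  have hk0 : 0 ≤ cut (θ / 2) d₁ := cut_nonneg _ _
  have hks : IsSelfAdjoint (cut (θ / 2) d₁) := cut_sa _ _
  have hk1 : Sub (cut (θ / 2) d₁) d₁ := cut_sub (by positivity) h10.isSelfAdjoint
  have hh1 : Sub (cut (θ / 4) (cut (θ / 2) d₁)) (cut (θ / 2) d₁) := cut_sub (by positivity) hks
  obtain ⟨w', hw's, -, hw'c, hw'u⟩ := exists_unit_cut (τ := θ / 4) (by positivity) hks
  have hπk : ∀ (Q : Type u) [CStarAlgebra Q] (π : L →⋆ₐ[ℂ] Q),
      π (cut (θ / 2) d₁) = 0 ↔ ‖π d₁‖ ≤ θ / 2 := fun Q _ π => map_cut_eq_zero_iff π (by positivity) h10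
  have hπd : ∀ (Q : Type u) [CStarAlgebra Q] (π : L →⋆ₐ[ℂ] Q),
      ‖π d₁‖ ≤ ‖π (cut (θ / 2) d₁)‖ + θ / 2 := fun Q _ π => norm_map_le_cut π (by positivity) h10
  have hπh : ∀ (Q : Type u) [CStarAlgebra Q] (π : L →⋆ₐ[ℂ] Q),
      π (cut (θ / 4) (cut (θ / 2) d₁)) = 0 ↔ ‖π (cut (θ / 2) d₁)‖ ≤ θ / 4 :=
    fun Q _ π => map_cut_eq_zero_iff π (by positivity) hk0
  generalize cut (θ / 4) (cut (θ / 2) d₁) = h₁ at *
  generalize cut (θ / 2) d₁ = k at *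
  have hkw : Sub k w := hk1.trans (hs1.trans hdw)
  have hhw : Sub h₁ w := hh1.trans hkw
  have hrs : IsSelfAdjoint (k * w') := by
    rw [IsSelfAdjoint, star_mul, hw's.star_eq, hks.star_eq, hw'c]
  have hqr : q * (k * w') = k * w' := hqs' _ (hkw.mul _)
  have hms : IsSelfAdjoint (q - k * w') := hqs.sub hrs
  have hm0 : 0 ≤ (q - k * w') * (q - k * w') := by
    have := star_mul_self_nonneg (q - k * w')
    rwa [hms.star_eq] at this
  have he0 : 0 ≤ (q - k * w') * (q - k * w') + d₂ := add_nonneg hm0 h20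
  refine ⟨(q - k * w') * (q - k * w') + d₂, h₁, he0, ⟨(q - k * w') * (q - k * w') + d₂, ?_⟩, ?_, hhw, ?_, ?_⟩
  · rw [mul_add, ← mul_assoc, mul_sub q q, hqq, hqr, hqs' d₂ (hs2.trans hdw)]
  · intro Q _ π he
    have h2 : ‖π d₂‖ ≤ 0 := by
      have := norm_map_mono π h20 (le_add_of_nonneg_left hm0)
      rwa [he, norm_zero] at this
    have h3 : ‖π ((q - k * w') * (q - k * w'))‖ ≤ 0 := by
      have := norm_map_mono π hm0 (le_add_of_nonneg_right h20)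
      rwa [he, norm_zero] at this
    have h4 : π (q - k * w') = 0 := by
      have h5 : star (π (q - k * w')) * π (q - k * w') = 0 := by
        rw [← map_star, hms.star_eq, ← map_mul]
        exact norm_le_zero_iff.1 h3
      exact (CStarRing.star_mul_self_eq_zero_iff _).1 h5
    obtain ⟨n1, n2⟩ := hn Q π
    have h6 : ‖π d₂‖ = 0 := le_antisymm h2 (norm_nonneg _)
    rw [h6] at n2
    have h7 : ‖π d₁‖ ≤ θ / 2 := by
      have a1 := (abs_le.1 n1).2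
      have a2 := (abs_le.1 n2).1
      exact abs_le_of_sq_le_sq' (by nlinarith) (by positivity) |>.2
    have h8 : π k = 0 := (hπk Q π).2 h7
    rw [map_sub, map_mul, h8, zero_mul, sub_zero] at h4
    exact h4
  · have h21 : d₂ * d₁ = 0 := by
      have := congrArg star h12
      rwa [star_mul, h10.isSelfAdjoint.star_eq, h20.isSelfAdjoint.star_eq, star_zero] at this
    obtain ⟨z, hz⟩ := hh1.trans hk1
    have h1 : d₂ * h₁ = 0 := by rw [hz, ← mul_assoc, h21, zero_mul]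
    have h2 : (q - k * w') * h₁ = 0 := by rw [sub_mul, hqs' _ hhw, hw'u, sub_self]
    rw [he0.isSelfAdjoint.star_eq, add_mul, mul_assoc, h2, mul_zero, h1, add_zero]
  · intro Q _ π h0
    have h1 := (hπh Q π).1 h0
    have h2 := hπd Q π
    have a1 := (abs_le.1 (hn Q π).1).1
    have h3 : ‖π d₁‖ ≤ 3 * θ / 4 := by linarith
    have h4 : ‖π d₁‖ ^ 2 ≤ (3 * θ / 4) ^ 2 := pow_le_pow_left₀ (norm_nonneg _) h3 2
    exact abs_le_of_sq_le_sq' (by nlinarith) hθ.le |>.2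

end Crest.Agent.R110
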