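import Crest.Agent.R110.CuIdeal

/-!
# Row 110: quotients of non-unital C⋆-algebras by closed two-sided ideals
-/

set_option autoImplicit false

namespace Crest.Agent.R110

open scoped CStarAlgebra
open Crest.OpAlg Filter Topology

universe u

section Unit

variable {C : Type*} [NonUnitalCStarAlgebra C] [PartialOrder C] [StarOrderedRing C]

theorem norm_sub_mul_left_le {e : C} (he : 0 ≤ e) (he1 : ‖e‖ ≤ 1) (z : C) : ‖z - e * z‖ ≤ ‖z‖ := by
  refine CStarAlgebra.norm_sub_mul_self_le_of_inr (x := 0) z le_rfl he he1 (norm_nonneg _) ?_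
  rw [Unitization.inr_zero, sub_zero, mul_one, CStarRing.norm_star_mul_self, Unitization.norm_inr,
    sq]

theorem norm_sub_mul_right_le {e : C} (he : 0 ≤ e) (he1 : ‖e‖ ≤ 1) (z : C) :
    ‖z - z * e‖ ≤ ‖z‖ := by
  have := norm_sub_mul_left_le he he1 (star z)
  rwa [← norm_star, star_sub, star_mul, star_star, he.isSelfAdjoint.star_eq, norm_star] at this

/-- a two-sided ideal contains positive contractions that are approximate right units for a given
element `j` whose adjoint lies in the ideal or which lies in the ideal itself. -/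
theorem exists_unit_of_mem (J : TwoSidedIdeal C) {j : C} (hj : j ∈ J) {ε : ℝ} (hε : 0 < ε) :
    ∃ e ∈ J, 0 ≤ e ∧ ‖e‖ ≤ 1 ∧ ‖j - j * e‖ ≤ ε := by
  obtain ⟨η, hη⟩ : ∃ η : ℝ, η = ε ^ 2 := ⟨_, rfl⟩
  have hη0 : 0 < η := by rw [hη]; positivity
  have hpos : ∀ t : ℝ, 0 < η ^ 2 + t ^ 2 := fun t => by positivity
  obtain ⟨g, hgd⟩ : ∃ g : ℝ → ℝ, g = fun t => t / (η ^ 2 + t ^ 2) := ⟨_, rfl⟩
  have hg : Continuous g := by
    rw [hgd]; exact continuous_id.div (by fun_prop) fun t => (hpos t).ne'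
  have hg0 : g 0 = 0 := by simp [hgd]
  have hsa : IsSelfAdjoint (star j * j) := IsSelfAdjoint.star_mul_self j
  have hf : ∀ t, g t * t = t ^ 2 / (η ^ 2 + t ^ 2) := fun t => by rw [hgd]; ring
  have hf0 : ∀ t, 0 ≤ g t * t := fun t => by rw [hf]; have := hpos t; positivity
  have hf1 : ∀ t, g t * t ≤ 1 := fun t => by
    rw [hf, div_le_one (hpos t)]; nlinarith [sq_nonneg η]
  refine ⟨cfcₙ (fun t => g t * t) (star j * j), ?_, cfcₙ_nonneg fun t _ => hf0 t,
    norm_cfcₙ_le fun t _ => ?_, ?_⟩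
  · rw [cfcₙ_mul g (fun t : ℝ => t), cfcₙ_id' ℝ (star j * j)]
    exact J.mul_mem_left _ _ (J.mul_mem_left _ _ hj)
  · rw [Real.norm_eq_abs, abs_of_nonneg (hf0 t)]; exact hf1 t
  · have h1 := norm_sub_cfc_mul_le (x := star j) (b := star j * j) (by rw [star_star])
      (fun t => g t * t) (by fun_prop) (by simp) hε.le (fun t ht => by
        have h2 : 1 - g t * t = η ^ 2 / (η ^ 2 + t ^ 2) := by
          rw [hf]; have := (hpos t).ne'; field_simp; ring
        have h3 : (1 - g t * t) * t ≤ η := by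
          rw [h2, div_mul_eq_mul_div, div_le_iff₀ (hpos t)]
          nlinarith [mul_nonneg hη0.le (sq_nonneg (t - η)), mul_nonneg hη0.le (sq_nonneg t),
            mul_pos hη0 (mul_pos hη0 hη0)]
        have h4 := hf0 t
        have h5 := hf1 t
        rw [← hη]
        nlinarith [mul_nonneg (sub_nonneg.2 h5) ht])
    have h6 : IsSelfAdjoint (cfcₙ (fun t => g t * t) (star j * j)) := cfcₙ_predicate _ _
    rwa [← norm_star, star_sub, star_mul, star_star, h6.star_eq] at h1

/-- closed two-sided ideals are ⋆-closed. -/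
theorem star_mem_of_isClosed (J : TwoSidedIdeal C) (hc : IsClosed (J : Set C)) {j : C}
    (hj : j ∈ J) : star j ∈ J := by
  change star j ∈ (J : Set C)
  rw [← hc.closure_eq, Metric.mem_closure_iff]
  intro ε hε
  obtain ⟨e, he, he0, -, h⟩ := exists_unit_of_mem J hj (half_pos hε)
  refine ⟨e * star j, J.mul_mem_right _ _ he, ?_⟩
  rw [dist_eq_norm, ← norm_star, star_sub, star_mul, star_star, he0.isSelfAdjoint.star_eq]
  linarith

/-- closed two-sided ideals are subspaces. -/
theorem smul_mem_of_isClosed (J : TwoSidedIdeal C) (hc : IsClosed (J : Set C)) (c : ℂ) {j : C}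
    (hj : j ∈ J) : c • j ∈ J := by
  change c • j ∈ (J : Set C)
  rw [← hc.closure_eq, Metric.mem_closure_iff]
  intro ε hε
  obtain ⟨e, he, -, -, h⟩ := exists_unit_of_mem J hj (show 0 < ε / (‖c‖ + 1) by positivity)
  refine ⟨(c • j) * e, J.mul_mem_left _ _ he, ?_⟩
  rw [dist_eq_norm, smul_mul_assoc, ← smul_sub, norm_smul]
  rw [le_div_iff₀ (by positivity)] at h
  rcases (norm_nonneg (j - j * e)).eq_or_lt with h0 | h0
  · rw [← h0, mul_zero]; exact hε
  · nlinarith

end Unit

namespace QNU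

/-- a closed two-sided ⋆-ideal which is a subspace -/
structure CI (C : Type u) [NonUnitalCStarAlgebra C] where
  S : Submodule ℂ C
  left : ∀ x y, y ∈ S → x * y ∈ S
  right : ∀ x y, x ∈ S → x * y ∈ S
  closed : IsClosed (S : Set C)
  st : ∀ x ∈ S, star x ∈ S
  unit : ∀ j ∈ S, ∀ ε : ℝ, 0 < ε → ∃ e ∈ S, IsSelfAdjoint e ∧ (∀ z, ‖z - e * z‖ ≤ ‖z‖) ∧
    (∀ z, ‖z - z * e‖ ≤ ‖z‖) ∧ ‖j - j * e‖ ≤ ε

variable {C : Type u} [NonUnitalCStarAlgebra C] (I : CI C)

instance : IsClosed (I.S : Set C) := I.closed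

/-- the quotient -/
def Q : Type u := C ⧸ I.S

noncomputable instance : NormedAddCommGroup (Q I) := Submodule.Quotient.normedAddCommGroup I.S

noncomputable instance : NormedSpace ℂ (Q I) := Submodule.Quotient.normedSpace I.S ℂ

instance : CompleteSpace (Q I) := Submodule.Quotient.completeSpace I.S

/-- the quotient map as a linear map -/
noncomputable def mkL : C →ₗ[ℂ] Q I := I.S.mkQ

theorem mkL_surj : Function.Surjective (mkL I) := I.S.mkQ_surjective

theorem mkL_eq_zero (x : C) : mkL I x = 0 ↔ x ∈ I.S := Submodule.Quotient.mk_eq_zero I.S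

theorem norm_mkL_le (x : C) : ‖mkL I x‖ ≤ ‖x‖ := Submodule.Quotient.norm_mk_le _ x

theorem rep (x : Q I) {ε : ℝ} (hε : 0 < ε) : ∃ m : C, mkL I m = x ∧ ‖m‖ < ‖x‖ + ε :=
  Submodule.Quotient.norm_mk_lt x hε

noncomputable instance : Mul (Q I) :=
  ⟨Quotient.map₂' (· * ·) fun x x' h y y' h' => by
    rw [Submodule.quotientRel_def] at h h' ⊢
    have : x * y - x' * y' = (x - x') * y + x' * (y - y') := by noncomm_ring
    rw [this]
    exact I.S.add_mem (I.right _ _ h) (I.left _ _ h')⟩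

theorem mkL_mul (x y : C) : mkL I (x * y) = mkL I x * mkL I y := rfl

noncomputable instance : Star (Q I) :=
  ⟨Quotient.map' star fun x y h => by
    rw [Submodule.quotientRel_def] at h ⊢
    rw [← star_sub]
    exact I.st _ h⟩

theorem star_mkL (x : C) : star (mkL I x) = mkL I (star x) := rfl

theorem le_of_eps {a b c : ℝ} (h : ∀ ε : ℝ, 0 < ε → a ≤ (b + ε) * (c + ε)) : a ≤ b * c := by
  have h1 : Tendsto (fun ε : ℝ => (b + ε) * (c + ε)) (𝓝[>] 0) (𝓝 ((b + 0) * (c + 0))) :=
    (Continuous.tendsto (by fun_prop) 0).mono_left nhdsWithin_le_nhds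
  rw [add_zero, add_zero] at h1
  exact ge_of_tendsto h1 (eventually_nhdsWithin_of_forall h)

noncomputable instance : NonUnitalNormedRing (Q I) :=
  { (inferInstance : NormedAddCommGroup (Q I)), (inferInstance : Mul (Q I)) with
    left_distrib := fun x y z => by
      obtain ⟨x, rfl⟩ := mkL_surj I x
      obtain ⟨y, rfl⟩ := mkL_surj I y
      obtain ⟨z, rfl⟩ := mkL_surj I z
      rw [← map_add, ← mkL_mul, ← mkL_mul, ← mkL_mul, mul_add, map_add]
    right_distrib := fun x y z => by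
      obtain ⟨x, rfl⟩ := mkL_surj I x
      obtain ⟨y, rfl⟩ := mkL_surj I y
      obtain ⟨z, rfl⟩ := mkL_surj I z
      rw [← map_add, ← mkL_mul, ← mkL_mul, ← mkL_mul, add_mul, map_add]
    zero_mul := fun x => by
      obtain ⟨x, rfl⟩ := mkL_surj I x
      rw [← map_zero (mkL I), ← mkL_mul, zero_mul]
    mul_zero := fun x => by
      obtain ⟨x, rfl⟩ := mkL_surj I x
      rw [← map_zero (mkL I), ← mkL_mul, mul_zero]
    mul_assoc := fun x y z => by
      obtain ⟨x, rfl⟩ := mkL_surj I x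
      obtain ⟨y, rfl⟩ := mkL_surj I y
      obtain ⟨z, rfl⟩ := mkL_surj I z
      rw [← mkL_mul, ← mkL_mul, ← mkL_mul, ← mkL_mul, mul_assoc]
    norm_mul_le := fun x y => le_of_eps fun ε hε => by
      obtain ⟨a, rfl, ha⟩ := rep I x hε
      obtain ⟨b, rfl, hb⟩ := rep I y hε
      exact (norm_mkL_le I (a * b)).trans ((norm_mul_le a b).trans
        (mul_le_mul ha.le hb.le (norm_nonneg _) ((norm_nonneg _).trans ha.le))) }

noncomputable instance : StarRing (Q I) where
  star_involutive x := by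
    obtain ⟨x, rfl⟩ := mkL_surj I x
    rw [star_mkL, star_mkL, star_star]
  star_mul x y := by
    obtain ⟨x, rfl⟩ := mkL_surj I x
    obtain ⟨y, rfl⟩ := mkL_surj I y
    rw [← mkL_mul, star_mkL, star_mkL, star_mkL, star_mul, mkL_mul]
  star_add x y := by
    obtain ⟨x, rfl⟩ := mkL_surj I x
    obtain ⟨y, rfl⟩ := mkL_surj I y
    rw [← map_add, star_mkL, star_mkL, star_mkL, star_add, map_add]

instance : CStarRing (Q I) where
  norm_mul_self_le x := by
    obtain ⟨x, rfl⟩ := mkL_surj I x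
    rw [star_mkL, ← mkL_mul]
    refine le_of_forall_pos_le_add fun ε hε => ?_
    obtain ⟨m, hm, hlt⟩ := rep I (mkL I (star x * x)) (half_pos hε)
    have hj : m - star x * x ∈ I.S := by rw [← mkL_eq_zero, map_sub, hm, sub_self]
    obtain ⟨e, heJ, he, hl, hr, hje⟩ := I.unit _ hj _ (half_pos hε)
    have h1 : mkL I x = mkL I (x - x * e) := by
      rw [map_sub, (mkL_eq_zero I (x * e)).2 (I.left _ _ heJ), sub_zero]
    have h2 : ‖mkL I x‖ ≤ ‖x - x * e‖ := h1 ▸ norm_mkL_le I _
    have h3 : star (x - x * e) * (x - x * e) = ((m - m * e) - e * (m - m * e))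
        - (((m - star x * x) - (m - star x * x) * e)
          - e * ((m - star x * x) - (m - star x * x) * e)) := by
      rw [star_sub, star_mul, he.star_eq]
      noncomm_ring
    have h6 : ‖x - x * e‖ * ‖x - x * e‖ ≤ ‖m‖ + ε / 2 := by
      rw [← CStarRing.norm_star_mul_self, h3]
      exact (norm_sub_le _ _).trans (add_le_add ((hl _).trans (hr _)) ((hl _).trans hje))
    have h7 := mul_le_mul h2 h2 (norm_nonneg _) (norm_nonneg _)
    linarith

instance : StarModule ℂ (Q I) where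
  star_smul c x := by
    obtain ⟨x, rfl⟩ := mkL_surj I x
    rw [← map_smul, star_mkL, star_mkL, star_smul, map_smul]

instance : IsScalarTower ℂ (Q I) (Q I) where
  smul_assoc c x y := by
    obtain ⟨x, rfl⟩ := mkL_surj I x
    obtain ⟨y, rfl⟩ := mkL_surj I y
    rw [smul_eq_mul, smul_eq_mul, ← map_smul, ← mkL_mul, ← mkL_mul, smul_mul_assoc, map_smul]

instance : SMulCommClass ℂ (Q I) (Q I) where
  smul_comm c x y := by
    obtain ⟨x, rfl⟩ := mkL_surj I x
    obtain ⟨y, rfl⟩ := mkL_surj I y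
    rw [smul_eq_mul, smul_eq_mul, ← map_smul, ← mkL_mul, ← mkL_mul, mul_smul_comm, map_smul]

noncomputable instance : NonUnitalCStarAlgebra (Q I) :=
  { (inferInstance : NonUnitalNormedRing (Q I)), (inferInstance : StarRing (Q I)),
    (inferInstance : CompleteSpace (Q I)), (inferInstance : CStarRing (Q I)),
    (inferInstance : NormedSpace ℂ (Q I)), (inferInstance : IsScalarTower ℂ (Q I) (Q I)),
    (inferInstance : SMulCommClass ℂ (Q I) (Q I)), (inferInstance : StarModule ℂ (Q I)) with }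

/-- the quotient map -/
noncomputable def mk : C →⋆ₙₐ[ℂ] Q I where
  toFun := mkL I
  map_smul' c x := map_smul (mkL I) c x
  map_zero' := map_zero (mkL I)
  map_add' := map_add (mkL I)
  map_mul' := mkL_mul I
  map_star' x := (star_mkL I x).symm

end QNU

/-- the quotient of a C⋆-algebra by a closed two-sided ideal. -/
theorem exists_quot_nu {C : Type u} [NonUnitalCStarAlgebra C] (J : TwoSidedIdeal C)
    (hc : IsClosed (J : Set C)) :
    ∃ (D : Type u) (_ : NonUnitalCStarAlgebra D) (π : C →⋆ₙₐ[ℂ] D), Function.Surjective π ∧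
      (∀ x, π x = 0 ↔ x ∈ J) ∧ (∀ x, ‖π x‖ ≤ ‖x‖) ∧
      ∀ (y : D) (ε : ℝ), 0 < ε → ∃ x, π x = y ∧ ‖x‖ < ‖y‖ + ε := by
  letI := CStarAlgebra.spectralOrder C
  haveI := CStarAlgebra.spectralOrderedRing C
  let I : QNU.CI C :=
    { S :=
        { carrier := J
          add_mem' := fun ha hb => J.add_mem ha hb
          zero_mem' := J.zero_mem
          smul_mem' := fun c _ hx => smul_mem_of_isClosed J hc c hx }
      left := fun x y hy => J.mul_mem_left x y hy
      right := fun x y hx => J.mul_mem_right x y hx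
      closed := hc
      st := fun x hx => star_mem_of_isClosed J hc hx
      unit := fun j hj ε hε => by
        obtain ⟨e, he, he0, he1, h⟩ := exists_unit_of_mem J hj hε
        exact ⟨e, he, he0.isSelfAdjoint, norm_sub_mul_left_le he0 he1,
          norm_sub_mul_right_le he0 he1, h⟩ }
  exact ⟨QNU.Q I, inferInstance, QNU.mk I, QNU.mkL_surj I, QNU.mkL_eq_zero I, QNU.norm_mkL_le I,
    fun y ε hε => QNU.rep I y hε⟩

section Map

variable {C D : Type*} [NonUnitalCStarAlgebra C] [NonUnitalCStarAlgebra D]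

theorem Cu.map (π : C →⋆ₙₐ[ℂ] D) {a b : C} (h : Cu a b) : Cu (π a) (π b) := by
  intro ε hε
  obtain ⟨d, hd⟩ := h ε hε
  refine ⟨π d, lt_of_le_of_lt ?_ hd⟩
  rw [← map_star, ← map_mul, ← map_mul, ← map_sub]
  exact NonUnitalStarAlgHom.norm_apply_le π _

theorem pi_map (π : C →⋆ₙₐ[ℂ] D) {h : C} (hh : IsProperlyInfinite h) :
    IsProperlyInfinite (π h) := by
  intro ε hε
  obtain ⟨r, s, h1, h2, h3⟩ := hh ε hε
  refine ⟨π r, π s, lt_of_le_of_lt ?_ h1, lt_of_le_of_lt ?_ h2, lt_of_le_of_lt ?_ h3⟩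
  · rw [← map_star, ← map_mul, ← map_mul, ← map_sub]
    exact NonUnitalStarAlgHom.norm_apply_le π _
  · rw [← map_star, ← map_mul, ← map_mul, ← map_sub]
    exact NonUnitalStarAlgHom.norm_apply_le π _
  · rw [← map_star, ← map_mul, ← map_mul]
    exact NonUnitalStarAlgHom.norm_apply_le π _

/-- pure infiniteness passes to quotients. -/
theorem pi_quot (π : C →⋆ₙₐ[ℂ] D) (hπ : Function.Surjective π)
    (hC : ∀ x : C, IsProperlyInfinite (star x * x)) (y : D) : IsProperlyInfinite (star y * y) := by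
  obtain ⟨x, rfl⟩ := hπ y
  rw [← map_star, ← map_mul]
  exact pi_map π (hC x)

theorem map_cut (π : C →⋆ₙₐ[ℂ] D) {a : C} (ha : IsSelfAdjoint a) {ε : ℝ} (hε : 0 ≤ ε) :
    π (cut ε a) = cut ε (π a) := by
  have h0 : max ((0 : ℝ) - ε) 0 = 0 := max_eq_right (by linarith)
  have hπ : Continuous π := (NonUnitalStarAlgHom.toNonUnitalAlgHom π |> fun _ =>
    AddMonoidHomClass.continuous_of_bound π 1 fun x => by
      simpa using NonUnitalStarAlgHom.norm_apply_le π x)
  exact π.map_cfcₙ _ a (by fun_prop) h0 hπ ha (ha.map π)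

theorem pi_of_nonneg [PartialOrder C] [StarOrderedRing C]
    (hC : ∀ x : C, IsProperlyInfinite (star x * x)) {a : C} (ha : 0 ≤ a) :
    IsProperlyInfinite a := by
  have := hC (CFC.sqrt a)
  rwa [(CFC.sqrt_nonneg a).isSelfAdjoint.star_eq, CFC.sqrt_mul_sqrt_self a ha] at this

end Map

end Crest.Agent.R110
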