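import Crest.Agent.R110.Lift
import Crest.Agent.R110.Cut
import Crest.Agent.R110.Idl

/-! # Row 110, task R110-Refine: lifting a solution from a quotient.
`lift_side`: `H = vv⋆ + (p j)(p j)⋆` (`Sub H p`), `p' = cut τ H`, `w` from `exists_unit_cut`, `e = H w = w H`,
`u = w v`, so `π₀ e = π₀ u * star (π₀ v)` as `π₀ j = 0`.  Covering: if `‖π p'‖ ≤ τ` then `‖πH‖ ≤ 2τ`, so
`‖πv‖² ≤ 2τ`, `‖π(pj)‖² ≤ 2τ` (`norm_map_mono`); `p⁴ = p² v⋆v + p (p j) + p² (p p - v⋆v - j)` gives, for `N = ‖πp‖`,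
`N⁴ ≤ 2τN² + N√(2τ) + τN²`, impossible for `N > θ` when `τ` is small (depending on `θ` only).
`refine`: `τ` = min of the two `τ`'s; `Sol` with accuracy `ε ≤ min τ 1` small; lift `s, t`;
`π₀ (star e' * c * e) = π₀ u' * π₀(v⋆ c w) * star (π₀ u)` (`e'`, `e` selfadjoint), `‖π₀ v‖² ≤ ‖p‖² + 1`. -/

set_option autoImplicit false
set_option linter.unusedVariables false

namespace Crest.Agent.R110

universe u

variable {L : Type u} [CStarAlgebra L] [PartialOrder L] [StarOrderedRing L]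

namespace RefineX

omit [PartialOrder L] [StarOrderedRing L] in
theorem norm_le_of_close {Q : Type u} [CStarAlgebra Q] (π : L →⋆ₐ[ℂ] Q) (p : L) (x : Q) {ε : ℝ}
    (hε : ε ≤ 1) (h : ‖star x * x - π p * π p‖ < ε) : ‖x‖ ≤ ‖p‖ ^ 2 + 1 := by
  have h1 : ‖π p‖ ≤ ‖p‖ := NonUnitalStarAlgHom.norm_apply_le π p
  have h2 : ‖star x * x‖ = ‖x‖ * ‖x‖ := CStarRing.norm_star_mul_self
  have h3 : ‖star x * x‖ ≤ ‖star x * x - π p * π p‖ + ‖π p * π p‖ := by
    simpa using norm_add_le (star x * x - π p * π p) (π p * π p)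
  have h4 : ‖π p * π p‖ ≤ ‖π p‖ * ‖π p‖ := norm_mul_le _ _
  have h5 : ‖π p‖ * ‖π p‖ ≤ ‖p‖ * ‖p‖ := mul_self_le_mul_self (norm_nonneg _) h1
  have h6 : ‖x‖ * ‖x‖ ≤ ‖p‖ ^ 2 + 1 := by nlinarith
  by_contra hc
  push_neg at hc
  have h7 : 1 ≤ ‖p‖ ^ 2 + 1 := by nlinarith [sq_nonneg ‖p‖]
  nlinarith

end RefineX

theorem refine {g p k gp gk : L} (c : L) {Q : Type u} [CStarAlgebra Q] (π : L →⋆ₐ[ℂ] Q)
    (hπ : Function.Surjective π) (hg : π g = 0)
    (hl : ∀ z δ, ‖π z‖ < δ → ∃ j, Van g j ∧ ‖z - j‖ < δ) (hp : 0 ≤ p) (hk : 0 ≤ k)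
    (hcp : Cov p gp) (hck : Cov k gk) (hS : Sol (π p) (π k)) {δ : ℝ} (hδ : 0 < δ) :
    ∃ p' k' : L, 0 ≤ p' ∧ 0 ≤ k' ∧ Sub p' p ∧ Sub k' k ∧ Cov p' gp ∧ Cov k' gk ∧ Rel c g p' k' δ := by
  obtain ⟨τ₁, hτ₁, H₁⟩ := lift_side hp hcp
  obtain ⟨τ₂, hτ₂, H₂⟩ := lift_side hk hck
  set τ := min τ₁ τ₂ with hτdef
  have hτ : 0 < τ := lt_min hτ₁ hτ₂
  set M := 1 / τ * (‖p‖ ^ 2 + 1) with hM
  set M' := 1 / τ * (‖k‖ ^ 2 + 1) with hM'
  have hM0 : 0 ≤ M := by positivity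
  have hM0' : 0 ≤ M' := by positivity
  set ε := min τ (min 1 (δ / (M * M' + 1))) with hεdef
  have hD : 0 < M * M' + 1 := by positivity
  have hε : 0 < ε := lt_min hτ (lt_min one_pos (div_pos hδ hD))
  have hετ : ε ≤ τ := min_le_left _ _
  have hε1 : ε ≤ 1 := (min_le_right _ _).trans (min_le_left _ _)
  have hεδ : ε ≤ δ / (M * M' + 1) := (min_le_right _ _).trans (min_le_right _ _)
  obtain ⟨s₀, t₀, h1, h2, h3⟩ := hS (π c) ε hε
  obtain ⟨s, rfl⟩ := hπ s₀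
  obtain ⟨t, rfl⟩ := hπ t₀
  have e1 : π (p * p - star (p * s) * (p * s)) = -(star (π p * π s) * (π p * π s) - π p * π p) := by
    simp only [map_sub, map_mul, map_star, neg_sub]
  have e2 : π (k * k - star (k * t) * (k * t)) = -(star (π k * π t) * (π k * π t) - π k * π k) := by
    simp only [map_sub, map_mul, map_star, neg_sub]
  obtain ⟨j₁, hj₁, hj₁'⟩ := hl (p * p - star (p * s) * (p * s)) ε (by rw [e1, norm_neg]; exact h1)
  obtain ⟨j₂, hj₂, hj₂'⟩ := hl (k * k - star (k * t) * (k * t)) ε (by rw [e2, norm_neg]; exact h2)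
  obtain ⟨p', e', w', hp'0, hp's, hp'c, hep, hsa', hw', hq'⟩ :=
    H₁ τ hτ (min_le_left _ _) (p * s) j₁ ⟨s, rfl⟩ (hj₁'.le.trans hετ)
  obtain ⟨k', e, w, hk'0, hk's, hk'c, hek, hsa, hw, hq⟩ :=
    H₂ τ hτ (min_le_right _ _) (k * t) j₂ ⟨t, rfl⟩ (hj₂'.le.trans hετ)
  have q1 := hq' Q π (hj₁ Q π hg)
  have q2 := hq Q π (hj₂ Q π hg)
  have q3 : π e = π (k * t) * star (π (k * t)) * star (π w) := by
    have : π e = star (π e) := by rw [← map_star, hsa.star_eq]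
    rw [this, q2]
    simp only [star_mul, star_star, mul_assoc]
  have nv : ‖π (p * s)‖ ≤ ‖p‖ ^ 2 + 1 := by
    rw [map_mul]; exact RefineX.norm_le_of_close π p _ hε1 h1
  have nx : ‖π (k * t)‖ ≤ ‖k‖ ^ 2 + 1 := by
    rw [map_mul]; exact RefineX.norm_le_of_close π k _ hε1 h2
  have nw' : ‖π w'‖ ≤ 1 / τ := (NonUnitalStarAlgHom.norm_apply_le π w').trans hw'
  have nw : ‖π w‖ ≤ 1 / τ := (NonUnitalStarAlgHom.norm_apply_le π w).trans hw
  have key : π (star e' * c * e) = (π w' * π (p * s)) * (star (π p * π s) * π c * (π k * π t)) *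
      (star (π (k * t)) * star (π w)) := by
    rw [hsa'.star_eq, map_mul, map_mul, q1, q3]
    simp only [map_mul, mul_assoc]
  have n1 : ‖π w' * π (p * s)‖ ≤ M :=
    (norm_mul_le _ _).trans (mul_le_mul nw' nv (norm_nonneg _) (by positivity))
  have n2 : ‖star (π (k * t)) * star (π w)‖ ≤ M' := by
    refine (norm_mul_le _ _).trans ?_
    rw [norm_star, norm_star, mul_comm]
    exact mul_le_mul nw nx (norm_nonneg _) (by positivity)
  have n3 : ‖π (star e' * c * e)‖ < δ := by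
    rw [key]
    have a1 := norm_mul_le ((π w' * π (p * s)) * (star (π p * π s) * π c * (π k * π t)))
      (star (π (k * t)) * star (π w))
    have a2 := norm_mul_le (π w' * π (p * s)) (star (π p * π s) * π c * (π k * π t))
    have a3 : ‖π w' * π (p * s)‖ * ‖star (π p * π s) * π c * (π k * π t)‖ ≤ M * ε :=
      mul_le_mul n1 h3.le (norm_nonneg _) hM0
    have a4 : ‖(π w' * π (p * s)) * (star (π p * π s) * π c * (π k * π t))‖ *
        ‖star (π (k * t)) * star (π w)‖ ≤ (M * ε) * M' :=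
      mul_le_mul (a2.trans a3) n2 (norm_nonneg _) (by positivity)
    have a5 : ε * (M * M' + 1) ≤ δ := (le_div_iff₀ hD).1 hεδ
    nlinarith
  obtain ⟨j, hj, hj'⟩ := hl _ δ n3
  exact ⟨p', k', hp'0, hk'0, hp's, hk's, hp'c, hk'c, e', e, j, hep, hek, hj, hj'.le⟩

end Crest.Agent.R110
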